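import Vale.Agent.P278.Defs

/-! P278: uniform atlases with a closed taming form, holomorphic maps, product structures. -/

open Metric Set Filter Topology

namespace Vale.Agent.P278

/-- The two-form `Ω` is closed at `p`. -/
def ClosedAt {V : Type} [NormedAddCommGroup V] [NormedSpace ℝ V] (Ω : V → V → V → ℝ) (p : V) :
    Prop :=
  ∀ u v w, fderiv ℝ (fun q => Ω q v w) p u + fderiv ℝ (fun q => Ω q w u) p v +
    fderiv ℝ (fun q => Ω q u v) p w = 0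

/-- A uniform holomorphic atlas with a closed two-form that tames the complex structure. -/
structure Atl (M P : Type) [TopologicalSpace M] [NormedAddCommGroup P] [NormedSpace ℝ P]
    [NormedSpace ℂ P] where
  ι : Type
  c : ι → OpenPartialHomeomorph M P
  tgt : ∀ a, (c a).target = ball 0 4
  cover : ∀ m, ∃ a, m ∈ (c a).source ∧ ‖c a m‖ < 1
  trans : ∀ a b m, m ∈ (c a).source → m ∈ (c b).source →
    AnalyticAt ℂ (c b ∘ (c a).symm) (c a m)
  Ω : ι → P → P →L[ℝ] P →L[ℝ] ℝ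
  lam : ℝ
  Lam : ℝ
  lam_pos : 0 < lam
  lam_le : lam ≤ Lam
  smooth : ∀ a, ContDiffOn ℝ 1 (Ω a) (ball 0 4)
  alt : ∀ a, ∀ p ∈ ball (0 : P) 4, ∀ u v, Ω a p u v = -Ω a p v u
  closed : ∀ a, ∀ p ∈ ball (0 : P) 4, ClosedAt (fun q u v => Ω a q u v) p
  tame : ∀ a, ∀ p ∈ ball (0 : P) 4, ∀ u, lam * ‖u‖ ^ 2 ≤ Ω a p u (Complex.I • u)
  bdd : ∀ a, ∀ p ∈ ball (0 : P) 4, ∀ u v, |Ω a p u v| ≤ Lam * ‖u‖ * ‖v‖
  compat : ∀ a b m, m ∈ (c a).source → m ∈ (c b).source → ∀ u v,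
    Ω a (c a m) u v = Ω b (c b m) (fderiv ℂ (c b ∘ (c a).symm) (c a m) u)
      (fderiv ℂ (c b ∘ (c a).symm) (c a m) v)

namespace Atl

section General

variable {M P : Type} [TopologicalSpace M] [NormedAddCommGroup P] [NormedSpace ℝ P]
  [NormedSpace ℂ P] (A : Atl M P)

/-- The ratio of the uniform constants. -/
noncomputable def θ : ℝ := A.Lam / A.lam

/-- A chart in which `m` has norm less than one. -/
noncomputable def ch (m : M) : A.ι := (A.cover m).choose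

/-- The pull-back of the two-form. -/
noncomputable def T {Q : Type} [NormedAddCommGroup Q] [NormedSpace ℝ Q] (Ψ : Q → M) (q ξ η : Q) :
    ℝ :=
  A.Ω (A.ch (Ψ q)) (A.c (A.ch (Ψ q)) (Ψ q)) (fderiv ℝ (A.c (A.ch (Ψ q)) ∘ Ψ) q ξ)
    (fderiv ℝ (A.c (A.ch (Ψ q)) ∘ Ψ) q η)

/-- The energy density in the direction `ξ`. -/
noncomputable def en {Q : Type} [NormedAddCommGroup Q] [NormedSpace ℝ Q] [NormedSpace ℂ Q]
    (Ψ : Q → M) (q ξ : Q) : ℝ := A.T Ψ q ξ (Complex.I • ξ)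

/-- `Ψ` is of class `C²` at `q`. -/
def Sm {Q : Type} [NormedAddCommGroup Q] [NormedSpace ℝ Q] (Ψ : Q → M) (q : Q) : Prop :=
  ContinuousAt Ψ q ∧ ∀ a, Ψ q ∈ (A.c a).source → ContDiffAt ℝ 2 (A.c a ∘ Ψ) q

/-- `Ψ` is holomorphic at `q`. -/
def Hol {Q : Type} [NormedAddCommGroup Q] [NormedSpace ℂ Q] (Ψ : Q → M) (q : Q) : Prop :=
  ContinuousAt Ψ q ∧ ∀ a, Ψ q ∈ (A.c a).source → AnalyticAt ℂ (A.c a ∘ Ψ) q

/-- A holomorphic immersion of an open set `W` of the plane that respects the splitting `π`,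
where `W` contains the points near the origin of every cone in the half space `Re (x + y) > 0`. -/
structure Slice (π : P →L[ℂ] P) (H : ℂ × ℂ → M) (W : Set (ℂ × ℂ)) : Prop where
  proj : ∀ u, π (π u) = π u
  n1 : ∀ u, ‖π u‖ ≤ ‖u‖
  n2 : ∀ u, ‖u - π u‖ ≤ ‖u‖
  isOpen : IsOpen W
  cone : ∀ L : ℝ, ∀ᶠ s in 𝓝[>] (0 : ℝ), ∀ z : ℂ × ℂ, ‖z‖ ≤ L * s → s ≤ (z.1 + z.2).re → z ∈ W
  hol : ∀ z ∈ W, A.Hol H z
  split : ∀ z ∈ W, ∀ a, H z ∈ (A.c a).source → ∀ᶠ z' in 𝓝 z, A.c a (H z') =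
    π (A.c a (H (z'.1, z.2))) + (A.c a (H (z.1, z'.2)) - π (A.c a (H (z.1, z'.2))))
  imm : ∀ z ∈ W, ∀ a, H z ∈ (A.c a).source →
    fderiv ℂ (A.c a ∘ H) z (1, 0) ≠ 0 ∧ fderiv ℂ (A.c a ∘ H) z (0, 1) ≠ 0

end General

section Prod

variable {M κ : Type} [TopologicalSpace M] [Fintype κ] [DecidableEq κ] {d : κ → ℕ}
  (A : Atl M (∀ i, Cn (d i)))

/-- A product of local biholomorphisms. -/
def Bi (f : ∀ i, Cn (d i) → Cn (d i)) (z : ∀ i, Cn (d i)) : Prop :=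
  ∀ i, AnalyticAt ℂ (f i) (z i) ∧ Function.Injective (fderiv ℂ (f i) (z i))

/-- The changes of charts are locally products. -/
def IsProd : Prop :=
  ∀ a b m, m ∈ (A.c a).source → m ∈ (A.c b).source → ∃ f : ∀ i, Cn (d i) → Cn (d i),
    Bi f (A.c a m) ∧ ∀ᶠ p in 𝓝 (A.c a m), A.c b ((A.c a).symm p) = fun i => f i (p i)

/-- `F` is a local biholomorphism at `z` that respects the product structures. -/
def PL (F : (∀ i, Cn (d i)) → M) (z : ∀ i, Cn (d i)) : Prop :=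
  ∃ (a : A.ι) (f : ∀ i, Cn (d i) → Cn (d i)), Bi f z ∧
    ∀ᶠ z' in 𝓝 z, F z' ∈ (A.c a).source ∧ A.c a (F z') = fun i => f i (z' i)

/-- Two points of one plaque in the directions `J`. -/
def Step (J : Finset κ) (m m' : M) : Prop :=
  ∃ a, m ∈ (A.c a).source ∧ m' ∈ (A.c a).source ∧ ∀ i ∉ J, A.c a m i = A.c a m' i

/-- Two points of one leaf in the directions `J`. -/
def Leaf (J : Finset κ) : M → M → Prop := Relation.ReflTransGen (A.Step J)

/-- Near `w` the map `S` is a submersion to a plaque in the directions `I`. -/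
def RG (I : Finset κ) (S : M → M) (w : M) : Prop :=
  ∃ (a : A.ι) (F : (∀ i, Cn (d i)) → M) (y : ∀ i, Cn (d i)), w ∈ (A.c a).source ∧
    A.PL F (I.piecewise (A.c a w) y) ∧ S =ᶠ[𝓝 w] fun m => F (I.piecewise (A.c a m) y)

end Prod

end Atl

end Vale.Agent.P278
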