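import Vale.Agent.P278.AtlX

/-! P278 task AtlM: lifting the uniform atlas to a covering space. -/

open scoped Manifold ContDiff
open Filter Topology

namespace Vale.Agent.P278

theorem exists_sheets {M X : Type} [TopologicalSpace M] [TopologicalSpace X] {π : M → X}
    (hπ : IsCoveringMap π) (x : X) : ∃ U ∈ 𝓝 x, ∀ m, π m ∈ U →
      ∃ e : OpenPartialHomeomorph M X, m ∈ e.source ∧ (e : M → X) = π ∧ U ⊆ e.target := by
  have hx := hπ x
  refine ⟨hx.2.choose, hx.2.choose_spec.2.1.mem_nhds hx.2.choose_spec.1, fun m hm => ?_⟩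
  have hd := hx.1
  have : Nonempty (π ⁻¹' {x}) := ⟨(hx.2.choose_spec.2.2.2.choose ⟨m, hm⟩).2⟩
  set t := hx.toTrivialization' with ht
  have hb : t.baseSet = hx.2.choose := rfl
  refine ⟨
    { toFun := π
      invFun := fun b => t.toOpenPartialHomeomorph.symm (b, (t m).2)
      source := t.source ∩ (Prod.snd ∘ t) ⁻¹' {(t m).2}
      target := t.baseSet
      map_source' := fun y hy => t.mem_source.1 hy.1
      map_target' := fun b hb => ⟨t.map_target (t.mem_target.2 hb), ?_⟩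
      left_inv' := fun y hy => ?_
      right_inv' := fun b hb => t.proj_symm_apply' hb
      open_source := t.continuousOn_toFun.isOpen_inter_preimage t.open_source
        (continuous_snd.isOpen_preimage _ (isOpen_discrete _))
      open_target := t.open_baseSet
      continuousOn_toFun := hπ.continuous.continuousOn
      continuousOn_invFun := t.continuousOn_symm_prodMk_left }, ⟨t.mem_source.2 hm, rfl⟩, rfl,
    hb.ge⟩
  · show (t (t.toOpenPartialHomeomorph.symm (b, (t m).2))).2 = (t m).2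
    rw [t.apply_symm_apply' hb]
  · have h2 : (t y).2 = (t m).2 := hy.2
    rw [← h2]
    exact t.symm_apply_mk_proj hy.1

theorem ProdChart.lift {n : ℕ} {X κ : Type} [Fintype κ] [TopologicalSpace X]
    [ChartedSpace (Cn n) X] {E : κ → ∀ x : X, Submodule ℂ (TangentSpace 𝓘(ℂ, Cn n) x)}
    {d : κ → ℕ} {M : Type} [TopologicalSpace M] [ChartedSpace (Cn n) M] {π : M → X}
    (hπ' : IsLocalDiffeomorph 𝓘(ℂ, Cn n) 𝓘(ℂ, Cn n) ω π) {e : OpenPartialHomeomorph M X}
    (he : (e : M → X) = π) {c : OpenPartialHomeomorph X (∀ i, Cn (d i))} (h : ProdChart E c) :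
    ProdChart
      (fun i (m : M) => (E i (π m)).comap (mfderiv 𝓘(ℂ, Cn n) 𝓘(ℂ, Cn n) π m).toLinearMap)
      (e.trans c) := by
  subst he
  have hs : ContMDiffOn 𝓘(ℂ, Cn n) 𝓘(ℂ, Cn n) ω e.symm e.target := by
    intro b hb
    have hl := hπ' (e.symm b)
    have a1 := hl.localInverse_contMDiffAt
    rw [e.right_inv hb] at a1
    refine (a1.congr_of_eventuallyEq ?_).contMDiffWithinAt
    have a2 : ∀ᶠ b' in 𝓝 b, e.symm b' ∈ hl.localInverse.target :=
      (e.continuousAt_symm hb).preimage_mem_nhds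
        (hl.localInverse.open_target.mem_nhds hl.localInverse_mem_target)
    filter_upwards [a2, e.open_target.mem_nhds hb] with b' h1 h2
    have a3 := hl.localInverse_left_inv h1
    rw [e.right_inv h2] at a3
    exact a3.symm
  refine ⟨h.1.comp hπ'.contMDiff.contMDiffOn fun y hy => hy.2,
    hs.comp (h.2.1.mono fun p hp => hp.1) fun p hp => hp.2, fun y hy i v => ?_⟩
  have a1 := mfderiv_comp y (hol_mdiff h.1 hy.2) (hπ'.mdifferentiable (by simp) y)
  have a2 := DFunLike.congr_fun a1 v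
  refine (h.2.2 (e y) hy.2 i (mfderiv 𝓘(ℂ, Cn n) 𝓘(ℂ, Cn n) e y v)).trans ?_
  refine forall₂_congr fun j _ => ?_
  exact (congrFun a2 j).symm.congr_left

theorem trans_eventuallyEq {M X P : Type} [TopologicalSpace M] [TopologicalSpace X]
    [TopologicalSpace P] {e e' : OpenPartialHomeomorph M X} (he : (e' : M → X) = e)
    {c c' : OpenPartialHomeomorph X P} {m : M} (hm : m ∈ (e.trans c).source) :
    (e'.trans c') ∘ (e.trans c).symm =ᶠ[𝓝 (c (e m))] c' ∘ c.symm := by
  have h1 : (e.trans c).target ∈ 𝓝 (c (e m)) :=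
    (e.trans c).open_target.mem_nhds ((e.trans c).map_source hm)
  filter_upwards [h1] with p hp
  show c' (e' (e.symm (c.symm p))) = c' (c.symm p)
  rw [he, e.right_inv hp.2]

theorem exists_atlM {n : ℕ} {X κ : Type} [Fintype κ] [DecidableEq κ] [TopologicalSpace X]
    [CompactSpace X] [ChartedSpace (Cn n) X] [IsManifold 𝓘(ℂ, Cn n) ω X]
    {h : ∀ x : X, TangentSpace 𝓘(ℂ, Cn n) x →ₗ⋆[ℂ] TangentSpace 𝓘(ℂ, Cn n) x →ₗ[ℂ] ℂ}
    (hK : IsKaehler h) {E : κ → ∀ x : X, Submodule ℂ (TangentSpace 𝓘(ℂ, Cn n) x)} {d : κ → ℕ}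
    (hc : ∀ x : X, ∃ c : OpenPartialHomeomorph X (∀ i, Cn (d i)), x ∈ c.source ∧ ProdChart E c)
    {M : Type} [TopologicalSpace M] [ChartedSpace (Cn n) M] [IsManifold 𝓘(ℂ, Cn n) ω M]
    (π : M → X) (hπ : IsCoveringMap π) (hπ' : IsLocalDiffeomorph 𝓘(ℂ, Cn n) 𝓘(ℂ, Cn n) ω π) :
    ∃ A : Atl M (∀ i, Cn (d i)), A.IsProd ∧ ∀ a, ProdChart
      (fun i (m : M) => (E i (π m)).comap (mfderiv 𝓘(ℂ, Cn n) 𝓘(ℂ, Cn n) π m).toLinearMap)
      (A.c a) := by
  choose U hU hsh using exists_sheets hπ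
  obtain ⟨A, hA⟩ := exists_atlX hK hc U hU
  have h1 : ∀ z : {z : A.ι × M // π z.2 ∈ (A.c z.1).source}, ∃ e : OpenPartialHomeomorph M X,
      z.1.2 ∈ e.source ∧ (e : M → X) = π ∧ (A.c z.1.1).source ⊆ e.target := by
    intro z
    obtain ⟨x, hx⟩ := (hA z.1.1).2
    obtain ⟨e, a1, a2, a3⟩ := hsh x z.1.2 (hx z.2)
    exact ⟨e, a1, a2, hx.trans a3⟩
  choose e hm he ht using h1
  have hP := fun z => ProdChart.lift hπ' (he z) (hA z.1.1).1
  refine ⟨
    { ι := {z : A.ι × M // π z.2 ∈ (A.c z.1).source}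
      c := fun z => (e z).trans (A.c z.1.1)
      tgt := fun z => ?_
      cover := fun m => ?_
      trans := fun a b m ha hb => (prodChart_trans (hP a) (hP b) ha hb).1
      Ω := fun z => A.Ω z.1.1
      lam := A.lam
      Lam := A.Lam
      lam_pos := A.lam_pos
      lam_le := A.lam_le
      smooth := fun a => A.smooth _
      alt := fun a => A.alt _
      closed := fun a => A.closed _
      tame := fun a => A.tame _
      bdd := fun a => A.bdd _
      compat := fun a b m ha hb u v => ?_ },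
    fun a b m ha hb => (prodChart_trans (hP a) (hP b) ha hb).2, hP⟩
  · rw [← A.tgt z.1.1]
    exact Set.inter_eq_left.2 fun p hp => ht z ((A.c z.1.1).map_target hp)
  · obtain ⟨a, a1, a2⟩ := A.cover (π m)
    refine ⟨⟨(a, m), a1⟩, ⟨hm ⟨(a, m), a1⟩, ?_⟩, ?_⟩
    · show e _ m ∈ (A.c a).source
      rw [he]
      exact a1
    · show ‖A.c a (e _ m)‖ < 1
      rw [he]
      exact a2
  · have hab : (e b : M → X) = e a := (he b).trans (he a).symm
    have k1 := (trans_eventuallyEq hab (c' := A.c b.1.1) ha).fderiv_eq (𝕜 := ℂ)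
    have hb' : e a m ∈ (A.c b.1.1).source := by
      rw [← hab]
      exact hb.2
    have k2 := A.compat a.1.1 b.1.1 (e a m) ha.2 hb' u v
    rw [← k1] at k2
    refine k2.trans ?_
    show A.Ω b.1.1 (A.c b.1.1 (e a m)) _ _ = A.Ω b.1.1 (A.c b.1.1 (e b m)) _ _
    rw [hab]
    rfl

end Vale.Agent.P278
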