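import Vale.Agent.P278.AtlXAuxB

/-! P278 task AtlX: normalised charts with uniform bounds for the form. -/

open scoped Manifold ContDiff
open Filter Topology Set Metric

namespace Vale.Agent.P278

theorem exists_tame_bound {P : Type} [NormedAddCommGroup P] [NormedSpace ℝ P] [NormedSpace ℂ P]
    [IsScalarTower ℝ ℂ P] [ProperSpace P] {K : Set P} (hK : IsCompact K)
    {Ω : P → P →L[ℝ] P →L[ℝ] ℝ} (hΩ : ContinuousOn Ω K)
    (hpos : ∀ p ∈ K, ∀ u, u ≠ 0 → 0 < Ω p u (Complex.I • u)) :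
    ∃ lam : ℝ, 0 < lam ∧ ∀ p ∈ K, ∀ u, lam * ‖u‖ ^ 2 ≤ Ω p u (Complex.I • u) := by
  have hc : ContinuousOn (fun z : P × P => Ω z.1 z.2 (Complex.I • z.2)) (K ×ˢ sphere 0 1) := by
    have a1 : ContinuousOn (fun z : P × P => Ω z.1) (K ×ˢ sphere 0 1) :=
      hΩ.comp continuous_fst.continuousOn fun z hz => hz.1
    exact (a1.clm_apply continuous_snd.continuousOn).clm_apply
      (continuous_snd.const_smul Complex.I).continuousOn
  obtain ⟨lam, hl, hb⟩ := (hK.prod (isCompact_sphere (0 : P) 1)).exists_forall_le' hc (a := 0)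
    (fun z hz => hpos _ hz.1 _ (by
      intro h0
      have := hz.2
      rw [h0] at this
      simp at this))
  refine ⟨lam, hl, fun p hp u => ?_⟩
  by_cases hu : u = 0
  · simp [hu]
  have hn : 0 < ‖u‖ := norm_pos_iff.2 hu
  have h1 := hb (p, ‖u‖⁻¹ • u) ⟨hp, by simp [norm_smul, hn.ne']⟩
  have e : Complex.I • (‖u‖⁻¹ • u) = ‖u‖⁻¹ • (Complex.I • u) := by
    rw [← algebraMap_smul ℂ (‖u‖⁻¹) u, ← algebraMap_smul ℂ (‖u‖⁻¹) (Complex.I • u), smul_smul,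
      smul_smul, mul_comm]
  simp only [e, map_smul, ContinuousLinearMap.smul_apply, smul_eq_mul] at h1
  have h2 := mul_le_mul_of_nonneg_right h1 (sq_nonneg ‖u‖)
  refine h2.trans (le_of_eq ?_)
  field_simp

theorem exists_bdd_bound {P : Type} [NormedAddCommGroup P] [NormedSpace ℝ P] {K : Set P}
    (hK : IsCompact K) {Ω : P → P →L[ℝ] P →L[ℝ] ℝ} (hΩ : ContinuousOn Ω K) :
    ∃ Lam : ℝ, ∀ p ∈ K, ∀ u v, |Ω p u v| ≤ Lam * ‖u‖ * ‖v‖ := by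
  obtain ⟨C, hC⟩ := hK.exists_bound_of_continuousOn (E := P →L[ℝ] P →L[ℝ] ℝ) (f := Ω) hΩ
  refine ⟨C, fun p hp u v => ((Ω p).le_opNorm₂ u v).trans ?_⟩
  gcongr
  exact hC p hp

/-- The affine homeomorphism `q ↦ t⁻¹ • (q - z)`. -/
noncomputable def affH {P : Type} [NormedAddCommGroup P] [NormedSpace ℂ P] (z : P) {t : ℂ}
    (ht : t ≠ 0) : P ≃ₜ P where
  toFun q := t⁻¹ • (q - z)
  invFun p := t • p + z
  left_inv q := by simp [smul_smul, ht]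
  right_inv p := by simp [smul_smul, ht]
  continuous_toFun := by fun_prop
  continuous_invFun := by fun_prop

variable {n : ℕ} {X κ : Type} [Fintype κ] [TopologicalSpace X] [ChartedSpace (Cn n) X]
  {E : κ → ∀ x : X, Submodule ℂ (TangentSpace 𝓘(ℂ, Cn n) x)} {d : κ → ℕ}

theorem exists_normal_chart {c : OpenPartialHomeomorph X (∀ i, Cn (d i))} (h : ProdChart E c)
    {x : X} (hx : x ∈ c.source) {U : Set X} (hU : U ∈ 𝓝 x) :
    ∃ c₁ c₂ : OpenPartialHomeomorph X (∀ i, Cn (d i)), ProdChart E c₁ ∧ ProdChart E c₂ ∧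
      closedBall 0 4 ⊆ c₁.target ∧ c₂.target = ball 0 4 ∧ x ∈ c₂.source ∧ c₂ x = 0 ∧
      c₂.source ⊆ U ∧ (c₂.symm : (∀ i, Cn (d i)) → X) = c₁.symm := by
  have hn : c.target ∩ c.symm ⁻¹' U ∈ 𝓝 (c x) := by
    refine inter_mem (c.open_target.mem_nhds (c.map_source hx)) ?_
    refine (c.continuousAt_symm (c.map_source hx)).preimage_mem_nhds ?_
    rwa [c.left_inv hx]
  obtain ⟨ε, hε, hb⟩ := Metric.mem_nhds_iff.1 hn
  have ht : ((ε / 5 : ℝ) : ℂ) ≠ 0 := by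
    rw [Complex.ofReal_ne_zero]
    positivity
  have hball : ∀ p ∈ closedBall (0 : ∀ i, Cn (d i)) 4,
      ((ε / 5 : ℝ) : ℂ) • p + c x ∈ ball (c x) ε := by
    intro p hp
    rw [mem_closedBall_zero_iff] at hp
    rw [mem_ball_iff_norm, add_sub_cancel_right, norm_smul, Complex.norm_real, Real.norm_eq_abs,
      abs_of_pos (by positivity)]
    nlinarith
  set c₁ := c.transHomeomorph (affH (c x) ht) with hc₁
  have hs₁ : c₁.source = c.source := rfl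
  have ht₁ : ∀ p ∈ closedBall (0 : ∀ i, Cn (d i)) 4, p ∈ c₁.target := fun p hp =>
    (hb (hball p hp)).1
  set c₂ := (c₁.symm.restrOpen (ball 0 4) isOpen_ball).symm with hc₂
  have hs₂ : ∀ y, y ∈ c₂.source ↔ y ∈ c.source ∧ c₁ y ∈ ball 0 4 := fun y => Iff.rfl
  have hx0 : c₁ x = 0 := by
    show ((ε / 5 : ℝ) : ℂ)⁻¹ • (c x - c x) = 0
    simp
  refine ⟨c₁, c₂, h.of_affine (z := c x) ht Subset.rfl (fun _ => rfl) (fun _ => rfl),
    h.of_affine (z := c x) ht (fun y hy => ((hs₂ y).1 hy).1) (fun _ => rfl) (fun _ => rfl),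
    ht₁, ?_, (hs₂ x).2 ⟨hx, by rw [hx0]; simp⟩, hx0, ?_, rfl⟩
  · exact inter_eq_right.2 fun p hp => ht₁ p (ball_subset_closedBall hp)
  · intro y hy
    obtain ⟨h1, h2⟩ := (hs₂ y).1 hy
    have h3 := (hb (hball _ (ball_subset_closedBall h2))).2
    have h4 : c₁.symm (c₁ y) = y := c₁.left_inv h1
    rw [← h4]
    exact h3

theorem exists_local_form [IsManifold 𝓘(ℂ, Cn n) ω X]
    {h : ∀ x : X, TangentSpace 𝓘(ℂ, Cn n) x →ₗ⋆[ℂ] TangentSpace 𝓘(ℂ, Cn n) x →ₗ[ℂ] ℂ}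
    (hK : IsKaehler h) {c : OpenPartialHomeomorph X (∀ i, Cn (d i))} (hc : ProdChart E c)
    {x : X} (hx : x ∈ c.source) {U : Set X} (hU : U ∈ 𝓝 x) :
    ∃ (c' : OpenPartialHomeomorph X (∀ i, Cn (d i)))
      (Ω : (∀ i, Cn (d i)) → (∀ i, Cn (d i)) →L[ℝ] (∀ i, Cn (d i)) →L[ℝ] ℝ) (lam Lam : ℝ),
      ProdChart E c' ∧ c'.target = ball 0 4 ∧ x ∈ c'.source ∧ c' x = 0 ∧ c'.source ⊆ U ∧
      0 < lam ∧ ContDiffOn ℝ 1 Ω (ball 0 4) ∧ ∀ p ∈ ball (0 : ∀ i, Cn (d i)) 4,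
        (∀ u v, Ω p u v = (h (c'.symm p)
          (mfderiv 𝓘(ℂ, ∀ i, Cn (d i)) 𝓘(ℂ, Cn n) c'.symm p u)
          (mfderiv 𝓘(ℂ, ∀ i, Cn (d i)) 𝓘(ℂ, Cn n) c'.symm p v)).im) ∧
        (∀ u v, Ω p u v = -Ω p v u) ∧ ClosedAt (fun q u v => Ω q u v) p ∧
        (∀ u, lam * ‖u‖ ^ 2 ≤ Ω p u (Complex.I • u)) ∧
        ∀ u v, |Ω p u v| ≤ Lam * ‖u‖ * ‖v‖ := by
  obtain ⟨c₁, c₂, h₁, h₂, ht₁, ht₂, hx₂, hx0, hU₂, he⟩ := exists_normal_chart hc hx hU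
  obtain ⟨Ω, hΩ, hf⟩ := form_in_chart hK c₁ h₁.1 h₁.2.1
  have hcont : ContinuousOn Ω (closedBall 0 4) := hΩ.continuousOn.mono ht₁
  obtain ⟨lam, hl, hlam⟩ := exists_tame_bound (isCompact_closedBall _ _) hcont
    fun p hp => (hf p (ht₁ hp)).2.2.2
  obtain ⟨Lam, hLam⟩ := exists_bdd_bound (isCompact_closedBall _ _) hcont
  refine ⟨c₂, Ω, lam, Lam, h₂, ht₂, hx₂, hx0, hU₂, hl,
    hΩ.mono (ball_subset_closedBall.trans ht₁), fun p hp => ?_⟩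
  have hp' := ball_subset_closedBall hp
  rw [he]
  exact ⟨(hf p (ht₁ hp')).1, (hf p (ht₁ hp')).2.1, (hf p (ht₁ hp')).2.2.1, hlam p hp',
    hLam p hp'⟩

end Vale.Agent.P278
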