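import Vale.Agent.P278.Frob

/-! P278 task FrobB: first integrals of an involutive analytic distribution. -/

open Filter Topology
open scoped ContDiff

namespace Vale.Agent.P278

theorem fb_inv_chart {V W : Type} [NormedAddCommGroup V] [NormedSpace ℂ V]
    [FiniteDimensional ℂ V] [NormedAddCommGroup W] [NormedSpace ℂ W] [FiniteDimensional ℂ W]
    (f : V → W) (p₀ : V) (hf : AnalyticAt ℂ f p₀) (hinj : Function.Injective (fderiv ℂ f p₀))
    (hdim : Module.finrank ℂ V = Module.finrank ℂ W) (U : Set V) (hU : U ∈ 𝓝 p₀) :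
    ∃ e : OpenPartialHomeomorph V W, (e : V → W) = f ∧ p₀ ∈ e.source ∧ e.source ⊆ U ∧
      AnalyticOnNhd ℂ f e.source ∧ AnalyticOnNhd ℂ e.symm e.target := by
  haveI : CompleteSpace V := FiniteDimensional.complete ℂ V
  haveI : CompleteSpace W := FiniteDimensional.complete ℂ W
  let i : V ≃L[ℂ] W :=
    ((fderiv ℂ f p₀ : V →ₗ[ℂ] W).linearEquivOfInjective hinj hdim).toContinuousLinearEquiv
  have hi : fderiv ℂ f p₀ = (i : V →L[ℂ] W) := by
    ext v; simp [i]
  have hs : HasStrictFDerivAt f (i : V →L[ℂ] W) p₀ := hi ▸ hf.hasStrictFDerivAt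
  let e₀ := hs.toOpenPartialHomeomorph f
  have he₀ : (e₀ : V → W) = f := hs.toOpenPartialHomeomorph_coe
  have hp₀ : p₀ ∈ e₀.source := hs.mem_toOpenPartialHomeomorph_source
  have hsym : AnalyticAt ℂ e₀.symm (f p₀) := by
    have := e₀.analyticAt_symm' (i := i) hp₀ (he₀ ▸ hf) (he₀ ▸ hi)
    rwa [he₀] at this
  have h1 : ∀ᶠ p in 𝓝 p₀, AnalyticAt ℂ e₀.symm (f p) :=
    hf.continuousAt.eventually hsym.eventually_analyticAt
  have h2 : ∀ᶠ p in 𝓝 p₀, p ∈ U ∧ AnalyticAt ℂ f p ∧ AnalyticAt ℂ e₀.symm (f p) :=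
    (show ∀ᶠ p in 𝓝 p₀, p ∈ U from hU).and (hf.eventually_analyticAt.and h1)
  obtain ⟨O, hO, hOo, hpO⟩ := eventually_nhds_iff.1 h2
  refine ⟨e₀.restrOpen O hOo, he₀, ⟨hp₀, hpO⟩, fun p hp => (hO p hp.2).1,
    fun p hp => (hO p hp.2).2.1, fun q hq => ?_⟩
  have hq1 : q ∈ e₀.target := hq.1
  have hq2 : e₀.symm q ∈ O := hq.2
  have := (hO _ hq2).2.2
  rw [← he₀, e₀.right_inv hq1] at this
  exact this

/-- A frame of the distribution in graph form. -/
theorem fb_frame {V E F ι : Type} [NormedAddCommGroup V] [NormedSpace ℂ V]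
    [FiniteDimensional ℂ V] [NormedAddCommGroup E] [NormedSpace ℂ E] [FiniteDimensional ℂ E]
    [NormedAddCommGroup F] [NormedSpace ℂ F] [FiniteDimensional ℂ F]
    [Fintype ι] (D : V → Submodule ℂ V) (p₀ : V) (s : ι → V → V) (L : V ≃L[ℂ] E × F)
    (hL : ∀ u, L.symm (u, 0) ∈ D p₀)
    (hs : ∀ j, AnalyticAt ℂ (s j) p₀)
    (hspan : ∀ᶠ p in 𝓝 p₀, Submodule.span ℂ (Set.range fun j => s j p) = D p)
    (hrank : ∀ᶠ p in 𝓝 p₀, Module.finrank ℂ (D p) = Module.finrank ℂ E) :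
    ∃ N : V → E →L[ℂ] V, AnalyticAt ℂ N p₀ ∧ ∀ᶠ p in 𝓝 p₀, (∀ u, (L (N p u)).1 = u) ∧
      ∀ v, v ∈ D p ↔ v = N p (L v).1 := by
  classical
  haveI : CompleteSpace E := FiniteDimensional.complete ℂ E
  haveI : CompleteSpace V := FiniteDimensional.complete ℂ V
  let S : V → (ι → ℂ) →L[ℂ] V := fun p =>
    ∑ j, (ContinuousLinearMap.proj (R := ℂ) (φ := fun _ : ι => ℂ) j).smulRight (s j p)
  have hSap : ∀ p c, S p c = ∑ j, c j • s j p := by
    intro p c; simp [S]
  have hS : ContDiffAt ℂ ω S p₀ := by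
    refine ContDiffAt.sum fun j _ => ?_
    exact contDiffAt_const.smulRight (AnalyticAt.contDiffAt (hs j))
  have hb : ∀ k : Fin (Module.finrank ℂ E), ∃ c : ι → ℂ,
      S p₀ c = L.symm (Module.finBasis ℂ E k, 0) := by
    intro k
    have h := hL (Module.finBasis ℂ E k)
    rw [← hspan.self_of_nhds, Submodule.mem_span_range_iff_exists_fun] at h
    obtain ⟨c, hc⟩ := h
    exact ⟨c, by rw [hSap, hc]⟩
  choose c hc using hb
  let R : E →L[ℂ] (ι → ℂ) := LinearMap.toContinuousLinearMap ((Module.finBasis ℂ E).constr ℂ c)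
  let pr : V →L[ℂ] E := (ContinuousLinearMap.fst ℂ E F).comp (L : V →L[ℂ] E × F)
  let M : V → E →L[ℂ] E := fun p => pr.comp ((S p).comp R)
  have hM : ContDiffAt ℂ ω M p₀ := contDiffAt_const.clm_comp (hS.clm_comp contDiffAt_const)
  have hM0 : M p₀ = 1 := by
    apply ContinuousLinearMap.coe_injective
    apply (Module.finBasis ℂ E).ext
    intro k
    simp [M, R, pr, hc]
  have hunit : ∀ᶠ p in 𝓝 p₀, IsUnit (M p) := by
    apply hM.continuousAt.eventually
    apply Units.isOpen.mem_nhds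
    rw [hM0]; exact isUnit_one
  have hinv : ContDiffAt ℂ ω (fun p => Ring.inverse (M p)) p₀ := by
    have h1 : AnalyticAt ℂ Ring.inverse (M p₀) := by
      rw [hM0]; exact analyticAt_inverse (𝕜 := ℂ) (1 : (E →L[ℂ] E)ˣ)
    exact AnalyticAt.contDiffAt
      (h1.comp (ContDiffAt.analyticAt hM))
  refine ⟨fun p => ((S p).comp R).comp (Ring.inverse (M p)),
    ContDiffAt.analyticAt ((hS.clm_comp contDiffAt_const).clm_comp hinv), ?_⟩
  filter_upwards [hspan, hrank, hunit] with p hp hr hu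
  set N : E →L[ℂ] V := ((S p).comp R).comp (Ring.inverse (M p)) with hN
  have h1 : ∀ u, (L (N u)).1 = u := by
    intro u
    have := congrArg (fun T : E →L[ℂ] E => T u) (Ring.mul_inverse_cancel (M p) hu)
    exact this
  have h2 : ∀ u, N u ∈ D p := by
    intro u
    rw [← hp, Submodule.mem_span_range_iff_exists_fun]
    exact ⟨R (Ring.inverse (M p) u), (hSap p _).symm⟩
  have hinj : Function.Injective (N : E →ₗ[ℂ] V) := by
    intro u v huv
    have : N u = N v := huv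
    rw [← h1 u, this, h1 v]
  have h3 : LinearMap.range (N : E →ₗ[ℂ] V) = D p := by
    apply Submodule.eq_of_le_of_finrank_eq
    · rintro _ ⟨u, rfl⟩; exact h2 u
    · rw [LinearMap.finrank_range_of_inj hinj, hr]
  refine ⟨h1, fun v => ⟨fun hv => ?_, fun hv => hv ▸ h2 _⟩⟩
  rw [← h3] at hv
  obtain ⟨u, rfl⟩ := hv
  show N u = N (L (N u)).1
  rw [h1]

/-- Straightening in graph coordinates. -/
theorem fb_graph_integral {E F : Type} [NormedAddCommGroup E] [NormedSpace ℂ E]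
    [FiniteDimensional ℂ E] [NormedAddCommGroup F] [NormedSpace ℂ F] [FiniteDimensional ℂ F]
    (A : E × F → E →L[ℂ] F) (hA : AnalyticAt ℂ A 0)
    (hint : ∀ᶠ p in 𝓝 (0 : E × F), ∀ u v,
      fderiv ℂ A p (u, A p u) v = fderiv ℂ A p (v, A p v) u) :
    ∃ ψ : E × F → F, AnalyticAt ℂ ψ 0 ∧
      ∀ᶠ x in 𝓝 (0 : E × F), ∀ w, fderiv ℂ ψ x w = 0 ↔ w.2 = A x w.1 := by
  haveI : CompleteSpace E := FiniteDimensional.complete ℂ E
  haveI : CompleteSpace F := FiniteDimensional.complete ℂ F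
  obtain ⟨φ, hφ, hφ0, hφd⟩ := frob_graph A hA hint
  let Φ : E × F → E × F := fun p => (p.1, φ p)
  have hΦ : AnalyticAt ℂ Φ 0 := analyticAt_fst.prod hφ
  have hΦ0 : Φ 0 = 0 := by
    have : φ (0, 0) = 0 := hφ0.self_of_nhds
    exact Prod.ext rfl this
  have hDΦ : ∀ p, DifferentiableAt ℂ φ p → ∀ w, fderiv ℂ Φ p w = (w.1, fderiv ℂ φ p w) := by
    intro p hp w
    have : HasFDerivAt Φ ((ContinuousLinearMap.fst ℂ E F).prod (fderiv ℂ φ p)) p :=
      hasFDerivAt_fst.prodMk hp.hasFDerivAt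
    rw [this.fderiv]; rfl
  have hb : ∀ b, fderiv ℂ φ 0 (0, b) = b := by
    intro b
    have h1 : HasFDerivAt (fun b : F => φ (0, b))
        ((fderiv ℂ φ 0).comp (ContinuousLinearMap.inr ℂ E F)) 0 := by
      have h0 : HasFDerivAt φ (fderiv ℂ φ 0) ((0 : E), (0 : F)) := hφ.differentiableAt.hasFDerivAt
      exact h0.comp (0 : F) (hasFDerivAt_prodMk_right (0 : E) (0 : F))
    have h2 : HasFDerivAt (fun b : F => φ (0, b)) (ContinuousLinearMap.id ℂ F) 0 :=
      (hasFDerivAt_id (0 : F)).congr_of_eventuallyEq hφ0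
    exact congrArg (fun T : F →L[ℂ] F => T b) (h1.unique h2)
  have hinj : Function.Injective (fderiv ℂ Φ 0) := by
    rw [injective_iff_map_eq_zero]
    rintro ⟨a, b⟩ hw
    rw [hDΦ 0 hφ.differentiableAt] at hw
    have ha : a = 0 := congrArg Prod.fst hw
    have hb' : fderiv ℂ φ 0 (a, b) = 0 := congrArg Prod.snd hw
    subst ha
    rw [hb] at hb'
    simp [hb']
  have hU : {p : E × F | AnalyticAt ℂ φ p ∧ ∀ u, fderiv ℂ φ p (u, 0) = A (p.1, φ p) u} ∈
      𝓝 (0 : E × F) := hφ.eventually_analyticAt.and hφd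
  obtain ⟨e, he, h0, hsub, han, hsym⟩ := fb_inv_chart Φ 0 hΦ hinj rfl _ hU
  have h0t : (0 : E × F) ∈ e.target := by
    have := e.map_source h0
    rwa [he, hΦ0] at this
  refine ⟨fun x => (e.symm x).2, analyticAt_snd.comp (hsym 0 h0t), ?_⟩
  filter_upwards [e.open_target.mem_nhds h0t] with x hx w
  have hy : e.symm x ∈ e.source := e.map_target hx
  have hΦy : Φ (e.symm x) = x := by rw [← he]; exact e.right_inv hx
  have hdΨ : HasFDerivAt e.symm (fderiv ℂ e.symm x) x := (hsym x hx).differentiableAt.hasFDerivAt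
  have hdΦ : HasFDerivAt Φ (fderiv ℂ Φ (e.symm x)) (e.symm x) :=
    (han _ hy).differentiableAt.hasFDerivAt
  have hA1 : ∀ w, fderiv ℂ Φ (e.symm x) (fderiv ℂ e.symm x w) = w := by
    intro w
    have h1 := hdΦ.comp x hdΨ
    have h2 : HasFDerivAt (Φ ∘ e.symm) (ContinuousLinearMap.id ℂ _) x := by
      refine (hasFDerivAt_id x).congr_of_eventuallyEq ?_
      filter_upwards [e.open_target.mem_nhds hx] with z hz
      rw [← he]; exact e.right_inv hz
    exact congrArg (fun T : E × F →L[ℂ] E × F => T w) (h1.unique h2)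
  have hA2 : ∀ w, fderiv ℂ e.symm x (fderiv ℂ Φ (e.symm x) w) = w := by
    intro w
    have hdΨ' : HasFDerivAt e.symm (fderiv ℂ e.symm x) (Φ (e.symm x)) := by rwa [hΦy]
    have h1 := hdΨ'.comp (e.symm x) hdΦ
    have h2 : HasFDerivAt (e.symm ∘ Φ) (ContinuousLinearMap.id ℂ _) (e.symm x) := by
      refine (hasFDerivAt_id _).congr_of_eventuallyEq ?_
      filter_upwards [e.open_source.mem_nhds hy] with z hz
      rw [← he]; exact e.left_inv hz
    exact congrArg (fun T : E × F →L[ℂ] E × F => T w) (h1.unique h2)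
  have hψ : fderiv ℂ (fun x => (e.symm x).2) x w = (fderiv ℂ e.symm x w).2 := by
    rw [hdΨ.snd.fderiv]; rfl
  have hu : ∀ u, fderiv ℂ Φ (e.symm x) (u, 0) = (u, A x u) := by
    intro u
    rw [hDΦ _ (hsub hy).1.differentiableAt, (hsub hy).2 u]
    show (u, A (Φ (e.symm x)) u) = _
    rw [hΦy]
  rw [hψ]
  constructor
  · intro h
    have h1 : fderiv ℂ e.symm x w = ((fderiv ℂ e.symm x w).1, 0) := Prod.ext rfl h
    have h2 := hA1 w
    rw [h1, hu] at h2
    rw [← h2]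
  · intro h
    have h1 : w = (w.1, A x w.1) := Prod.ext rfl h
    rw [h1, ← hu, hA2]

theorem frob_integral {V F ι : Type} [NormedAddCommGroup V] [NormedSpace ℂ V]
    [FiniteDimensional ℂ V] [NormedAddCommGroup F] [NormedSpace ℂ F] [FiniteDimensional ℂ F]
    [Fintype ι] (D : V → Submodule ℂ V) (p₀ : V) (s : ι → V → V)
    (hs : ∀ j, AnalyticAt ℂ (s j) p₀)
    (hspan : ∀ᶠ p in 𝓝 p₀, Submodule.span ℂ (Set.range fun j => s j p) = D p)
    (hrank : ∀ᶠ p in 𝓝 p₀, Module.finrank ℂ (D p) + Module.finrank ℂ F = Module.finrank ℂ V)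
    (hinv : ∀ X Y : V → V, AnalyticAt ℂ X p₀ → AnalyticAt ℂ Y p₀ → (∀ᶠ p in 𝓝 p₀, X p ∈ D p) →
      (∀ᶠ p in 𝓝 p₀, Y p ∈ D p) → ∀ᶠ p in 𝓝 p₀, VectorField.lieBracket ℂ X Y p ∈ D p) :
    ∃ ψ : V → F, AnalyticAt ℂ ψ p₀ ∧ ∀ᶠ p in 𝓝 p₀, ∀ v, fderiv ℂ ψ p v = 0 ↔ v ∈ D p := by
  haveI : CompleteSpace V := FiniteDimensional.complete ℂ V
  haveI : CompleteSpace F := FiniteDimensional.complete ℂ F
  haveI : CompleteSpace (D p₀) := FiniteDimensional.complete ℂ (D p₀)
  obtain ⟨C, hC⟩ := (D p₀).exists_isCompl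
  have hCF : Module.finrank ℂ C = Module.finrank ℂ F := by
    have h1 := Submodule.finrank_add_eq_of_isCompl hC
    have h2 := hrank.self_of_nhds
    omega
  let j : C ≃ₗ[ℂ] F := LinearEquiv.ofFinrankEq _ _ hCF
  let L₀ : V ≃ₗ[ℂ] (D p₀) × F :=
    (Submodule.prodEquivOfIsCompl (D p₀) C hC).symm.trans ((LinearEquiv.refl ℂ _).prodCongr j)
  let L : V ≃L[ℂ] (D p₀) × F := L₀.toContinuousLinearEquiv
  have hL : ∀ u, L.symm (u, 0) ∈ D p₀ := by
    intro u
    have : L.symm (u, 0) = u := by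
      simp [L, L₀]
    rw [this]; exact u.2
  have hrank' : ∀ᶠ p in 𝓝 p₀, Module.finrank ℂ (D p) = Module.finrank ℂ (D p₀) := by
    filter_upwards [hrank] with p hp
    have h2 := hrank.self_of_nhds
    omega
  obtain ⟨N, hN, hND⟩ := fb_frame D p₀ s L hL hs hspan hrank'
  have hNu : ∀ u, AnalyticAt ℂ (fun p => N p u) p₀ := fun u =>
    ContDiffAt.analyticAt
      ((AnalyticAt.contDiffAt hN).clm_apply contDiffAt_const)
  have hmem : ∀ u, ∀ᶠ p in 𝓝 p₀, N p u ∈ D p := by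
    intro u
    filter_upwards [hND] with p hp
    rw [hp.2, hp.1]
  have hder : ∀ p, DifferentiableAt ℂ N p → ∀ u w,
      fderiv ℂ (fun q => N q u) p w = fderiv ℂ N p w u := by
    intro p hp u w
    rw [fderiv_clm_apply hp (differentiableAt_const u)]
    simp
  have hfst : ∀ᶠ p in 𝓝 p₀, ∀ w u, (L (fderiv ℂ N p w u)).1 = 0 := by
    filter_upwards [hND.eventually_nhds, hN.eventually_analyticAt] with p hp hpa w u
    have hd : DifferentiableAt ℂ (fun q => N q u) p :=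
      hpa.differentiableAt.clm_apply (differentiableAt_const u)
    have h1 : HasFDerivAt (fun q => (L (N q u)).1) _ p :=
      ((L : V →L[ℂ] (D p₀) × F).hasFDerivAt.comp p hd.hasFDerivAt).fst
    have h2 : HasFDerivAt (fun q => (L (N q u)).1) (0 : V →L[ℂ] D p₀) p := by
      refine (hasFDerivAt_const u p).congr_of_eventuallyEq ?_
      filter_upwards [hp] with q hq
      exact hq.1 u
    have h3 := congrArg (fun T : V →L[ℂ] D p₀ => T w) (h1.unique h2)
    rw [← hder p hpa.differentiableAt]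
    exact h3
  have hbr : ∀ u v, ∀ᶠ p in 𝓝 p₀, fderiv ℂ N p (N p u) v = fderiv ℂ N p (N p v) u := by
    intro u v
    filter_upwards [hinv _ _ (hNu u) (hNu v) (hmem u) (hmem v), hND, hfst,
      hN.eventually_analyticAt] with p hp hp2 hp3 hpa
    rw [VectorField.lieBracket, hder p hpa.differentiableAt, hder p hpa.differentiableAt,
      hp2.2, map_sub, Prod.fst_sub, hp3, hp3, sub_zero, map_zero] at hp
    exact sub_eq_zero.1 hp
  have hbr2 : ∀ᶠ p in 𝓝 p₀, ∀ u v, fderiv ℂ N p (N p u) v = fderiv ℂ N p (N p v) u := by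
    have h1 : ∀ᶠ p in 𝓝 p₀, ∀ k l, fderiv ℂ N p (N p (Module.finBasis ℂ (D p₀) k))
        (Module.finBasis ℂ (D p₀) l) =
        fderiv ℂ N p (N p (Module.finBasis ℂ (D p₀) l)) (Module.finBasis ℂ (D p₀) k) :=
      eventually_all.2 fun k => eventually_all.2 fun l => hbr _ _
    filter_upwards [h1] with p hp u v
    let B : D p₀ →ₗ[ℂ] D p₀ →ₗ[ℂ] V := LinearMap.mk₂ ℂ (fun u v => fderiv ℂ N p (N p u) v)
      (by intros; simp) (by intros; simp) (by intros; simp) (by intros; simp)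
    have hB : B = B.flip := LinearMap.ext_basis (Module.finBasis ℂ (D p₀))
      (Module.finBasis ℂ (D p₀)) fun k l => hp k l
    exact congrArg (fun T : D p₀ →ₗ[ℂ] D p₀ →ₗ[ℂ] V => T u v) hB
  let g : (D p₀) × F → V := fun x => p₀ + L.symm x
  have hg : ∀ x, HasFDerivAt g (L.symm : (D p₀) × F →L[ℂ] V) x := fun x =>
    (L.symm : (D p₀) × F →L[ℂ] V).hasFDerivAt.const_add p₀
  have hg0 : g 0 = p₀ := by simp [g]
  have hgt : Tendsto g (𝓝 0) (𝓝 p₀) := by
    have := (hg 0).continuousAt.tendsto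
    rwa [hg0] at this
  let sn : V →L[ℂ] F := (ContinuousLinearMap.snd ℂ (D p₀) F).comp (L : V →L[ℂ] (D p₀) × F)
  let A : (D p₀) × F → D p₀ →L[ℂ] F := fun x => sn.comp (N (g x))
  have hgan : AnalyticAt ℂ g 0 :=
    analyticAt_const.add ((L.symm : (D p₀) × F →L[ℂ] V).analyticAt 0)
  have hA : AnalyticAt ℂ A 0 := by
    have h1 : AnalyticAt ℂ (N ∘ g) 0 := AnalyticAt.comp (by rw [hg0]; exact hN) hgan
    exact ContDiffAt.analyticAt
      (contDiffAt_const.clm_comp (AnalyticAt.contDiffAt h1))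
  have hint : ∀ᶠ x in 𝓝 (0 : (D p₀) × F), ∀ u v,
      fderiv ℂ A x (u, A x u) v = fderiv ℂ A x (v, A x v) u := by
    filter_upwards [hgt.eventually hbr2, hgt.eventually hND,
      hgt.eventually hN.eventually_analyticAt] with x hx hx2 hxa u v
    have hd : ∀ w v, fderiv ℂ A x w v = sn (fderiv ℂ N (g x) (L.symm w) v) := by
      intro w v
      have h1 := hxa.differentiableAt.hasFDerivAt.comp x (hg x)
      have h2 : HasFDerivAt A _ x := (hasFDerivAt_const sn x).clm_comp h1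
      rw [h2.fderiv]
      simp
    have he : ∀ u, L.symm (u, A x u) = N (g x) u := by
      intro u
      rw [ContinuousLinearEquiv.symm_apply_eq]
      exact Prod.ext (hx2.1 u).symm rfl
    rw [hd, hd, he, he, hx u v]
  obtain ⟨ψ, hψ, hψd⟩ := fb_graph_integral A hA hint
  let h : V → (D p₀) × F := fun p => L (p - p₀)
  have hh : ∀ p, HasFDerivAt h (L : V →L[ℂ] (D p₀) × F) p := fun p => by
    have := (L : V →L[ℂ] (D p₀) × F).hasFDerivAt.comp p ((hasFDerivAt_id p).sub_const p₀)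
    rw [ContinuousLinearMap.comp_id] at this
    exact this
  have hh0 : h p₀ = 0 := by simp [h]
  have hht : Tendsto h (𝓝 p₀) (𝓝 0) := by
    have := (hh p₀).continuousAt.tendsto
    rwa [hh0] at this
  have hhan : AnalyticAt ℂ h p₀ :=
    ((L : V →L[ℂ] (D p₀) × F).analyticAt _).comp (analyticAt_id.sub analyticAt_const)
  refine ⟨ψ ∘ h, AnalyticAt.comp (by rw [hh0]; exact hψ) hhan, ?_⟩
  filter_upwards [hht.eventually hψd, hht.eventually hψ.eventually_analyticAt, hND]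
    with p hp hpa hp2 v
  rw [(hpa.differentiableAt.hasFDerivAt.comp p (hh p)).fderiv]
  have hgh : g (h p) = p := by simp [g, h]
  show fderiv ℂ ψ (h p) (L v) = 0 ↔ _
  rw [hp, hp2.2]
  show (L v).2 = (L (N (g (h p)) (L v).1)).2 ↔ _
  rw [hgh]
  constructor
  · intro h1
    apply L.injective
    exact Prod.ext (hp2.1 _).symm h1
  · intro h1
    rw [← h1]

theorem fb_internal {V κ : Type} [AddCommGroup V] [Module ℂ V] [Fintype κ] [DecidableEq κ]
    (D : κ → Submodule ℂ V) (h : DirectSum.IsInternal D) (v : V) (T : Finset κ)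
    (hv : ∀ j ∉ T, v ∈ ⨆ l ∈ {l | l ≠ j}, D l) : v ∈ ⨆ l ∈ T, D l := by
  have h1 : v ∈ iSup D := by rw [h.submodule_iSup_eq_top]; trivial
  obtain ⟨f, hf, hfv⟩ := (Submodule.mem_iSup_iff_exists_finsupp D v).1 h1
  rw [Finsupp.sum_fintype _ _ (fun _ => rfl)] at hfv
  have h2 : ∀ j ∉ T, f j = 0 := by
    intro j hj
    have h3 : f j = v - ∑ l ∈ Finset.univ.erase j, f l := by
      rw [← hfv, ← Finset.add_sum_erase _ _ (Finset.mem_univ j)]; simp
    have h4 : f j ∈ ⨆ l ∈ {l | l ≠ j}, D l := by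
      rw [h3]
      refine Submodule.sub_mem _ (hv j hj) (Submodule.sum_mem _ fun l hl => ?_)
      exact (le_biSup (f := D) (i := l) (Finset.ne_of_mem_erase hl)) (hf l)
    exact Submodule.disjoint_def.1 (h.submodule_iSupIndep j) _ (hf j) h4
  rw [← hfv]
  refine Submodule.sum_mem _ fun l _ => ?_
  by_cases hl : l ∈ T
  · exact (le_biSup (f := D) (i := l) hl) (hf l)
  · rw [h2 l hl]; exact Submodule.zero_mem _

/-- Product coordinates for a direct sum of distributions. -/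
theorem frob_product {V κ : Type} [NormedAddCommGroup V] [NormedSpace ℂ V] [FiniteDimensional ℂ V]
    [Fintype κ] [DecidableEq κ] {F : κ → Type} [∀ i, NormedAddCommGroup (F i)]
    [∀ i, NormedSpace ℂ (F i)] [∀ i, FiniteDimensional ℂ (F i)] (D : κ → V → Submodule ℂ V) (p₀ : V)
    (hsum : ∀ᶠ p in 𝓝 p₀, DirectSum.IsInternal fun i => D i p)
    (hrank : ∀ᶠ p in 𝓝 p₀, ∀ i, Module.finrank ℂ (D i p) = Module.finrank ℂ (F i))
    (ψ : ∀ i, V → F i) (hψ : ∀ i, AnalyticAt ℂ (ψ i) p₀)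
    (hker : ∀ i, ∀ᶠ p in 𝓝 p₀, ∀ v, fderiv ℂ (ψ i) p v = 0 ↔ v ∈ ⨆ j ∈ {j | j ≠ i}, D j p) :
    ∃ e : OpenPartialHomeomorph V (∀ i, F i), p₀ ∈ e.source ∧ AnalyticOnNhd ℂ e e.source ∧
      AnalyticOnNhd ℂ e.symm e.target ∧
      ∀ p ∈ e.source, ∀ i v, v ∈ D i p ↔ ∀ j ≠ i, fderiv ℂ e p v j = 0 := by
  haveI : ∀ i, CompleteSpace (F i) := fun i => FiniteDimensional.complete ℂ (F i)
  let Ψ : V → ∀ i, F i := fun p i => ψ i p
  have hΨ : AnalyticAt ℂ Ψ p₀ := AnalyticAt.pi hψ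
  have hd : ∀ p, (∀ i, DifferentiableAt ℂ (ψ i) p) → ∀ v j,
      fderiv ℂ Ψ p v j = fderiv ℂ (ψ j) p v := by
    intro p hp v j
    rw [fderiv_pi hp]; rfl
  have hinj : Function.Injective (fderiv ℂ Ψ p₀) := by
    rw [injective_iff_map_eq_zero]
    intro v hv
    have := fb_internal _ hsum.self_of_nhds v ∅ fun j _ => by
      rw [← (hker j).self_of_nhds, ← hd p₀ (fun i => (hψ i).differentiableAt), hv]; rfl
    simpa using this
  have hdim : Module.finrank ℂ V = Module.finrank ℂ (∀ i, F i) := by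
    rw [Module.finrank_pi_fintype, ← (LinearEquiv.ofBijective
      (DirectSum.coeLinearMap fun i => D i p₀) hsum.self_of_nhds).finrank_eq,
      Module.finrank_directSum]
    exact Finset.sum_congr rfl fun i _ => hrank.self_of_nhds i
  have hU : {p | (DirectSum.IsInternal fun i => D i p) ∧ (∀ i, AnalyticAt ℂ (ψ i) p) ∧
      ∀ i v, fderiv ℂ (ψ i) p v = 0 ↔ v ∈ ⨆ j ∈ {j | j ≠ i}, D j p} ∈ 𝓝 p₀ :=
    hsum.and ((eventually_all.2 fun i => (hψ i).eventually_analyticAt).and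
      (eventually_all.2 hker))
  obtain ⟨e, he, h0, hsub, han, hsym⟩ := fb_inv_chart Ψ p₀ hΨ hinj hdim _ hU
  refine ⟨e, h0, he ▸ han, hsym, fun p hp i v => ?_⟩
  obtain ⟨h1, h2, h3⟩ := hsub hp
  rw [he]
  constructor
  · intro hv j hj
    rw [hd p (fun i => (h2 i).differentiableAt), h3]
    exact (le_biSup (f := fun l => D l p) (i := i) (Ne.symm hj)) hv
  · intro hv
    have := fb_internal _ h1 v {i} fun j hj => by
      rw [← h3, ← hd p (fun i => (h2 i).differentiableAt)]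
      exact hv j (by simpa using hj)
    simpa using this

end Vale.Agent.P278
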