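import Vale.Agent.P278.Defs
import Vale.Agent.P278.FrobB

/-! P278 task ChartX: product charts on a manifold with an integrable splitting. -/

open scoped Manifold ContDiff
open Filter Topology

namespace Vale.Agent.P278

section Aux

variable {n : ℕ} {X : Type} [TopologicalSpace X] [ChartedSpace (Cn n) X]

/-- The derivative of a chart. -/
noncomputable def dL (φ : OpenPartialHomeomorph X (Cn n)) (y : X) : Cn n →L[ℂ] Cn n :=
  mfderiv 𝓘(ℂ, Cn n) 𝓘(ℂ, Cn n) φ y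

/-- The derivative of the inverse of a chart. -/
noncomputable def dN (φ : OpenPartialHomeomorph X (Cn n)) (p : Cn n) : Cn n →L[ℂ] Cn n :=
  mfderiv 𝓘(ℂ, Cn n) 𝓘(ℂ, Cn n) φ.symm p

/-- A distribution read in a chart. -/
noncomputable def trD (φ : OpenPartialHomeomorph X (Cn n)) (G : X → Submodule ℂ (Cn n))
    (p : Cn n) : Submodule ℂ (Cn n) :=
  (G (φ.symm p)).map (dL φ (φ.symm p)).toLinearMap

variable {φ : OpenPartialHomeomorph X (Cn n)}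

theorem dL_dN (hφ : φ.MDifferentiable 𝓘(ℂ, Cn n) 𝓘(ℂ, Cn n)) {p : Cn n} (hp : p ∈ φ.target) :
    (dL φ (φ.symm p)).comp (dN φ p) = ContinuousLinearMap.id ℂ _ :=
  hφ.comp_symm_deriv hp

theorem dN_dL' (hφ : φ.MDifferentiable 𝓘(ℂ, Cn n) 𝓘(ℂ, Cn n)) {y : X} (hy : y ∈ φ.source) :
    (dN φ (φ y)).comp (dL φ y) = ContinuousLinearMap.id ℂ _ :=
  hφ.symm_comp_deriv hy

theorem dN_dL (hφ : φ.MDifferentiable 𝓘(ℂ, Cn n) 𝓘(ℂ, Cn n)) {p : Cn n} (hp : p ∈ φ.target) :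
    (dN φ p).comp (dL φ (φ.symm p)) = ContinuousLinearMap.id ℂ _ := by
  have := dN_dL' hφ (φ.map_target hp)
  rwa [φ.right_inv hp] at this

theorem dL_dN' (hφ : φ.MDifferentiable 𝓘(ℂ, Cn n) 𝓘(ℂ, Cn n)) {y : X} (hy : y ∈ φ.source) :
    (dL φ y).comp (dN φ (φ y)) = ContinuousLinearMap.id ℂ _ := by
  have := dL_dN hφ (φ.map_source hy)
  rwa [φ.left_inv hy] at this

theorem exists_trD_equiv (hφ : φ.MDifferentiable 𝓘(ℂ, Cn n) 𝓘(ℂ, Cn n)) {p : Cn n}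
    (hp : p ∈ φ.target) : ∃ e : Cn n ≃ₗ[ℂ] Cn n, ∀ G : X → Submodule ℂ (Cn n),
      trD φ G p = (G (φ.symm p)).map (e : Cn n →ₗ[ℂ] Cn n) :=
  ⟨(ContinuousLinearEquiv.equivOfInverse' _ _ (dL_dN hφ hp) (dN_dL hφ hp)).toLinearEquiv,
    fun _ => rfl⟩

theorem mem_trD (hφ : φ.MDifferentiable 𝓘(ℂ, Cn n) 𝓘(ℂ, Cn n)) {p : Cn n} (hp : p ∈ φ.target)
    (G : X → Submodule ℂ (Cn n)) (v : Cn n) : v ∈ trD φ G p ↔ dN φ p v ∈ G (φ.symm p) := by
  constructor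
  · rintro ⟨w, hw, rfl⟩
    have : dN φ p (dL φ (φ.symm p) w) = w := DFunLike.congr_fun (dN_dL hφ hp) w
    exact this.symm ▸ hw
  · intro h
    exact ⟨_, h, DFunLike.congr_fun (dL_dN hφ hp) v⟩

theorem trD_iSup {κ : Type} (S : Set κ) (G : κ → X → Submodule ℂ (Cn n)) (p : Cn n) :
    trD φ (fun x => ⨆ j ∈ S, G j x) p = ⨆ j ∈ S, trD φ (G j) p := by
  simp only [trD, Submodule.map_iSup]

variable [IsManifold 𝓘(ℂ, Cn n) ω X]

theorem analyticAt_push (h1 : ContMDiffOn 𝓘(ℂ, Cn n) 𝓘(ℂ, Cn n) ω φ φ.source)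
    (h2 : ContMDiffOn 𝓘(ℂ, Cn n) 𝓘(ℂ, Cn n) ω φ.symm φ.target) {U : Set X} (hU : IsOpen U)
    {s : X → Cn n} (hs : HolField U s) {p : Cn n} (hp : p ∈ φ.target) (hpU : φ.symm p ∈ U) :
    AnalyticAt ℂ (fun q => dL φ (φ.symm q) (s (φ.symm q))) p := by
  have hφ : φ.MDifferentiable 𝓘(ℂ, Cn n) 𝓘(ℂ, Cn n) :=
    ⟨h1.mdifferentiableOn (by simp), h2.mdifferentiableOn (by simp)⟩
  have a := ContMDiffAt.mpullback_vectorField_preimage (f := φ.symm) (x₀ := p)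
    (hs.contMDiffAt (hU.mem_nhds hpU)) (h2.contMDiffAt (φ.open_target.mem_nhds hp))
    (ContinuousLinearMap.IsInvertible.of_inverse (dN_dL hφ hp) (dL_dN hφ hp)) (by simp)
  rw [contMDiffAt_vectorSpace_iff_contDiffAt] at a
  refine a.analyticAt.congr ?_
  filter_upwards [φ.open_target.mem_nhds hp] with q hq
  have : (dN φ q).inverse = dL φ (φ.symm q) :=
    ContinuousLinearMap.inverse_eq (dN_dL hφ hq) (dL_dN hφ hq)
  exact DFunLike.congr_fun this _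

theorem trD_involutive (h1 : ContMDiffOn 𝓘(ℂ, Cn n) 𝓘(ℂ, Cn n) ω φ φ.source)
    (h2 : ContMDiffOn 𝓘(ℂ, Cn n) 𝓘(ℂ, Cn n) ω φ.symm φ.target) {G : X → Submodule ℂ (Cn n)}
    (hG : IsIntegrable (n := n) (X := X) G) {p₀ : Cn n} (hp₀ : p₀ ∈ φ.target)
    (A B : Cn n → Cn n) (hA : AnalyticAt ℂ A p₀) (hB : AnalyticAt ℂ B p₀)
    (hA' : ∀ᶠ p in 𝓝 p₀, A p ∈ trD φ G p) (hB' : ∀ᶠ p in 𝓝 p₀, B p ∈ trD φ G p) :
    ∀ᶠ p in 𝓝 p₀, VectorField.lieBracket ℂ A B p ∈ trD φ G p := by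
  have hφ : φ.MDifferentiable 𝓘(ℂ, Cn n) 𝓘(ℂ, Cn n) :=
    ⟨h1.mdifferentiableOn (by simp), h2.mdifferentiableOn (by simp)⟩
  obtain ⟨W, hW, hWo, hWp⟩ := eventually_nhds_iff.1 (((hA.eventually_analyticAt.and
    hB.eventually_analyticAt).and (hA'.and hB')).and (φ.open_target.eventually_mem hp₀))
  have hinv : ∀ y ∈ φ.source, (dL φ y).inverse = dN φ (φ y) := fun y hy =>
    ContinuousLinearMap.inverse_eq (dL_dN' hφ hy) (dN_dL' hφ hy)
  have hpb : ∀ (C : Cn n → Cn n), ∀ y ∈ φ.source,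
      VectorField.mpullback 𝓘(ℂ, Cn n) 𝓘(ℂ, Cn n) φ C y = dN φ (φ y) (C (φ y)) :=
    fun C y hy => DFunLike.congr_fun (hinv y hy) _
  have hUo : IsOpen (φ.source ∩ φ ⁻¹' W) := φ.isOpen_inter_preimage hWo
  have hsm : ∀ (C : Cn n → Cn n) (p : Cn n), AnalyticAt ℂ C p →
      ContMDiffAt 𝓘(ℂ, Cn n) 𝓘(ℂ, Cn n).tangent ω
        (fun x => (⟨x, C x⟩ : TangentBundle 𝓘(ℂ, Cn n) (Cn n))) p := fun C p hC =>
    contMDiffAt_vectorSpace_iff_contDiffAt.2 hC.contDiffAt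
  have hhol : ∀ (C : Cn n → Cn n), (∀ p ∈ W, AnalyticAt ℂ C p) →
      HolField (φ.source ∩ φ ⁻¹' W) (VectorField.mpullback 𝓘(ℂ, Cn n) 𝓘(ℂ, Cn n) φ C) := by
    intro C hC y hy
    exact (ContMDiffAt.mpullback_vectorField_preimage (f := φ) (x₀ := y) (hsm C _ (hC _ hy.2))
      (h1.contMDiffAt (φ.open_source.mem_nhds hy.1))
      (ContinuousLinearMap.IsInvertible.of_inverse (dL_dN' hφ hy.1) (dN_dL' hφ hy.1))
      (by simp)).contMDiffWithinAt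
  have hmem : ∀ (C : Cn n → Cn n), (∀ p ∈ W, C p ∈ trD φ G p) → ∀ y ∈ φ.source ∩ φ ⁻¹' W,
      VectorField.mpullback 𝓘(ℂ, Cn n) 𝓘(ℂ, Cn n) φ C y ∈ G y := by
    intro C hC y hy
    have := (mem_trD hφ (φ.map_source hy.1) G _).1 (hC _ hy.2)
    rw [φ.left_inv hy.1] at this
    rw [hpb C y hy.1]
    exact this
  have key := hG _ _ _ hUo (hhol A fun p hp => (hW p hp).1.1.1) (hhol B fun p hp => (hW p hp).1.1.2)
    (hmem A fun p hp => (hW p hp).1.2.1) (hmem B fun p hp => (hW p hp).1.2.2)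
  filter_upwards [hWo.mem_nhds hWp] with p hp
  have hpt : p ∈ φ.target := (hW p hp).2
  have hy : φ.symm p ∈ φ.source := φ.map_target hpt
  have hp' : φ (φ.symm p) ∈ W := by rwa [φ.right_inv hpt]
  have k2 := key (φ.symm p) ⟨hy, hp'⟩
  rw [← VectorField.mpullback_mlieBracket (f := φ) (n := ω)
    ((hsm A _ (hW _ hp').1.1.1).mdifferentiableAt (by simp))
    ((hsm B _ (hW _ hp').1.1.2).mdifferentiableAt (by simp))
    (h1.contMDiffAt (φ.open_source.mem_nhds hy)) le_top] at k2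
  have k3 : (VectorField.mlieBracket 𝓘(ℂ, Cn n) A B : Cn n → Cn n) =
      VectorField.lieBracket ℂ A B := by
    rw [← VectorField.lieBracketWithin_univ]
    exact VectorField.mlieBracketWithin_eq_lieBracketWithin
  rw [mem_trD hφ hpt]
  have k4 := hpb (VectorField.lieBracket ℂ A B) _ hy
  rw [φ.right_inv hpt] at k4
  rw [← k4, ← k3]
  exact k2

end Aux

theorem isInternal_map {V κ : Type} [AddCommGroup V] [Module ℂ V] [DecidableEq κ]
    {A : κ → Submodule ℂ V} (h : DirectSum.IsInternal A) (e : V ≃ₗ[ℂ] V) :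
    DirectSum.IsInternal fun i => (A i).map (e : V →ₗ[ℂ] V) := by
  rw [DirectSum.isInternal_submodule_iff_iSupIndep_and_iSup_eq_top] at h ⊢
  refine ⟨h.1.map_orderIso (Submodule.orderIsoMapComap e), ?_⟩
  rw [← Submodule.map_iSup, h.2, Submodule.map_top, LinearEquiv.range]

theorem rank_compl {V κ : Type} [AddCommGroup V] [Module ℂ V] [FiniteDimensional ℂ V]
    [DecidableEq κ] {A : κ → Submodule ℂ V} (h : DirectSum.IsInternal A) (i : κ) :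
    Module.finrank ℂ (⨆ j ∈ {j | j ≠ i}, A j : Submodule ℂ V) + Module.finrank ℂ (A i) =
      Module.finrank ℂ V := by
  rw [DirectSum.isInternal_submodule_iff_iSupIndep_and_iSup_eq_top] at h
  apply Submodule.finrank_add_eq_of_isCompl
  refine ⟨(h.1 i).symm, codisjoint_iff.2 ?_⟩
  rw [← h.2, iSup_split_single A i, sup_comm]
  rfl

/-- A holomorphic chart in which `E i` is the `i`-th factor. -/
def ProdChart {n : ℕ} {X κ : Type} [Fintype κ] [TopologicalSpace X] [ChartedSpace (Cn n) X]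
    (E : κ → ∀ x : X, Submodule ℂ (TangentSpace 𝓘(ℂ, Cn n) x)) {d : κ → ℕ}
    (c : OpenPartialHomeomorph X (∀ i, Cn (d i))) : Prop :=
  ContMDiffOn 𝓘(ℂ, Cn n) 𝓘(ℂ, ∀ i, Cn (d i)) ω c c.source ∧
    ContMDiffOn 𝓘(ℂ, ∀ i, Cn (d i)) 𝓘(ℂ, Cn n) ω c.symm c.target ∧
    ∀ y ∈ c.source, ∀ i v, v ∈ E i y ↔
      ∀ j ≠ i, (mfderiv 𝓘(ℂ, Cn n) 𝓘(ℂ, ∀ i, Cn (d i)) c y v : ∀ i, Cn (d i)) j = 0

theorem exists_prodChart {n : ℕ} {X : Type} [TopologicalSpace X] [ConnectedSpace X]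
    [ChartedSpace (Cn n) X] [IsManifold 𝓘(ℂ, Cn n) ω X] {k : ℕ}
    (E : Fin k → ∀ x : X, Submodule ℂ (TangentSpace 𝓘(ℂ, Cn n) x))
    (hE : ∀ i, IsHolSubbundle (E i)) (hsum : ∀ x, DirectSum.IsInternal fun i => E i x)
    (hint : ∀ S : Set (Fin k), IsIntegrable fun x => ⨆ i ∈ S, E i x) :
    ∃ d : Fin k → ℕ, ∀ x : X, ∃ c : OpenPartialHomeomorph X (∀ i, Cn (d i)),
      x ∈ c.source ∧ ProdChart E c := by
  obtain ⟨G, hG⟩ : ∃ G : Fin k → X → Submodule ℂ (Cn n), G = E := ⟨E, rfl⟩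
  subst hG
  replace hE : ∀ i x₀, ∃ (U : Set X) (r : ℕ) (s : Fin r → X → Cn n), IsOpen U ∧ x₀ ∈ U ∧
      (∀ j, HolField (n := n) U (s j)) ∧ ∀ x ∈ U, LinearIndependent ℂ (fun j => s j x) ∧
        Submodule.span ℂ (Set.range fun j => s j x) = G i x := hE
  replace hsum : ∀ x, DirectSum.IsInternal fun i => G i x := hsum
  replace hint : ∀ S : Set (Fin k), IsIntegrable (n := n) (X := X)
      (fun x => ⨆ i ∈ S, G i x : X → Submodule ℂ (Cn n)) := hint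
  obtain ⟨x₀⟩ : Nonempty X := inferInstance
  have hlc : ∀ i, IsLocallyConstant fun x => Module.finrank ℂ (G i x) := by
    intro i
    rw [IsLocallyConstant.iff_exists_open]
    intro x
    obtain ⟨U, r, s, hU, hx, -, hs⟩ := hE i x
    have : ∀ y ∈ U, Module.finrank ℂ (G i y) = r := by
      intro y hy
      rw [← (hs y hy).2, finrank_span_eq_card (hs y hy).1, Fintype.card_fin]
    exact ⟨U, hU, hx, fun y hy => by rw [this y hy, this x hx]⟩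
  obtain ⟨d, hd⟩ : ∃ d : Fin k → ℕ, ∀ i y, Module.finrank ℂ (G i y) =
      Module.finrank ℂ (Cn (d i)) := by
    refine ⟨fun i => Module.finrank ℂ (G i x₀), fun i y => ?_⟩
    rw [finrank_euclideanSpace_fin]
    exact (hlc i).apply_eq_of_preconnectedSpace y x₀
  refine ⟨d, fun x => ?_⟩
  obtain ⟨φ, hx, h1, h2⟩ : ∃ φ : OpenPartialHomeomorph X (Cn n), x ∈ φ.source ∧
      ContMDiffOn 𝓘(ℂ, Cn n) 𝓘(ℂ, Cn n) ω φ φ.source ∧
      ContMDiffOn 𝓘(ℂ, Cn n) 𝓘(ℂ, Cn n) ω φ.symm φ.target :=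
    ⟨chartAt (Cn n) x, mem_chart_source _ _, contMDiffOn_chart, contMDiffOn_chart_symm⟩
  have hφ : φ.MDifferentiable 𝓘(ℂ, Cn n) 𝓘(ℂ, Cn n) :=
    ⟨h1.mdifferentiableOn (by simp), h2.mdifferentiableOn (by simp)⟩
  have hp₀ : φ x ∈ φ.target := φ.map_source hx
  have htg : ∀ᶠ p in 𝓝 (φ x), p ∈ φ.target := φ.open_target.mem_nhds hp₀
  have hsumD : ∀ p ∈ φ.target, DirectSum.IsInternal fun i => trD φ (G i) p := by
    intro p hp
    obtain ⟨e, he⟩ := exists_trD_equiv hφ hp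
    simp only [he]
    exact isInternal_map (hsum _) e
  have hrkD : ∀ p ∈ φ.target, ∀ i, Module.finrank ℂ (trD φ (G i) p) =
      Module.finrank ℂ (Cn (d i)) := by
    intro p hp i
    obtain ⟨e, he⟩ := exists_trD_equiv hφ hp
    rw [he, LinearEquiv.finrank_map_eq, hd]
  choose U r s hU hxU hs hsp using fun i => hE i x
  have hUev : ∀ᶠ p in 𝓝 (φ x), ∀ i, φ.symm p ∈ U i := by
    rw [eventually_all]
    intro i
    apply (φ.continuousAt_symm hp₀).eventually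
    rw [φ.left_inv hx]
    exact (hU i).mem_nhds (hxU i)
  have hψ : ∀ i, ∃ ψ : Cn n → Cn (d i), AnalyticAt ℂ ψ (φ x) ∧ ∀ᶠ p in 𝓝 (φ x), ∀ v,
      fderiv ℂ ψ p v = 0 ↔ v ∈ trD φ (fun y => ⨆ j ∈ {j | j ≠ i}, G j y) p := by
    intro i
    refine frob_integral (ι := Σ j : {j | j ≠ i}, Fin (r j)) _ (φ x)
      (fun a q => dL φ (φ.symm q) (s a.1 a.2 (φ.symm q))) (fun a => ?_) ?_ ?_
      (trD_involutive h1 h2 (hint _) hp₀)
    · exact analyticAt_push h1 h2 (hU a.1) (hs a.1 a.2) hp₀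
        (by rw [φ.left_inv hx]; exact hxU a.1)
    · refine hUev.mono fun p hp => ?_
      rw [Set.range_sigma_eq_iUnion_range, Submodule.span_iUnion, trD_iSup, iSup_subtype']
      refine iSup_congr fun j => ?_
      rw [trD, ← (hsp j _ (hp j)).2, Submodule.map_span, ← Set.range_comp]
      rfl
    · refine htg.mono fun p hp => ?_
      rw [trD_iSup, ← hrkD p hp i]
      exact rank_compl (hsumD p hp) i
  choose ψ hψa hψk using hψ
  obtain ⟨e, he, ha1, ha2, hchar⟩ := frob_product (fun i => trD φ (G i)) (φ x)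
    (htg.mono hsumD) (htg.mono hrkD) ψ hψa (fun i => by simpa only [trD_iSup] using hψk i)
  have hm1 : ContMDiffOn 𝓘(ℂ, Cn n) 𝓘(ℂ, ∀ i, Cn (d i)) ω e e.source :=
    (ha1.contDiffOn_of_completeSpace).contMDiffOn
  have hm2 : ContMDiffOn 𝓘(ℂ, ∀ i, Cn (d i)) 𝓘(ℂ, Cn n) ω e.symm e.target :=
    (ha2.contDiffOn_of_completeSpace).contMDiffOn
  refine ⟨φ.trans e, ⟨hx, he⟩, ?_, ?_, ?_⟩
  · exact hm1.comp (h1.mono Set.inter_subset_left) Set.inter_subset_right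
  · exact h2.comp (hm2.mono Set.inter_subset_left) Set.inter_subset_right
  · rintro y ⟨hy, hy'⟩ i v
    have hy'' : φ y ∈ e.source := hy'
    have e1 : mfderiv 𝓘(ℂ, Cn n) 𝓘(ℂ, ∀ i, Cn (d i)) (φ.trans e) y =
        (mfderiv 𝓘(ℂ, Cn n) 𝓘(ℂ, ∀ i, Cn (d i)) e (φ y)).comp
          (mfderiv 𝓘(ℂ, Cn n) 𝓘(ℂ, Cn n) φ y) :=
      mfderiv_comp y (ha1 _ hy'').differentiableAt.mdifferentiableAt (hφ.mdifferentiableAt hy)
    rw [e1, mfderiv_eq_fderiv]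
    have e2 := hchar _ hy'' i (dL φ y v)
    rw [mem_trD hφ (φ.map_source hy), φ.left_inv hy] at e2
    have e3 : dN φ (φ y) (dL φ y v) = v := DFunLike.congr_fun (dN_dL' hφ hy) v
    rw [e3] at e2
    exact e2

end Vale.Agent.P278
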