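import Vale.Agent.P278.Pull
import Vale.Agent.P278.ChartX
import Vale.Agent.P278.AtlXAuxC

/-! P278 task AtlX: the uniform atlas on the compact manifold. -/

open scoped Manifold ContDiff
open Filter Topology

namespace Vale.Agent.P278

/-- Changes between product charts are locally products. -/
theorem prodChart_trans {n : ℕ} {X κ : Type} [Fintype κ] [DecidableEq κ] [TopologicalSpace X]
    [ChartedSpace (Cn n) X] [IsManifold 𝓘(ℂ, Cn n) ω X]
    {E : κ → ∀ x : X, Submodule ℂ (TangentSpace 𝓘(ℂ, Cn n) x)} {d : κ → ℕ}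
    {c c' : OpenPartialHomeomorph X (∀ i, Cn (d i))} (h : ProdChart E c) (h' : ProdChart E c')
    {m : X} (hm : m ∈ c.source) (hm' : m ∈ c'.source) :
    AnalyticAt ℂ (c' ∘ c.symm) (c m) ∧ ∃ f : ∀ i, Cn (d i) → Cn (d i),
      Atl.Bi f (c m) ∧ ∀ᶠ p in 𝓝 (c m), c' (c.symm p) = fun i => f i (p i) :=
  prodChart_trans_aux h h' hm hm'

theorem exists_common_bounds {α : Type} (t : Finset α) (lam Lam : α → ℝ) (hl : ∀ x, 0 < lam x) :
    ∃ l L : ℝ, 0 < l ∧ l ≤ L ∧ ∀ x ∈ t, l ≤ lam x ∧ Lam x ≤ L := by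
  classical
  induction t using Finset.induction_on with
  | empty => exact ⟨1, 1, one_pos, le_rfl, by simp⟩
  | insert a s _ ih =>
    obtain ⟨l, L, h1, h2, h3⟩ := ih
    refine ⟨min l (lam a), max L (Lam a), lt_min h1 (hl a),
      (min_le_left _ _).trans (h2.trans (le_max_left _ _)), fun x hx => ?_⟩
    rcases Finset.mem_insert.1 hx with rfl | hx
    · exact ⟨min_le_right _ _, le_max_right _ _⟩
    · exact ⟨(min_le_left _ _).trans (h3 x hx).1, (h3 x hx).2.trans (le_max_left _ _)⟩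

theorem exists_atlX {n : ℕ} {X κ : Type} [Fintype κ] [DecidableEq κ] [TopologicalSpace X]
    [CompactSpace X] [ChartedSpace (Cn n) X] [IsManifold 𝓘(ℂ, Cn n) ω X]
    {h : ∀ x : X, TangentSpace 𝓘(ℂ, Cn n) x →ₗ⋆[ℂ] TangentSpace 𝓘(ℂ, Cn n) x →ₗ[ℂ] ℂ}
    (hK : IsKaehler h) {E : κ → ∀ x : X, Submodule ℂ (TangentSpace 𝓘(ℂ, Cn n) x)} {d : κ → ℕ}
    (hc : ∀ x : X, ∃ c : OpenPartialHomeomorph X (∀ i, Cn (d i)), x ∈ c.source ∧ ProdChart E c)
    (U : X → Set X) (hU : ∀ x, U x ∈ 𝓝 x) :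
    ∃ A : Atl X (∀ i, Cn (d i)), ∀ a, ProdChart E (A.c a) ∧ ∃ x, (A.c a).source ⊆ U x := by
  choose c₀ hx₀ hc₀ using hc
  choose c Ω lam Lam hP ht hx hx0 hcU hl hsm hf using
    fun x => exists_local_form hK (hc₀ x) (hx₀ x) (hU x)
  have hW : ∀ x, (c x).source ∩ c x ⁻¹' Metric.ball 0 1 ∈ 𝓝 x := fun x =>
    ((c x).isOpen_inter_preimage Metric.isOpen_ball).mem_nhds ⟨hx x, by simp [hx0 x]⟩
  obtain ⟨t, htc⟩ := CompactSpace.elim_nhds_subcover _ hW
  obtain ⟨l, L, hl0, hlL, hb⟩ := exists_common_bounds t lam Lam hl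
  have key : ∀ x m, m ∈ (c x).source → ∀ w w' : Cn n,
      Ω x (c x m) (mfderiv 𝓘(ℂ, Cn n) 𝓘(ℂ, ∀ i, Cn (d i)) (c x) m w)
        (mfderiv 𝓘(ℂ, Cn n) 𝓘(ℂ, ∀ i, Cn (d i)) (c x) m w') = (h m w w').im := by
    intro x m hm w w'
    have hmt := (c x).map_source hm
    rw [ht x] at hmt
    refine ((hf x _ hmt).1 _ _).trans ?_
    have e : ∀ (y : X) (s s' : Cn n), y = m → s = w → s' = w' →
        (h y s s').im = (h m w w').im := by
      rintro y s s' rfl rfl rfl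
      rfl
    exact e _ _ _ ((c x).left_inv hm) (hol_left (hP x).1 (hP x).2.1 hm w)
      (hol_left (hP x).1 (hP x).2.1 hm w')
  refine ⟨
    { ι := {x // x ∈ t}
      c := fun a => c a
      tgt := fun a => ht a
      cover := fun m => ?_
      trans := fun a b m ha hb => (prodChart_trans (hP a) (hP b) ha hb).1
      Ω := fun a => Ω a
      lam := l
      Lam := L
      lam_pos := hl0
      lam_le := hlL
      smooth := fun a => hsm a
      alt := fun a p hp => (hf a p hp).2.1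
      closed := fun a p hp => (hf a p hp).2.2.1
      tame := fun a p hp u => le_trans ?_ ((hf a p hp).2.2.2.1 u)
      bdd := fun a p hp u v => ((hf a p hp).2.2.2.2 u v).trans ?_
      compat := fun a b m ha hb u v => ?_ }, fun a => ⟨hP a, a, hcU a⟩⟩
  · have hm : m ∈ ⋃ x ∈ t, (c x).source ∩ c x ⁻¹' Metric.ball 0 1 := by
      rw [htc]
      trivial
    simp only [Set.mem_iUnion] at hm
    obtain ⟨x, hxt, h1, h2⟩ := hm
    exact ⟨⟨x, hxt⟩, h1, by simpa using h2⟩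
  · exact mul_le_mul_of_nonneg_right (hb a a.2).1 (sq_nonneg _)
  · have := (hb a a.2).2
    gcongr
  · have hmt := (c a).map_source ha
    have hmb : (c a).symm (c a m) ∈ (c b).source := by rwa [(c a).left_inv ha]
    have e1 := key b _ hmb (mfderiv 𝓘(ℂ, ∀ i, Cn (d i)) 𝓘(ℂ, Cn n) (c a).symm (c a m) u)
      (mfderiv 𝓘(ℂ, ∀ i, Cn (d i)) 𝓘(ℂ, Cn n) (c a).symm (c a m) v)
    have hmt' := hmt
    rw [ht a] at hmt'
    refine (((hf a _ hmt').1 u v).trans e1.symm).trans ?_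
    have e : ∀ (y : X) (s s' r r' : ∀ i, Cn (d i)), y = m → s = r → s' = r' →
        Ω b (c b y) s s' = Ω b (c b m) r r' := by
      rintro y s s' r r' rfl rfl rfl
      rfl
    exact e _ _ _ _ _ ((c a).left_inv ha) (hol_trans_fderiv (hP a).2.1 (hP b).1 hmt hmb u).symm
      (hol_trans_fderiv (hP a).2.1 (hP b).1 hmt hmb v).symm

end Vale.Agent.P278
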