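import Vale.Agent.P278.Pull
import Vale.Agent.P278.ChartX

/-! P278 task AtlX: holomorphic charts and their changes. -/

open scoped Manifold ContDiff
open Filter Topology Set

namespace Vale.Agent.P278

section Hol

variable {n : ℕ} {X P : Type} [TopologicalSpace X] [ChartedSpace (Cn n) X]
  [NormedAddCommGroup P] [NormedSpace ℂ P]

theorem hol_mdiff {c : OpenPartialHomeomorph X P}
    (h1 : ContMDiffOn 𝓘(ℂ, Cn n) 𝓘(ℂ, P) ω c c.source) {y : X} (hy : y ∈ c.source) :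
    MDifferentiableAt 𝓘(ℂ, Cn n) 𝓘(ℂ, P) c y :=
  (h1.contMDiffAt (c.open_source.mem_nhds hy)).mdifferentiableAt (by simp)

theorem hol_mdiff_symm {c : OpenPartialHomeomorph X P}
    (h2 : ContMDiffOn 𝓘(ℂ, P) 𝓘(ℂ, Cn n) ω c.symm c.target) {p : P} (hp : p ∈ c.target) :
    MDifferentiableAt 𝓘(ℂ, P) 𝓘(ℂ, Cn n) c.symm p :=
  (h2.contMDiffAt (c.open_target.mem_nhds hp)).mdifferentiableAt (by simp)

theorem hol_left {c : OpenPartialHomeomorph X P}
    (h1 : ContMDiffOn 𝓘(ℂ, Cn n) 𝓘(ℂ, P) ω c c.source)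
    (h2 : ContMDiffOn 𝓘(ℂ, P) 𝓘(ℂ, Cn n) ω c.symm c.target) {y : X} (hy : y ∈ c.source)
    (v : Cn n) :
    mfderiv 𝓘(ℂ, P) 𝓘(ℂ, Cn n) c.symm (c y) (mfderiv 𝓘(ℂ, Cn n) 𝓘(ℂ, P) c y v) = v := by
  have e1 := mfderiv_comp y (hol_mdiff_symm h2 (c.map_source hy)) (hol_mdiff h1 hy)
  have e2 : (c.symm ∘ c) =ᶠ[𝓝 y] id := c.eventually_left_inverse hy
  rw [e2.mfderiv_eq, mfderiv_id] at e1
  exact (DFunLike.congr_fun e1 v).symm

theorem hol_right {c : OpenPartialHomeomorph X P}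
    (h1 : ContMDiffOn 𝓘(ℂ, Cn n) 𝓘(ℂ, P) ω c c.source)
    (h2 : ContMDiffOn 𝓘(ℂ, P) 𝓘(ℂ, Cn n) ω c.symm c.target) {p : P} (hp : p ∈ c.target)
    (u : P) :
    mfderiv 𝓘(ℂ, Cn n) 𝓘(ℂ, P) c (c.symm p) (mfderiv 𝓘(ℂ, P) 𝓘(ℂ, Cn n) c.symm p u) = u := by
  have e1 := mfderiv_comp p (hol_mdiff h1 (c.map_target hp)) (hol_mdiff_symm h2 hp)
  have e2 : (c ∘ c.symm) =ᶠ[𝓝 p] id := c.eventually_right_inverse hp
  rw [e2.mfderiv_eq, mfderiv_id] at e1
  exact (DFunLike.congr_fun e1 u).symm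

variable {P' : Type} [NormedAddCommGroup P'] [NormedSpace ℂ P']

theorem hol_trans_analytic {c : OpenPartialHomeomorph X P}
    {c' : OpenPartialHomeomorph X P'}
    (h2 : ContMDiffOn 𝓘(ℂ, P) 𝓘(ℂ, Cn n) ω c.symm c.target)
    (h1' : ContMDiffOn 𝓘(ℂ, Cn n) 𝓘(ℂ, P') ω c' c'.source) {p : P} (hp : p ∈ c.target)
    (hp' : c.symm p ∈ c'.source) : AnalyticAt ℂ (c' ∘ c.symm) p := by
  have e1 : ContMDiffAt 𝓘(ℂ, P) 𝓘(ℂ, P') ω (c' ∘ c.symm) p :=
    (h1'.contMDiffAt (c'.open_source.mem_nhds hp')).comp p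
      (h2.contMDiffAt (c.open_target.mem_nhds hp))
  exact (contMDiffAt_iff_contDiffAt.1 e1).analyticAt

theorem hol_trans_fderiv {c : OpenPartialHomeomorph X P} {c' : OpenPartialHomeomorph X P'}
    (h2 : ContMDiffOn 𝓘(ℂ, P) 𝓘(ℂ, Cn n) ω c.symm c.target)
    (h1' : ContMDiffOn 𝓘(ℂ, Cn n) 𝓘(ℂ, P') ω c' c'.source) {p : P} (hp : p ∈ c.target)
    (hp' : c.symm p ∈ c'.source) (u : P) :
    fderiv ℂ (c' ∘ c.symm) p u = mfderiv 𝓘(ℂ, Cn n) 𝓘(ℂ, P') c' (c.symm p)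
      (mfderiv 𝓘(ℂ, P) 𝓘(ℂ, Cn n) c.symm p u) := by
  have e1 := mfderiv_comp p (hol_mdiff h1' hp') (hol_mdiff_symm h2 hp)
  rw [mfderiv_eq_fderiv] at e1
  exact DFunLike.congr_fun e1 u

end Hol

section Blocks

variable {κ : Type} [Fintype κ] [DecidableEq κ] {d : κ → ℕ}

theorem block_zero {L : (∀ i, Cn (d i)) →L[ℂ] (∀ i, Cn (d i))}
    (hL : ∀ j (w : Cn (d j)), ∀ i ≠ j, L (Pi.single j w) i = 0) {u : ∀ i, Cn (d i)} {i : κ}
    (hu : u i = 0) : L u i = 0 := by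
  have e : u = ∑ j, Pi.single j (u j) := (Finset.univ_sum_single u).symm
  rw [e, map_sum, Finset.sum_apply]
  refine Finset.sum_eq_zero fun j _ => ?_
  by_cases hj : i = j
  · subst hj
    rw [hu]
    simp
  · exact hL j _ i hj

theorem block_const {g : (∀ i, Cn (d i)) → (∀ i, Cn (d i))} {z : ∀ i, Cn (d i)} {r : ℝ}
    (hg : ∀ p ∈ Metric.ball z r, DifferentiableAt ℂ g p)
    (hL : ∀ p ∈ Metric.ball z r, ∀ j (w : Cn (d j)), ∀ i ≠ j, fderiv ℂ g p (Pi.single j w) i = 0)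
    {p : ∀ i, Cn (d i)} (hp : p ∈ Metric.ball z r) (i : κ) :
    g p i = g (Function.update z i (p i)) i := by
  set q := Function.update z i (p i) with hq
  have hr : 0 < r := Metric.pos_of_mem_ball hp
  have hqb : q ∈ Metric.ball z r := by
    rw [Metric.mem_ball, dist_pi_lt_iff hr] at hp ⊢
    intro j
    by_cases hj : j = i
    · subst hj
      simpa [hq] using hp j
    · simpa [hq, Function.update_of_ne hj] using hr
  have hseg : ∀ t ∈ Icc (0 : ℝ) 1, q + (t : ℂ) • (p - q) ∈ Metric.ball z r := by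
    intro t ht
    have := (convex_ball z r).add_smul_sub_mem hqb hp ht
    simpa using this
  have hd : ∀ t ∈ Icc (0 : ℝ) 1, HasDerivAt (fun s : ℝ => g (q + (s : ℂ) • (p - q)) i) 0 t := by
    intro t ht
    have a1 : HasDerivAt (fun s : ℂ => q + s • (p - q)) (p - q) (t : ℂ) := by
      simpa using ((hasDerivAt_id (t : ℂ)).smul_const (p - q)).const_add q
    have a2 := (hg _ (hseg t ht)).hasFDerivAt.comp_hasDerivAt (t : ℂ) a1
    have a3 := (hasDerivAt_pi.1 a2) i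
    have a4 : fderiv ℂ g (q + (t : ℂ) • (p - q)) (p - q) i = 0 :=
      block_zero (hL _ (hseg t ht)) (by simp [hq])
    rw [a4] at a3
    have a5 : HasDerivAt (fun s : ℝ => (s : ℂ)) 1 t := Complex.ofRealCLM.hasDerivAt
    simpa [Function.comp_def] using a3.scomp t a5
  have := constant_of_has_deriv_right_zero (a := 0) (b := 1)
    (f := fun s : ℝ => g (q + (s : ℂ) • (p - q)) i)
    (fun t ht => (hd t ht).continuousAt.continuousWithinAt)
    (fun t ht => (hd t (Ico_subset_Icc_self ht)).hasDerivWithinAt) 1 ⟨zero_le_one, le_rfl⟩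
  simpa using this

end Blocks

end Vale.Agent.P278
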