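import Vale.Agent.P278.AtlXAux

/-! P278 task AtlX: changes of product charts, restriction and rescaling. -/

open scoped Manifold ContDiff
open Filter Topology Set

namespace Vale.Agent.P278

variable {n : ℕ} {X κ : Type} [Fintype κ] [TopologicalSpace X] [ChartedSpace (Cn n) X]
  {E : κ → ∀ x : X, Submodule ℂ (TangentSpace 𝓘(ℂ, Cn n) x)} {d : κ → ℕ}

theorem prodChart_trans_aux [DecidableEq κ]
    {c c' : OpenPartialHomeomorph X (∀ i, Cn (d i))} (h : ProdChart E c) (h' : ProdChart E c')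
    {m : X} (hm : m ∈ c.source) (hm' : m ∈ c'.source) :
    AnalyticAt ℂ (c' ∘ c.symm) (c m) ∧ ∃ f : ∀ i, Cn (d i) → Cn (d i),
      Atl.Bi f (c m) ∧ ∀ᶠ p in 𝓝 (c m), c' (c.symm p) = fun i => f i (p i) := by
  have hmt := c.map_source hm
  have hm'' : c.symm (c m) ∈ c'.source := by rwa [c.left_inv hm]
  have hA := hol_trans_analytic h.2.1 h'.1 hmt hm''
  refine ⟨hA, ?_⟩
  set g := c' ∘ c.symm with hg
  have hn : c.target ∩ c.symm ⁻¹' c'.source ∈ 𝓝 (c m) :=
    (c.symm.isOpen_inter_preimage c'.open_source).mem_nhds ⟨hmt, hm''⟩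
  obtain ⟨r, hr, hb⟩ := Metric.mem_nhds_iff.1 hn
  have hdiff : ∀ p ∈ Metric.ball (c m) r, DifferentiableAt ℂ g p := fun p hp =>
    (hol_trans_analytic h.2.1 h'.1 (hb hp).1 (hb hp).2).differentiableAt
  have hL : ∀ p ∈ Metric.ball (c m) r, ∀ j (w : Cn (d j)), ∀ i ≠ j,
      fderiv ℂ g p (Pi.single j w) i = 0 := by
    intro p hp j w i hij
    rw [hg, hol_trans_fderiv h.2.1 h'.1 (hb hp).1 (hb hp).2]
    refine (h'.2.2 _ (hb hp).2 j _).1 ((h.2.2 _ (c.map_target (hb hp).1) j _).2 ?_) i hij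
    intro k hk
    rw [hol_right h.1 h.2.1 (hb hp).1]
    exact Pi.single_eq_of_ne (M := fun i => Cn (d i)) hk w
  have hinj : ∀ u, fderiv ℂ g (c m) u = 0 → u = 0 := by
    intro u hu
    rw [hg, hol_trans_fderiv h.2.1 h'.1 hmt hm''] at hu
    have e1 := hol_left h'.1 h'.2.1 hm'' (mfderiv 𝓘(ℂ, ∀ i, Cn (d i)) 𝓘(ℂ, Cn n) c.symm (c m) u)
    rw [hu] at e1
    have e3 := (map_zero (mfderiv 𝓘(ℂ, ∀ i, Cn (d i)) 𝓘(ℂ, Cn n) c'.symm
      (c' (c.symm (c m))))).symm.trans e1
    have e2 := hol_right h.1 h.2.1 hmt u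
    rw [← e3] at e2
    exact e2.symm.trans (map_zero _)
  refine ⟨fun i q => g (Function.update (c m) i q) i, fun i => ⟨?_, ?_⟩, ?_⟩
  · have a1 : AnalyticAt ℂ (Function.update (c m) i) (c m i) :=
      (contDiff_update (𝕜 := ℂ) ω (c m) i).contDiffAt.analyticAt
    have a2 : AnalyticAt ℂ (g ∘ Function.update (c m) i) (c m i) :=
      AnalyticAt.comp (by simpa using hA) a1
    exact (ContinuousLinearMap.proj (R := ℂ) (φ := fun i => Cn (d i)) i).analyticAt _ |>.comp a2
  · have a1 := hasFDerivAt_update (𝕜 := ℂ) (c m) (i := i) (c m i)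
    have a2 : HasFDerivAt g (fderiv ℂ g (c m)) (Function.update (c m) i (c m i)) := by
      simpa using hA.differentiableAt.hasFDerivAt
    have a3 := (hasFDerivAt_pi'.1 (a2.comp _ a1)) i
    have a4 := a3.fderiv
    simp only [Function.comp_def] at a4
    rw [a4, injective_iff_map_eq_zero]
    intro w hw
    have b1 : fderiv ℂ g (c m) (Pi.single i w) = 0 := by
      funext k
      by_cases hk : k = i
      · subst hk
        have e : (Pi.single k w : ∀ i, Cn (d i)) = ContinuousLinearMap.pi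
            (Pi.single k (ContinuousLinearMap.id ℂ (Cn (d k)))) w := by
          funext l
          by_cases hl : l = k
          · subst hl
            simp
          · simp [Pi.single_eq_of_ne hl]
        rw [e]
        exact hw
      · exact hL _ (Metric.mem_ball_self hr) i w k hk
    have b2 := congrFun (hinj _ b1) i
    simpa using b2
  · filter_upwards [Metric.ball_mem_nhds (c m) hr] with p hp
    funext i
    exact block_const hdiff hL hp i

/-- A chart that agrees with an affine image of a product chart on a smaller set. -/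
theorem ProdChart.of_affine {c c' : OpenPartialHomeomorph X (∀ i, Cn (d i))} (h : ProdChart E c)
    {z : ∀ i, Cn (d i)} {t : ℂ} (ht : t ≠ 0) (hs : c'.source ⊆ c.source)
    (h1 : ∀ y, c' y = t⁻¹ • (c y - z)) (h2 : ∀ p, c'.symm p = c.symm (t • p + z)) :
    ProdChart E c' := by
  have e1 : (c' : X → ∀ i, Cn (d i)) = (fun q => t⁻¹ • (q - z)) ∘ c := funext h1
  have e2 : (c'.symm : (∀ i, Cn (d i)) → X) = c.symm ∘ (fun q => t • q + z) := funext h2
  have k1 : ContDiff ℂ ω (fun q : ∀ i, Cn (d i) => t⁻¹ • (q - z)) := by fun_prop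
  have k2 : ContDiff ℂ ω (fun q : ∀ i, Cn (d i) => t • q + z) := by fun_prop
  refine ⟨?_, ?_, ?_⟩
  · rw [e1]
    exact k1.contMDiff.comp_contMDiffOn (h.1.mono hs)
  · rw [e2]
    refine h.2.1.comp k2.contMDiff.contMDiffOn ?_
    intro p hp
    have a1 := c'.right_inv hp
    rw [h1] at a1
    have a2 : t • p + z = c (c'.symm p) := by
      conv_lhs => rw [← a1]
      rw [smul_smul, mul_inv_cancel₀ ht, one_smul, sub_add_cancel]
    show t • p + z ∈ c.target
    rw [a2]
    exact c.map_source (hs (c'.map_target hp))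
  · intro y hy i v
    rw [h.2.2 y (hs hy) i v]
    have a1 : HasFDerivAt (fun q : ∀ i, Cn (d i) => t⁻¹ • (q - z))
        (t⁻¹ • ContinuousLinearMap.id ℂ (∀ i, Cn (d i))) (c y) :=
      ((hasFDerivAt_id (c y)).sub_const z).const_smul t⁻¹
    have a2 := (a1.hasMFDerivAt.comp y (hol_mdiff h.1 (hs hy)).hasMFDerivAt).mfderiv
    rw [← e1] at a2
    rw [a2]
    refine forall₂_congr fun j _ => ?_
    change _ ↔ t⁻¹ • (mfderiv 𝓘(ℂ, Cn n) 𝓘(ℂ, ∀ i, Cn (d i)) c y v : ∀ i, Cn (d i)) j = 0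
    simp [ht]

end Vale.Agent.P278
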