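import Vale.Agent.P278.Pull

/-! P278 task Basic: holomorphic maps into a uniform atlas and their energy. -/

open Metric Set Filter Topology

namespace Vale.Agent.P278.Atl

variable {M P : Type} [TopologicalSpace M] [NormedAddCommGroup P] [NormedSpace ℝ P]
  [NormedSpace ℂ P] [IsScalarTower ℝ ℂ P] [FiniteDimensional ℂ P] {A : Atl M P}

theorem one_le_θ (A : Atl M P) : 1 ≤ A.θ := (one_le_div A.lam_pos).2 A.lam_le

theorem ch_mem (A : Atl M P) (m : M) : m ∈ (A.c (A.ch m)).source := (A.cover m).choose_spec.1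

theorem ch_norm (A : Atl M P) (m : M) : ‖A.c (A.ch m) m‖ < 1 := (A.cover m).choose_spec.2

theorem locPath (A : Atl M P) : LocallyPathConnectedSpace M := by
  let cs : ChartedSpace P M :=
    { atlas := range A.c
      chartAt := fun m => A.c (A.ch m)
      mem_chart_source := A.ch_mem
      chart_mem_atlas := fun m => mem_range_self _ }
  exact ChartedSpace.locallyPathConnectedSpace P M

theorem mem_ball4 {a : A.ι} {m : M} (h : m ∈ (A.c a).source) : A.c a m ∈ ball (0 : P) 4 :=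
  A.tgt a ▸ (A.c a).map_source h

theorem norm_lt {a : A.ι} {m : M} (h : m ∈ (A.c a).source) : ‖A.c a m‖ < 4 :=
  mem_ball_zero_iff.1 (mem_ball4 h)

theorem isClosed_chart [T2Space M] (a : A.ι) {K : Set P} (hK : IsClosed K)
    {r : ℝ} (hr : r < 4) (h : K ⊆ closedBall 0 r) :
    IsClosed {m | m ∈ (A.c a).source ∧ A.c a m ∈ K} := by
  have : ProperSpace P := FiniteDimensional.proper ℂ P
  have h1 : IsCompact K := (isCompact_closedBall 0 r).of_isClosed_subset hK h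
  have h2 : K ⊆ (A.c a).target := A.tgt a ▸ h.trans (closedBall_subset_ball hr)
  have h3 : {m | m ∈ (A.c a).source ∧ A.c a m ∈ K} = (A.c a).symm '' K := by
    ext m
    constructor
    · rintro ⟨h4, h5⟩
      exact ⟨_, h5, (A.c a).left_inv h4⟩
    · rintro ⟨p, hp, rfl⟩
      exact ⟨(A.c a).map_target (h2 hp), by rwa [(A.c a).right_inv (h2 hp)]⟩
  rw [h3]
  exact (h1.image_of_continuousOn ((A.c a).continuousOn_symm.mono h2)).isClosed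

section Top

variable {Q : Type} [TopologicalSpace Q] {Ψ : Q → M} {q : Q}

theorem ev_source (hc : ContinuousAt Ψ q) {a : A.ι} (ha : Ψ q ∈ (A.c a).source) :
    ∀ᶠ q' in 𝓝 q, Ψ q' ∈ (A.c a).source := hc ((A.c a).open_source.mem_nhds ha)

theorem ev_change (hc : ContinuousAt Ψ q) {a : A.ι} (ha : Ψ q ∈ (A.c a).source) (b : A.ι) :
    A.c b ∘ Ψ =ᶠ[𝓝 q] (A.c b ∘ (A.c a).symm) ∘ (A.c a ∘ Ψ) := by
  filter_upwards [ev_source hc ha] with q' h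
  simp only [Function.comp, (A.c a).left_inv h]

theorem cont_of_chart {a : A.ι} (ha : ∀ᶠ q' in 𝓝 q, Ψ q' ∈ (A.c a).source)
    (h : ContinuousAt (A.c a ∘ Ψ) q) : ContinuousAt Ψ q := by
  have h1 : ContinuousAt ((A.c a).symm ∘ (A.c a ∘ Ψ)) q :=
    ContinuousAt.comp ((A.c a).continuousAt_symm ((A.c a).map_source ha.self_of_nhds)) h
  refine h1.congr ?_
  filter_upwards [ha] with q' h
  simp only [Function.comp, (A.c a).left_inv h]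

end Top

theorem an_contDiffAt {Q : Type} [NormedAddCommGroup Q] [NormedSpace ℝ Q] [NormedSpace ℂ Q]
    [IsScalarTower ℝ ℂ Q] {f : Q → P} {q : Q} (h : AnalyticAt ℂ f q) : ContDiffAt ℝ 2 f q := by
  have : CompleteSpace P := FiniteDimensional.complete ℂ P
  exact (h.contDiffAt (n := 2)).restrict_scalars ℝ

theorem fderiv_real {Q : Type} [NormedAddCommGroup Q] [NormedSpace ℝ Q] [NormedSpace ℂ Q]
    [IsScalarTower ℝ ℂ Q] {R : Type} [NormedAddCommGroup R] [NormedSpace ℝ R] [NormedSpace ℂ R]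
    [IsScalarTower ℝ ℂ R] {f : Q → R} {q : Q} (h : DifferentiableAt ℂ f q) (ξ : Q) :
    fderiv ℝ f q ξ = fderiv ℂ f q ξ := by
  rw [h.fderiv_restrictScalars ℝ]; rfl

section Real

variable {Q Q' : Type} [NormedAddCommGroup Q] [NormedSpace ℝ Q] [NormedAddCommGroup Q']
  [NormedSpace ℝ Q'] {Ψ Ψ' : Q → M} {q : Q}

theorem sm_of_chart (hc : ContinuousAt Ψ q) {a : A.ι} (ha : Ψ q ∈ (A.c a).source)
    (h : ContDiffAt ℝ 2 (A.c a ∘ Ψ) q) : A.Sm Ψ q := by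
  refine ⟨hc, fun b hb => ?_⟩
  exact (ContDiffAt.comp q (an_contDiffAt (A.trans a b _ ha hb)) h).congr_of_eventuallyEq
    (ev_change hc ha b)

theorem Sm.eventually (h : A.Sm Ψ q) : ∀ᶠ q' in 𝓝 q, A.Sm Ψ q' := by
  have ha := A.ch_mem (Ψ q)
  filter_upwards [(h.2 _ ha).eventually (by simp), (ev_source h.1 ha).eventually_nhds]
    with q' h1 h2
  exact sm_of_chart (cont_of_chart h2 h1.continuousAt) h2.self_of_nhds h1

theorem Sm.comp {g : Q' → Q} {q' : Q'} (h : A.Sm Ψ (g q')) (hg : ContDiffAt ℝ 2 g q') :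
    A.Sm (Ψ ∘ g) q' :=
  ⟨h.1.comp hg.continuousAt, fun a ha => ContDiffAt.comp (g := A.c a ∘ Ψ) q' (h.2 a ha) hg⟩

theorem Sm.diff (h : A.Sm Ψ q) {a : A.ι} (ha : Ψ q ∈ (A.c a).source) :
    DifferentiableAt ℝ (A.c a ∘ Ψ) q := (h.2 a ha).differentiableAt (by simp)

theorem Sm.T_eq (h : A.Sm Ψ q) {a : A.ι} (ha : Ψ q ∈ (A.c a).source) (ξ η : Q) :
    A.T Ψ q ξ η = A.Ω a (A.c a (Ψ q)) (fderiv ℝ (A.c a ∘ Ψ) q ξ) (fderiv ℝ (A.c a ∘ Ψ) q η) := by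
  have hb := A.ch_mem (Ψ q)
  have ht := (A.trans a _ _ ha hb).differentiableAt
  have key : ∀ ξ, fderiv ℝ (A.c (A.ch (Ψ q)) ∘ Ψ) q ξ =
      fderiv ℂ (A.c (A.ch (Ψ q)) ∘ (A.c a).symm) (A.c a (Ψ q)) (fderiv ℝ (A.c a ∘ Ψ) q ξ) := by
    intro ξ
    rw [(ev_change h.1 ha _).fderiv_eq, fderiv_comp q (ht.restrictScalars ℝ) (h.diff ha)]
    exact fderiv_real ht _
  rw [A.compat a _ _ ha hb, T, key, key]

theorem Sm.T_comp {g : Q' → Q} {q' : Q'} (h : A.Sm Ψ (g q')) (hg : DifferentiableAt ℝ g q')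
    (ξ η : Q') : A.T (Ψ ∘ g) q' ξ η = A.T Ψ (g q') (fderiv ℝ g q' ξ) (fderiv ℝ g q' η) := by
  have h1 : fderiv ℝ (A.c (A.ch (Ψ (g q'))) ∘ (Ψ ∘ g)) q' =
      (fderiv ℝ (A.c (A.ch (Ψ (g q'))) ∘ Ψ) (g q')).comp (fderiv ℝ g q') :=
    fderiv_comp q' (h.diff (A.ch_mem _)) hg
  simp only [T, Function.comp_apply, h1, ContinuousLinearMap.comp_apply]

theorem T_congr (h : Ψ' =ᶠ[𝓝 q] Ψ) (ξ η : Q) : A.T Ψ' q ξ η = A.T Ψ q ξ η := by
  have h1 : A.c (A.ch (Ψ q)) ∘ Ψ' =ᶠ[𝓝 q] A.c (A.ch (Ψ q)) ∘ Ψ := h.fun_comp _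
  simp only [T, h.self_of_nhds, h1.fderiv_eq]

theorem Sm.ev_T (h : A.Sm Ψ q) {a : A.ι} (ha : Ψ q ∈ (A.c a).source) :
    A.T Ψ =ᶠ[𝓝 q] fun q' u v => A.Ω a ((A.c a ∘ Ψ) q') (fderiv ℝ (A.c a ∘ Ψ) q' u)
      (fderiv ℝ (A.c a ∘ Ψ) q' v) := by
  filter_upwards [h.eventually, ev_source h.1 ha] with q' h1 h2
  funext u v
  exact h1.T_eq h2 u v

theorem Sm.contDiffAt_T (h : A.Sm Ψ q) (ξ η : Q) :
    ContDiffAt ℝ 1 (fun q' => A.T Ψ q' ξ η) q := by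
  have ha := A.ch_mem (Ψ q)
  set a := A.ch (Ψ q)
  have h1 := h.2 a ha
  have h2 : ContDiffAt ℝ 1 (fderiv ℝ (A.c a ∘ Ψ)) q := h1.fderiv_right (by norm_num)
  have h3 : ContDiffAt ℝ 1 (fun q' => A.Ω a ((A.c a ∘ Ψ) q')) q :=
    ContDiffAt.comp q ((A.smooth a).contDiffAt (isOpen_ball.mem_nhds (mem_ball4 ha)))
      (h1.of_le (by norm_num))
  refine ((h3.clm_apply (h2.clm_apply (contDiffAt_const (c := ξ)))).clm_apply
    (h2.clm_apply (contDiffAt_const (c := η)))).congr_of_eventuallyEq ?_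
  filter_upwards [h.ev_T ha] with q' h4
  rw [h4]

theorem Sm.closedAt_T (h : A.Sm Ψ q) : ClosedAt (A.T Ψ) q := by
  have ha := A.ch_mem (Ψ q)
  have h1 := mem_ball4 ha
  refine (closedAt_pullback (ψ := A.c (A.ch (Ψ q)) ∘ Ψ) ?_ (A.alt _ _ h1) (A.closed _ _ h1)
    (h.2 _ ha)).congr (h.ev_T ha)
  exact ((A.smooth _).contDiffAt (isOpen_ball.mem_nhds h1)).differentiableAt (by simp)

end Real

section Complex

variable {Q Q' : Type} [NormedAddCommGroup Q] [NormedSpace ℝ Q] [NormedSpace ℂ Q]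
  [IsScalarTower ℝ ℂ Q] [NormedAddCommGroup Q'] [NormedSpace ℝ Q'] [NormedSpace ℂ Q']
  [IsScalarTower ℝ ℂ Q'] {Ψ Ψ' : Q → M} {q : Q}

theorem hol_of_chart (hc : ContinuousAt Ψ q) {a : A.ι} (ha : Ψ q ∈ (A.c a).source)
    (h : AnalyticAt ℂ (A.c a ∘ Ψ) q) : A.Hol Ψ q := by
  refine ⟨hc, fun b hb => ?_⟩
  exact (AnalyticAt.comp (f := A.c a ∘ Ψ) (A.trans a b _ ha hb) h).congr (ev_change hc ha b).symm

theorem hol_symm_comp {g : Q → P} (a : A.ι) (hg : AnalyticAt ℂ g q) (h : ‖g q‖ < 4) :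
    A.Hol (fun q' => (A.c a).symm (g q')) q := by
  have h1 : g q ∈ (A.c a).target := A.tgt a ▸ mem_ball_zero_iff.2 h
  refine hol_of_chart (((A.c a).continuousAt_symm h1).comp hg.continuousAt)
    ((A.c a).map_target h1) (hg.congr ?_)
  filter_upwards [hg.continuousAt ((A.c a).open_target.mem_nhds h1)] with q' h2
  exact ((A.c a).right_inv h2).symm

theorem Hol.congr (h : A.Hol Ψ q) (h' : Ψ' =ᶠ[𝓝 q] Ψ) : A.Hol Ψ' q :=
  ⟨h.1.congr h'.symm, fun a ha =>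
    (h.2 a (h'.self_of_nhds ▸ ha)).congr (h'.symm.fun_comp (A.c a))⟩

theorem Hol.eventually (h : A.Hol Ψ q) : ∀ᶠ q' in 𝓝 q, A.Hol Ψ q' := by
  have : CompleteSpace P := FiniteDimensional.complete ℂ P
  have ha := A.ch_mem (Ψ q)
  filter_upwards [(h.2 _ ha).eventually_analyticAt, (ev_source h.1 ha).eventually_nhds]
    with q' h1 h2
  exact hol_of_chart (cont_of_chart h2 h1.continuousAt) h2.self_of_nhds h1

theorem Hol.comp {g : Q' → Q} {q' : Q'} (h : A.Hol Ψ (g q')) (hg : AnalyticAt ℂ g q') :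
    A.Hol (Ψ ∘ g) q' :=
  ⟨h.1.comp hg.continuousAt, fun a ha => AnalyticAt.comp (g := A.c a ∘ Ψ) (h.2 a ha) hg⟩

theorem Hol.sm (h : A.Hol Ψ q) : A.Sm Ψ q := ⟨h.1, fun a ha => an_contDiffAt (h.2 a ha)⟩

theorem Hol.T_eq (h : A.Hol Ψ q) {a : A.ι} (ha : Ψ q ∈ (A.c a).source) (ξ η : Q) :
    A.T Ψ q ξ η = A.Ω a (A.c a (Ψ q)) (fderiv ℂ (A.c a ∘ Ψ) q ξ) (fderiv ℂ (A.c a ∘ Ψ) q η) := by
  rw [h.sm.T_eq ha, fderiv_real (h.2 a ha).differentiableAt,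
    fderiv_real (h.2 a ha).differentiableAt]

theorem Hol.en_eq (h : A.Hol Ψ q) {a : A.ι} (ha : Ψ q ∈ (A.c a).source) (ξ : Q) :
    A.en Ψ q ξ = A.Ω a (A.c a (Ψ q)) (fderiv ℂ (A.c a ∘ Ψ) q ξ)
      (Complex.I • fderiv ℂ (A.c a ∘ Ψ) q ξ) := by
  rw [en, h.T_eq ha, map_smul]

theorem Hol.en_comp {g : Q' → Q} {q' : Q'} (h : A.Hol Ψ (g q')) (hg : DifferentiableAt ℂ g q')
    (ξ : Q') : A.en (Ψ ∘ g) q' ξ = A.en Ψ (g q') (fderiv ℂ g q' ξ) := by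
  rw [en, en, h.sm.T_comp (hg.restrictScalars ℝ), fderiv_real hg, fderiv_real hg, map_smul]

theorem Hol.le_en (h : A.Hol Ψ q) {a : A.ι} (ha : Ψ q ∈ (A.c a).source) (ξ : Q) :
    A.lam * ‖fderiv ℂ (A.c a ∘ Ψ) q ξ‖ ^ 2 ≤ A.en Ψ q ξ := by
  rw [h.en_eq ha]
  exact A.tame a _ (mem_ball4 ha) _

theorem Hol.en_le (h : A.Hol Ψ q) {a : A.ι} (ha : Ψ q ∈ (A.c a).source) (ξ : Q) :
    A.en Ψ q ξ ≤ A.Lam * ‖fderiv ℂ (A.c a ∘ Ψ) q ξ‖ ^ 2 := by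
  rw [h.en_eq ha]
  refine (le_abs_self _).trans ((A.bdd a _ (mem_ball4 ha) _ _).trans_eq ?_)
  rw [norm_smul, Complex.norm_I]
  ring

theorem Hol.en_nonneg (h : A.Hol Ψ q) (ξ : Q) : 0 ≤ A.en Ψ q ξ :=
  le_trans (mul_nonneg A.lam_pos.le (sq_nonneg _)) (h.le_en (A.ch_mem _) ξ)

theorem Hol.abs_T_le (h : A.Hol Ψ q) {a : A.ι} (ha : Ψ q ∈ (A.c a).source) (ξ η : Q) :
    |A.T Ψ q ξ η| ≤ A.Lam * ‖fderiv ℂ (A.c a ∘ Ψ) q ξ‖ * ‖fderiv ℂ (A.c a ∘ Ψ) q η‖ := by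
  rw [h.T_eq ha]
  exact A.bdd a _ (mem_ball4 ha) _ _

theorem Hol.en_smul (h : A.Hol Ψ q) (c : ℂ) (ξ : Q) :
    A.en Ψ q (c • ξ) = ‖c‖ ^ 2 * A.en Ψ q ξ := by
  have ha := A.ch_mem (Ψ q)
  rw [h.en_eq ha, h.en_eq ha, (fderiv ℂ (A.c (A.ch (Ψ q)) ∘ Ψ) q).map_smul]
  have halt := A.alt (A.ch (Ψ q)) _ (mem_ball4 ha)
  generalize fderiv ℂ (A.c (A.ch (Ψ q)) ∘ Ψ) q ξ = v
  generalize A.Ω (A.ch (Ψ q)) (A.c (A.ch (Ψ q)) (Ψ q)) = B at halt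
  have h0 : ∀ u, B u u = 0 := fun u => by linarith [halt u u]
  have hcs : ∀ (r : ℝ) (u : P), r • u = (r : ℂ) • u := fun r u => (algebraMap_smul ℂ r u).symm
  have h1 : c • v = c.re • v + c.im • Complex.I • v := by
    rw [hcs, hcs, smul_smul, ← add_smul, Complex.re_add_im]
  have h2 : Complex.I • c • v = c.re • Complex.I • v - c.im • v := by
    rw [hcs, hcs, smul_smul, smul_smul, ← sub_smul]
    congr 1
    apply Complex.ext <;> simp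
  rw [h2, h1]
  simp only [map_add, map_sub, map_smul, _root_.add_apply, _root_.smul_apply, h0,
    halt (Complex.I • v) v, smul_eq_mul]
  rw [Complex.sq_norm, Complex.normSq_apply]
  ring

theorem Hol.continuousAt_en (h : A.Hol Ψ q) (ξ : Q) : ContinuousAt (fun q' => A.en Ψ q' ξ) q :=
  (h.sm.contDiffAt_T ξ (Complex.I • ξ)).continuousAt

/-- A short path stays in the chart. -/
theorem stay [T2Space M] {σ σ' : ℝ → Q} {L : ℝ} (hL : 0 ≤ L)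
    (hσ : ∀ t ∈ Icc (0 : ℝ) 1, HasDerivAt σ (σ' t) t ∧ A.Hol Ψ (σ t) ∧
      A.en Ψ (σ t) (σ' t) ≤ A.lam * L ^ 2) {a : A.ι} (ha : Ψ (σ 0) ∈ (A.c a).source)
    (hn : ‖A.c a (Ψ (σ 0))‖ + L < 4) :
    ∀ t ∈ Icc (0 : ℝ) 1, Ψ (σ t) ∈ (A.c a).source ∧ ‖A.c a (Ψ (σ t)) - A.c a (Ψ (σ 0))‖ ≤ L := by
  set p₀ := A.c a (Ψ (σ 0)) with hp₀
  set f : ℝ → P := fun t => A.c a (Ψ (σ t)) with hf
  have hcont : ∀ t ∈ Icc (0 : ℝ) 1, ContinuousAt (Ψ ∘ σ) t := fun t ht =>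
    (hσ t ht).2.1.1.comp (hσ t ht).1.continuousAt
  have hder : ∀ t ∈ Icc (0 : ℝ) 1, Ψ (σ t) ∈ (A.c a).source →
      HasDerivAt f (fderiv ℂ (A.c a ∘ Ψ) (σ t) (σ' t)) t ∧
        ‖fderiv ℂ (A.c a ∘ Ψ) (σ t) (σ' t)‖ ≤ L := by
    intro t ht hs
    obtain ⟨h1, h2, h3⟩ := hσ t ht
    refine ⟨((h2.2 a hs).differentiableAt.hasFDerivAt.restrictScalars ℝ).comp_hasDerivAt t h1, ?_⟩
    exact (abs_le_of_sq_le_sq' (le_of_mul_le_mul_left ((h2.le_en hs _).trans h3) A.lam_pos) hL).2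
  set s : Set ℝ := {t | Ψ (σ t) ∈ (A.c a).source ∧ ‖f t - p₀‖ ≤ L * t} with hs
  have hK := isClosed_chart (A := A) a (isClosed_closedBall (x := p₀) (ε := L)) hn
    (closedBall_subset_closedBall' (by rw [dist_zero_right]; linarith))
  have hc1 : IsClosed (Icc (0 : ℝ) 1 ∩ (Ψ ∘ σ) ⁻¹'
      {m | m ∈ (A.c a).source ∧ A.c a m ∈ closedBall p₀ L}) :=
    ContinuousOn.preimage_isClosed_of_isClosed
      (fun t ht => (hcont t ht).continuousWithinAt) isClosed_Icc hK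
  have hc2 : IsClosed (s ∩ Icc 0 1) := by
    have h1 := hc1.isClosed_le (f := fun t => ‖f t - p₀‖) (g := fun t => L * t)
      (fun t ht => (((hder t ht.1 ht.2.1).1.continuousAt.sub continuousAt_const).norm
        ).continuousWithinAt) (by fun_prop)
    have h2 : s ∩ Icc 0 1 = {x ∈ Icc (0 : ℝ) 1 ∩ (Ψ ∘ σ) ⁻¹'
        {m | m ∈ (A.c a).source ∧ A.c a m ∈ closedBall p₀ L} | ‖f x - p₀‖ ≤ L * x} := by
      ext t
      constructor
      · rintro ⟨⟨h3, h4⟩, h5⟩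
        exact ⟨⟨h5, h3, mem_closedBall_iff_norm.2 (h4.trans (mul_le_of_le_one_right hL h5.2))⟩, h4⟩
      · rintro ⟨⟨h3, h4, -⟩, h5⟩
        exact ⟨⟨h4, h5⟩, h3⟩
    rwa [h2]
  have hall : Icc (0 : ℝ) 1 ⊆ s := by
    refine hc2.Icc_subset_of_forall_mem_nhdsWithin ⟨ha, by simp [hf, hp₀]⟩ ?_
    rintro x ⟨⟨h1, h2⟩, h3, h4⟩
    obtain ⟨δ, hδ, h5⟩ := Metric.eventually_nhds_iff.1 (ev_source (hcont x ⟨h3, h4.le⟩) h1)
    filter_upwards [Ioo_mem_nhdsGT (show x < min 1 (x + δ) from lt_min h4 (by linarith))]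
      with y hy
    have h6 : ∀ t ∈ Icc x y, t ∈ Icc (0 : ℝ) 1 ∧ Ψ (σ t) ∈ (A.c a).source := by
      intro t ht
      have h7 := lt_min_iff.1 hy.2
      refine ⟨⟨h3.trans ht.1, ht.2.trans h7.1.le⟩, h5 ?_⟩
      rw [Real.dist_eq, abs_lt]
      constructor <;> linarith [ht.1, ht.2, h7.2]
    have h7 := norm_image_sub_le_of_norm_deriv_le_segment' (f := f)
      (fun t ht => (hder t (h6 t ht).1 (h6 t ht).2).1.hasDerivWithinAt)
      (fun t ht => (hder t (h6 t (Ico_subset_Icc_self ht)).1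
        (h6 t (Ico_subset_Icc_self ht)).2).2) y ⟨hy.1.le, le_rfl⟩
    refine ⟨(h6 y ⟨hy.1.le, le_rfl⟩).2, ?_⟩
    calc ‖f y - p₀‖ ≤ ‖f y - f x‖ + ‖f x - p₀‖ := norm_sub_le_norm_sub_add_norm_sub _ _ _
      _ ≤ L * y := by linarith
  intro t ht
  exact ⟨(hall ht).1, (hall ht).2.trans (mul_le_of_le_one_right hL ht.2)⟩

/-- The identity theorem. -/
theorem ident [T2Space M] {Z : Set Q} (hZ : IsPreconnected Z)
    (h : ∀ z ∈ Z, A.Hol Ψ z) (h' : ∀ z ∈ Z, A.Hol Ψ' z) {z₀ : Q} (hz : z₀ ∈ Z)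
    (he : Ψ =ᶠ[𝓝 z₀] Ψ') : ∀ z ∈ Z, Ψ =ᶠ[𝓝 z] Ψ' := by
  have : CompleteSpace P := FiniteDimensional.complete ℂ P
  refine hZ.subset_of_closure_inter_subset (u := {z | Ψ =ᶠ[𝓝 z] Ψ'})
    isOpen_setOfPred_eventually_nhds
    ⟨z₀, hz, he⟩ ?_
  rintro z ⟨h1, h2⟩
  have h3 : Ψ z = Ψ' z := tendsto_nhds_unique_of_frequently_eq (h z h2).1 (h' z h2).1
    ((mem_closure_iff_frequently.1 h1).mono fun y hy => hy.self_of_nhds)
  have ha := A.ch_mem (Ψ z)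
  set a := A.ch (Ψ z)
  have ha' : Ψ' z ∈ (A.c a).source := h3 ▸ ha
  obtain ⟨δ, hδ, h4⟩ := Metric.eventually_nhds_iff_ball.1
    ((((h z h2).2 a ha).eventually_analyticAt.and ((h' z h2).2 a ha').eventually_analyticAt).and
      ((ev_source (h z h2).1 ha).and (ev_source (h' z h2).1 ha')))
  obtain ⟨y, hy, hy'⟩ := mem_closure_iff.1 h1 _ isOpen_ball (mem_ball_self hδ)
  have h5 : EqOn (A.c a ∘ Ψ) (A.c a ∘ Ψ') (ball z δ) :=
    AnalyticOnNhd.eqOn_of_preconnected_of_eventuallyEq (𝕜 := ℂ) (fun x hx => (h4 x hx).1.1)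
      (fun x hx => (h4 x hx).1.2) (convex_ball z δ).isPreconnected hy (hy'.fun_comp _)
  filter_upwards [ball_mem_nhds z hδ] with x hx
  exact (A.c a).injOn (h4 x hx).2.1 (h4 x hx).2.2 (h5 hx)

end Complex

end Vale.Agent.P278.Atl
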