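import Mathlib

/-! P278: complex manifolds, holomorphic subbundles of the tangent bundle, Kaehler metrics. -/

open scoped Manifold ContDiff

namespace Vale.Agent.P278

/-- The model space of complex manifolds of dimension `n`. -/
abbrev Cn (n : ℕ) : Type := EuclideanSpace ℂ (Fin n)

variable {n : ℕ} {X : Type} [TopologicalSpace X] [ChartedSpace (Cn n) X]

/-- The expression of a field of sesquilinear forms in the chart at `x₀`. -/
noncomputable def inChart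
    (h : ∀ x : X, TangentSpace 𝓘(ℂ, Cn n) x →ₗ⋆[ℂ] TangentSpace 𝓘(ℂ, Cn n) x →ₗ[ℂ] ℂ)
    (x₀ : X) (p u v : Cn n) : ℂ :=
  h ((chartAt (Cn n) x₀).symm p)
    (mfderiv 𝓘(ℂ, Cn n) 𝓘(ℂ, Cn n) (chartAt (Cn n) x₀).symm p u)
    (mfderiv 𝓘(ℂ, Cn n) 𝓘(ℂ, Cn n) (chartAt (Cn n) x₀).symm p v)

/-- A Kaehler metric: a smooth Hermitian metric whose imaginary part is a closed two-form. -/
structure IsKaehler
    (h : ∀ x : X, TangentSpace 𝓘(ℂ, Cn n) x →ₗ⋆[ℂ] TangentSpace 𝓘(ℂ, Cn n) x →ₗ[ℂ] ℂ) : Prop where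
  herm : ∀ x u v, h x u v = starRingEnd ℂ (h x v u)
  pos : ∀ x u, u ≠ 0 → 0 < (h x u u).re
  smooth : ∀ x₀ u v, ContDiffOn ℝ ∞ (fun p => inChart h x₀ p u v) (chartAt (Cn n) x₀).target
  closed : ∀ x₀, ∀ p ∈ (chartAt (Cn n) x₀).target, ∀ u v w : Cn n,
    fderiv ℝ (fun q => (inChart h x₀ q v w).im) p u +
      fderiv ℝ (fun q => (inChart h x₀ q w u).im) p v +
      fderiv ℝ (fun q => (inChart h x₀ q u v).im) p w = 0

variable [IsManifold 𝓘(ℂ, Cn n) ω X]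

/-- A holomorphic vector field on `U`. -/
def HolField (U : Set X) (s : ∀ x : X, TangentSpace 𝓘(ℂ, Cn n) x) : Prop :=
  ContMDiffOn 𝓘(ℂ, Cn n) 𝓘(ℂ, Cn n).tangent ω
    (fun x => (⟨x, s x⟩ : TangentBundle 𝓘(ℂ, Cn n) X)) U

/-- A holomorphic subbundle of the tangent bundle: locally it has a holomorphic frame. -/
def IsHolSubbundle (E : ∀ x : X, Submodule ℂ (TangentSpace 𝓘(ℂ, Cn n) x)) : Prop :=
  ∀ x₀ : X, ∃ (U : Set X) (r : ℕ) (s : Fin r → ∀ x : X, TangentSpace 𝓘(ℂ, Cn n) x),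
    IsOpen U ∧ x₀ ∈ U ∧ (∀ j, HolField U (s j)) ∧
    ∀ x ∈ U, LinearIndependent ℂ (fun j => s j x) ∧
      Submodule.span ℂ (Set.range fun j => s j x) = E x

/-- Local holomorphic sections are closed under the Lie bracket. -/
def IsIntegrable (E : ∀ x : X, Submodule ℂ (TangentSpace 𝓘(ℂ, Cn n) x)) : Prop :=
  ∀ (U : Set X) (s t : ∀ x : X, TangentSpace 𝓘(ℂ, Cn n) x), IsOpen U → HolField U s →
    HolField U t → (∀ x ∈ U, s x ∈ E x) → (∀ x ∈ U, t x ∈ E x) →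
    ∀ x ∈ U, VectorField.mlieBracket 𝓘(ℂ, Cn n) s t x ∈ E x

end Vale.Agent.P278
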