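import Mathlib

/-! P278 task Lelong: a lower bound for the area of a holomorphic curve in a ball. -/

open Metric Set MeasureTheory

namespace Vale.Agent.P278

namespace LelongAux

open Filter Topology

theorem div_zero {O K : Set ℂ} (hO : IsOpen O) (hK : IsCompact K) (hKO : K ⊆ O) {g g' : ℂ → ℝ}
    (hg : ContinuousOn g O) (hg' : ContinuousOn g' O) {w : ℂ}
    (hd : ∀ x ∈ O, HasLineDerivAt ℝ g (g' x) x w) (h0 : ∀ x ∈ O, x ∉ K → g x = 0) :
    ∫ x in K, g' x = 0 := by
  have hm := hK.measurableSet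
  have i1 : Integrable (K.indicator g') :=
    (integrable_indicator_iff hm).2 ((hg'.mono hKO).integrableOn_compact hK)
  have i2 : Integrable (K.indicator g) :=
    (integrable_indicator_iff hm).2 ((hg.mono hKO).integrableOn_compact hK)
  have h1 : ∀ x, HasLineDerivAt ℝ (K.indicator g) (K.indicator g' x) x w := by
    intro x
    by_cases hx : x ∈ K
    · rw [indicator_of_mem hx]
      refine (hd x (hKO hx)).congr_of_eventuallyEq ?_
      filter_upwards [hO.mem_nhds (hKO hx)] with y hy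
      by_cases hy' : y ∈ K
      · rw [indicator_of_mem hy']
      · rw [indicator_of_notMem hy', h0 y hy hy']
    · rw [indicator_of_notMem hx]
      refine HasLineDerivAt.congr_of_eventuallyEq (f := fun _ => 0)
        (hasDerivAt_const (0 : ℝ) (0 : ℝ)) ?_
      filter_upwards [hK.isClosed.isOpen_compl.mem_nhds hx] with y hy
      exact indicator_of_notMem hy _
  have := integral_bilinear_hasLineDerivAt_right_eq_neg_left_of_integrable (μ := volume)
    (f := fun _ : ℂ => (1 : ℝ)) (f' := fun _ => 0) (g := K.indicator g) (g' := K.indicator g')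
    (v := w) (B := ContinuousLinearMap.mul ℝ ℝ) (by simp) (by simpa using i1) (by simpa using i2)
    (fun x _ => hasDerivAt_const _ _) fun x _ => h1 x
  rw [← integral_indicator hm]
  simpa using this

theorem der_bdd : ∃ K, 0 < K ∧ ∀ s, 0 ≤ deriv Real.smoothTransition s ∧
    deriv Real.smoothTransition s ≤ K := by
  obtain ⟨K, hK⟩ := (isCompact_Icc (a := (0 : ℝ)) (b := 1)).exists_bound_of_continuousOn
    ((Real.smoothTransition.contDiff (n := 1)).continuous_deriv le_rfl).continuousOn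
  have h0 : 0 ≤ K := (norm_nonneg _).trans (hK 0 (by simp))
  refine ⟨K + 1, by linarith, fun s => ⟨Real.smoothTransition.monotone.deriv_nonneg, ?_⟩⟩
  rcases lt_or_ge s 0 with h | h
  · have : Real.smoothTransition =ᶠ[𝓝 s] fun _ => 0 := by
      filter_upwards [Iio_mem_nhds h] with y hy using Real.smoothTransition.zero_of_nonpos hy.le
    rw [this.deriv_eq, deriv_const]
    linarith
  rcases lt_or_ge 1 s with h' | h'
  · have : Real.smoothTransition =ᶠ[𝓝 s] fun _ => 1 := by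
      filter_upwards [Ioi_mem_nhds h'] with y hy using Real.smoothTransition.one_of_one_le hy.le
    rw [this.deriv_eq, deriv_const]
    linarith
  exact ((le_abs_self _).trans (hK s ⟨h, h'⟩)).trans (by linarith)

variable {H : Type} [NormedAddCommGroup H] [InnerProductSpace ℂ H] [NormedSpace ℝ H]
  [IsScalarTower ℝ ℂ H] [CompleteSpace H]

omit [CompleteSpace H] in
theorem line {F : ℂ → H} {x : ℂ} (h : DifferentiableAt ℂ F x) (w : ℂ) :
    HasDerivAt (fun t : ℝ => F (x + t • w)) (w • deriv F x) 0 := by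
  have h1 : HasDerivAt (fun t : ℝ => x + t • w) w 0 := by
    simpa using ((hasDerivAt_id (0 : ℝ)).smul_const w).const_add x
  have h2 : HasFDerivAt F _ (x + (0 : ℝ) • w) :=
    (show HasDerivAt F (deriv F x) (x + (0 : ℝ) • w) by simpa using h.hasDerivAt
      ).hasFDerivAt.restrictScalars ℝ
  exact h2.comp_hasDerivAt (0 : ℝ) h1

/-- The weight. -/
noncomputable def kk (ε s : ℝ) : ℝ := Real.smoothTransition (2 - 2 * s) / (s + ε)

/-- The derivative of the weight. -/
noncomputable def kk' (ε s : ℝ) : ℝ :=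
  (deriv Real.smoothTransition (2 - 2 * s) * (-2) * (s + ε) - Real.smoothTransition (2 - 2 * s)) /
    (s + ε) ^ 2

theorem kk_der {ε s : ℝ} (h : s + ε ≠ 0) : HasDerivAt (kk ε) (kk' ε s) s := by
  have h1 : HasDerivAt (fun s : ℝ => 2 - 2 * s) (-2) s := by
    simpa using ((hasDerivAt_id s).const_mul 2).const_sub 2
  have h2 := (((Real.smoothTransition.contDiff (n := 1)).differentiable one_ne_zero)
    (2 - 2 * s)).hasDerivAt.comp s h1
  have h3 := h2.div ((hasDerivAt_id s).add_const ε) h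
  exact h3.congr_deriv (by simp [kk'])

theorem flux {O : Set ℂ} (hO : IsOpen O) {F : ℂ → H} (hF : AnalyticOnNhd ℂ F O)
    (hK : IsCompact {x ∈ O | ‖F x‖ ≤ 1}) {ε : ℝ} (hε : 0 < ε) (w : ℂ) :
    ContinuousOn (fun x => kk' ε (‖F x‖ ^ 2) * (2 * (inner ℂ (F x) (w • deriv F x)).re ^ 2) +
      kk ε (‖F x‖ ^ 2) * ((inner ℂ (F x) ((w * w) • deriv (deriv F) x)).re +
        ‖w • deriv F x‖ ^ 2)) O ∧
    ∫ x in {x ∈ O | ‖F x‖ ≤ 1}, (kk' ε (‖F x‖ ^ 2) * (2 * (inner ℂ (F x) (w • deriv F x)).re ^ 2) +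
      kk ε (‖F x‖ ^ 2) * ((inner ℂ (F x) ((w * w) • deriv (deriv F) x)).re +
        ‖w • deriv F x‖ ^ 2)) = 0 := by
  have c0 := hF.continuousOn
  have c1 := hF.deriv.continuousOn
  have c2 := hF.deriv.deriv.continuousOn
  have hne : ∀ x, ‖F x‖ ^ 2 + ε ≠ 0 := fun x => by positivity
  have cη := Real.smoothTransition.continuous
  have cη' := (Real.smoothTransition.contDiff (n := 1)).continuous_deriv le_rfl
  have ck : ContinuousOn (fun x => kk ε (‖F x‖ ^ 2)) O := by
    unfold kk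
    exact ContinuousOn.div (by fun_prop) (by fun_prop) fun x _ => hne x
  have ck' : ContinuousOn (fun x => kk' ε (‖F x‖ ^ 2)) O := by
    unfold kk'
    exact ContinuousOn.div (by fun_prop) (by fun_prop) fun x _ => pow_ne_zero _ (hne x)
  have ca : ContinuousOn (fun x => (inner ℂ (F x) (w • deriv F x)).re) O :=
    Complex.continuous_re.comp_continuousOn (ContinuousOn.inner (𝕜 := ℂ) c0 (c1.const_smul w))
  have cb : ContinuousOn (fun x => (inner ℂ (F x) ((w * w) • deriv (deriv F) x)).re) O :=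
    Complex.continuous_re.comp_continuousOn (ContinuousOn.inner (𝕜 := ℂ) c0 (c2.const_smul _))
  have cc : ContinuousOn (fun x => kk' ε (‖F x‖ ^ 2) *
      (2 * (inner ℂ (F x) (w • deriv F x)).re ^ 2) + kk ε (‖F x‖ ^ 2) *
      ((inner ℂ (F x) ((w * w) • deriv (deriv F) x)).re + ‖w • deriv F x‖ ^ 2)) O := by
    fun_prop
  refine ⟨cc, div_zero (g := fun x => kk ε (‖F x‖ ^ 2) * (inner ℂ (F x) (w • deriv F x)).re)
    (w := w) hO hK (sep_subset _ _) (ck.mul ca) cc (fun x hx => ?_) fun x hx hx' => ?_⟩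
  · have l0 := line (hF x hx).differentiableAt w
    have l1 := (line (hF.deriv x hx).differentiableAt w).const_smul w
    have hsq : ∀ v : H, (inner ℂ v v).re = ‖v‖ ^ 2 := fun v => inner_self_eq_norm_sq (𝕜 := ℂ) v
    have lu := Complex.reCLM.hasFDerivAt.comp_hasDerivAt (0 : ℝ) (l0.inner ℂ l0)
    have la := Complex.reCLM.hasFDerivAt.comp_hasDerivAt (0 : ℝ) (l0.inner ℂ l1)
    have lu' : HasDerivAt (fun t : ℝ => ‖F (x + t • w)‖ ^ 2)
        (2 * (inner ℂ (F x) (w • deriv F x)).re) 0 := by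
      have e1 : (fun t : ℝ => ‖F (x + t • w)‖ ^ 2) = Complex.reCLM ∘ fun t : ℝ =>
          inner ℂ (F (x + t • w)) (F (x + t • w)) := funext fun t => (hsq _).symm
      rw [e1]
      refine lu.congr_deriv ?_
      have := inner_re_symm (𝕜 := ℂ) (w • deriv F x) (F x)
      simp only [RCLike.re_to_complex] at this
      simp only [zero_smul, add_zero, Complex.reCLM_apply, Complex.add_re, this]
      ring
    have lk := (kk_der (s := ‖F (x + (0 : ℝ) • w)‖ ^ 2) (hne _)).comp (0 : ℝ) lu'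
    refine (lk.mul la).congr_deriv ?_
    simp only [zero_smul, add_zero, Complex.reCLM_apply, Complex.add_re, hsq, Function.comp,
      Pi.smul_apply, smul_smul]
    ring
  · have h1 : 1 < ‖F x‖ := lt_of_not_ge fun h => hx' ⟨hx, h⟩
    rw [kk, Real.smoothTransition.zero_of_nonpos (by nlinarith), zero_div, zero_mul]

theorem core : ∃ c₀ : ℝ, 0 < c₀ ∧ ∀ (O : Set ℂ) (F : ℂ → H) (x₁ : ℂ), IsOpen O →
    AnalyticOnNhd ℂ F O → x₁ ∈ O → F x₁ = 0 → deriv F x₁ ≠ 0 → IsCompact {x ∈ O | ‖F x‖ ≤ 1} →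
    c₀ ≤ ∫ x in {x ∈ O | ‖F x‖ ≤ 1}, ‖deriv F x‖ ^ 2 := by
  obtain ⟨K, hK0, hK⟩ := der_bdd
  refine ⟨Real.pi / 32 / (4 * K), by positivity, fun O F x₁ hO hF hx h0 h1 hc => ?_⟩
  set S := {x ∈ O | ‖F x‖ ≤ 1} with hS
  set v := ‖deriv F x₁‖ with hv
  have hv0 : 0 < v := norm_pos_iff.2 h1
  have e1 : ∀ᶠ x in 𝓝 x₁, ‖F x‖ ≤ 2 * v * ‖x - x₁‖ := by
    have := (hF x₁ hx).differentiableAt.hasDerivAt.isLittleO.bound hv0
    filter_upwards [this] with x h
    rw [h0, sub_zero] at h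
    have h2 := norm_le_norm_add_norm_sub' (F x) ((x - x₁) • deriv F x₁)
    rw [norm_smul] at h2
    linarith
  have e2 : ∀ᶠ x in 𝓝 x₁, v / 2 < ‖deriv F x‖ :=
    ContinuousAt.eventually_lt continuousAt_const (hF.deriv x₁ hx).continuousAt.norm (by linarith)
  obtain ⟨r₀, hr₀, hb⟩ := Metric.eventually_nhds_iff_ball.1 ((e1.and e2).and (hO.mem_nhds hx))
  set r := min r₀ (1 / (4 * v)) with hr
  have hr0 : 0 < r := lt_min hr₀ (by positivity)
  have hr1 : 2 * v * r ≤ 1 / 2 := by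
    have := (le_div_iff₀ (by positivity)).1 (min_le_right r₀ (1 / (4 * v)))
    linarith
  set ε := (2 * v * r) ^ 2 with hε
  have hε0 : 0 < ε := by positivity
  obtain ⟨c1, i1⟩ := flux hO hF hc hε0 1
  obtain ⟨c2, i2⟩ := flux hO hF hc hε0 Complex.I
  have hSO : S ⊆ O := sep_subset _ _
  have c0 := hF.continuousOn
  have c1' := hF.deriv.continuousOn
  have cη := Real.smoothTransition.continuous
  set p : ℂ → ℝ := fun x => 2 * Real.smoothTransition (2 - 2 * ‖F x‖ ^ 2) * ε * ‖deriv F x‖ ^ 2 /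
    (‖F x‖ ^ 2 + ε) ^ 2 with hp
  have ip : IntegrableOn p S := ContinuousOn.integrableOn_compact hc
    (ContinuousOn.mono (ContinuousOn.div (by fun_prop) (by fun_prop)
      fun x _ => by positivity) hSO)
  have iq : IntegrableOn (fun x => ‖deriv F x‖ ^ 2) S :=
    ContinuousOn.integrableOn_compact hc (ContinuousOn.mono (by fun_prop) hSO)
  have j1 := (c1.mono hSO).integrableOn_compact (μ := volume) hc
  have j2 := (c2.mono hSO).integrableOn_compact (μ := volume) hc
  have h2 := setIntegral_mono_on (ip.sub (iq.const_mul (4 * K))) (j1.add j2) hc.measurableSet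
    fun x _ => ?_
  · simp only [Pi.add_apply, Pi.sub_apply] at h2
    rw [integral_add j1 j2, i1, i2, integral_sub ip (iq.const_mul _), integral_const_mul] at h2
    have hb' : ∀ x ∈ ball x₁ r, ‖F x‖ ≤ 2 * v * r ∧ v / 2 < ‖deriv F x‖ ∧ x ∈ O := by
      intro x h
      obtain ⟨⟨h3, h4⟩, h5⟩ := hb x (ball_subset_ball (min_le_left _ _) h)
      exact ⟨h3.trans (mul_le_mul_of_nonneg_left (mem_ball_iff_norm.1 h).le (by positivity)),
        h4, h5⟩
    have hsub : ball x₁ r ⊆ S := fun x h => ⟨(hb' x h).2.2, (hb' x h).1.trans (by linarith)⟩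
    have h3 : ∫ x in ball x₁ r, p x ≤ ∫ x in S, p x :=
      setIntegral_mono_set ip (Eventually.of_forall fun x => by
        have := Real.smoothTransition.nonneg (2 - 2 * ‖F x‖ ^ 2)
        simp only [hp, Pi.zero_apply]
        positivity) hsub.eventuallyLE
    have h4 := setIntegral_mono_on (μ := volume) (s := ball x₁ r) (f := fun _ => v ^ 2 / (8 * ε))
      (integrableOn_const measure_ball_lt_top.ne) (ip.mono_set hsub) measurableSet_ball
      fun x h => ?_
    · rw [setIntegral_const, smul_eq_mul] at h4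
      have h5 : volume.real (ball x₁ r) = r ^ 2 * Real.pi := by
        simp [Measure.real, Complex.volume_ball, hr0.le]
      have h6 : r ^ 2 * Real.pi * (v ^ 2 / (8 * ε)) = Real.pi / 32 := by
        rw [hε]; field_simp; ring
      rw [h5, h6] at h4
      rw [div_le_iff₀ (by positivity)]
      linarith
    · obtain ⟨h5, h6, -⟩ := hb' x h
      have h7 : ‖F x‖ ^ 2 ≤ ε := pow_le_pow_left₀ (norm_nonneg _) h5 2
      have h8 : ε ≤ 1 / 4 := by rw [hε]; nlinarith [mul_pos (mul_pos two_pos hv0) hr0]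
      have h9 : v ^ 2 / 4 ≤ ‖deriv F x‖ ^ 2 := by nlinarith
      simp only [hp]
      rw [Real.smoothTransition.one_of_one_le (by linarith),
        div_le_div_iff₀ (by positivity) (by positivity)]
      have h10 : (‖F x‖ ^ 2 + ε) ^ 2 ≤ (2 * ε) ^ 2 :=
        pow_le_pow_left₀ (by positivity) (by linarith) 2
      calc v ^ 2 * (‖F x‖ ^ 2 + ε) ^ 2 ≤ v ^ 2 * (2 * ε) ^ 2 := by gcongr
        _ = 16 * ε ^ 2 * (v ^ 2 / 4) := by ring
        _ ≤ 16 * ε ^ 2 * ‖deriv F x‖ ^ 2 := by gcongr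
        _ = _ := by ring
  · have h3 : (inner ℂ (F x) (deriv F x)).re ^ 2 + (inner ℂ (F x) (deriv F x)).im ^ 2 ≤
        ‖F x‖ ^ 2 * ‖deriv F x‖ ^ 2 := by
      have := pow_le_pow_left₀ (norm_nonneg _) (norm_inner_le_norm (𝕜 := ℂ) (F x) (deriv F x)) 2
      rw [Complex.sq_norm, Complex.normSq_apply] at this
      nlinarith
    simp only [Pi.add_apply, Pi.sub_apply, hp, one_smul, mul_one, Complex.I_mul_I, neg_smul,
      inner_neg_right, Complex.neg_re, inner_smul_right, norm_smul, Complex.norm_I, one_mul,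
      Complex.mul_re, Complex.I_re, Complex.I_im, zero_mul, zero_sub, kk, kk']
    obtain ⟨h4, h5⟩ := hK (2 - 2 * ‖F x‖ ^ 2)
    have h6 := Real.smoothTransition.nonneg (2 - 2 * ‖F x‖ ^ 2)
    have h7 := sq_nonneg ‖F x‖
    have h8 := sq_nonneg ‖deriv F x‖
    generalize deriv Real.smoothTransition (2 - 2 * ‖F x‖ ^ 2) = η' at h4 h5
    generalize Real.smoothTransition (2 - 2 * ‖F x‖ ^ 2) = η at h6
    generalize ‖F x‖ ^ 2 = u at h3 h7
    generalize ‖deriv F x‖ ^ 2 = d at h3 h8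
    generalize (inner ℂ (F x) (deriv F x)).re = a at h3
    generalize (inner ℂ (F x) (deriv F x)).im = b at h3
    generalize (inner ℂ (F x) (deriv (deriv F) x)).re = s
    have h9 : 0 < u + ε := by positivity
    have h10 : η' * (a ^ 2 + b ^ 2) ≤ K * (d * (u + ε)) :=
      mul_le_mul h5 (by nlinarith) (by positivity) hK0.le
    have h11 : η * (a ^ 2 + b ^ 2) ≤ η * (u * d) := mul_le_mul_of_nonneg_left h3 h6
    rw [← sub_nonneg]
    have h12 : (η' * -2 * (u + ε) - η) / (u + ε) ^ 2 * (2 * a ^ 2) + η / (u + ε) * (s + d) +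
        ((η' * -2 * (u + ε) - η) / (u + ε) ^ 2 * (2 * (-b) ^ 2) + η / (u + ε) * (-s + d)) -
        (2 * η * ε * d / (u + ε) ^ 2 - 4 * K * d) =
        (4 * (u + ε) * (K * (d * (u + ε)) - η' * (a ^ 2 + b ^ 2)) +
          2 * (η * (u * d) - η * (a ^ 2 + b ^ 2))) / (u + ε) ^ 2 := by
      field_simp
      ring
    rw [h12]
    have := sub_nonneg.2 h10
    have := sub_nonneg.2 h11
    positivity

end LelongAux

theorem lelong (P : Type) [NormedAddCommGroup P] [NormedSpace ℂ P] [FiniteDimensional ℂ P] :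
    ∃ c₀ : ℝ, 0 < c₀ ∧ ∀ (O : Set ℂ) (f : ℂ → P) (x₁ : ℂ), IsOpen O → AnalyticOnNhd ℂ f O →
      x₁ ∈ O → deriv f x₁ ≠ 0 → IsCompact {x ∈ O | ‖f x - f x₁‖ ≤ 1 / 2} →
      IntegrableOn (fun x => ‖deriv f x‖ ^ 2) O → c₀ ≤ ∫ x in O, ‖deriv f x‖ ^ 2 := by
  obtain ⟨c₀, hc₀, h⟩ := LelongAux.core (H := EuclideanSpace ℂ (Fin (Module.finrank ℂ P)))
  set T₀ : P ≃L[ℂ] EuclideanSpace ℂ (Fin (Module.finrank ℂ P)) :=
    ContinuousLinearEquiv.ofFinrankEq (by simp) with hT₀
  set m : ℝ := ‖(T₀.symm : EuclideanSpace ℂ (Fin (Module.finrank ℂ P)) →L[ℂ] P)‖ + 1 with hm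
  have hm0 : 0 < m := by positivity
  set T : P →L[ℂ] EuclideanSpace ℂ (Fin (Module.finrank ℂ P)) := ((2 * m : ℝ) : ℂ) • (T₀ : _ →L[ℂ] _)
    with hT
  have hlow : ∀ v, 2 * ‖v‖ ≤ ‖T v‖ := by
    intro v
    have h1 := (T₀.symm : EuclideanSpace ℂ (Fin (Module.finrank ℂ P)) →L[ℂ] P).le_opNorm (T₀ v)
    simp only [ContinuousLinearEquiv.coe_coe, ContinuousLinearEquiv.symm_apply_apply] at h1
    have h2 : ‖T v‖ = 2 * m * ‖T₀ v‖ := by
      simp [hT, norm_smul, abs_of_pos hm0]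
    rw [h2, hm]
    nlinarith [norm_nonneg (T₀ v)]
  refine ⟨c₀ / (‖T‖ ^ 2 + 1), by positivity, fun O f x₁ hO hf hx h1 hK hi => ?_⟩
  have hd : ∀ x ∈ O, deriv (fun x => T (f x - f x₁)) x = T (deriv f x) := fun x hx =>
    (T.hasFDerivAt.comp_hasDerivAt x
      ((hf x hx).differentiableAt.hasDerivAt.sub_const (f x₁))).deriv
  have hF : AnalyticOnNhd ℂ (fun x => T (f x - f x₁)) O := fun x hx =>
    (T.analyticAt _).comp ((hf x hx).sub analyticAt_const)
  have hc : IsCompact {x ∈ O | ‖T (f x - f x₁)‖ ≤ 1} := by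
    have h2 : {x ∈ O | ‖T (f x - f x₁)‖ ≤ 1} =
        {x ∈ {x ∈ O | ‖f x - f x₁‖ ≤ 1 / 2} | ‖T (f x - f x₁)‖ ≤ 1} := by
      ext x
      exact ⟨fun h => ⟨⟨h.1, by linarith [hlow (f x - f x₁), h.2]⟩, h.2⟩, fun h => ⟨h.1.1, h.2⟩⟩
    rw [h2]
    exact hK.of_isClosed_subset (hK.isClosed.isClosed_le
      (hF.continuousOn.mono (sep_subset _ _)).norm continuousOn_const) (sep_subset _ _)
  have h2 := h O _ x₁ hO hF hx (by simp) (by
    rw [hd x₁ hx]
    intro h0
    have := hlow (deriv f x₁)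
    rw [h0, norm_zero] at this
    exact h1 (norm_le_zero_iff.1 (by linarith))) hc
  have h3 : ∫ x in {x ∈ O | ‖T (f x - f x₁)‖ ≤ 1}, ‖deriv (fun x => T (f x - f x₁)) x‖ ^ 2 ≤
      ∫ x in {x ∈ O | ‖T (f x - f x₁)‖ ≤ 1}, (‖T‖ ^ 2 + 1) * ‖deriv f x‖ ^ 2 := by
    refine setIntegral_mono_on (ContinuousOn.integrableOn_compact hc
      ((hF.deriv.continuousOn.mono (sep_subset _ _)).norm.pow 2))
      ((hi.mono_set (sep_subset _ _)).const_mul _) hc.measurableSet fun x hx => ?_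
    rw [hd x hx.1]
    have := pow_le_pow_left₀ (norm_nonneg _) (T.le_opNorm (deriv f x)) 2
    nlinarith [sq_nonneg ‖deriv f x‖]
  rw [integral_const_mul] at h3
  have h4 : ∫ x in {x ∈ O | ‖T (f x - f x₁)‖ ≤ 1}, ‖deriv f x‖ ^ 2 ≤ ∫ x in O, ‖deriv f x‖ ^ 2 :=
    setIntegral_mono_set hi (Filter.Eventually.of_forall fun x => sq_nonneg _)
      (sep_subset _ _).eventuallyLE
  rw [div_le_iff₀ (by positivity)]
  nlinarith [sq_nonneg ‖T‖]

end Vale.Agent.P278
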