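import Vale.Agent.P278.Basic
import Vale.Agent.P278.Lelong
import Vale.Agent.P278.EpsAux

/-! P278 task Eps: small area implies small gradient; Harnack chains on discs of bounded area. -/

open Metric Set Filter Topology MeasureTheory

namespace Vale.Agent.P278.Atl

variable {M P : Type} [TopologicalSpace M] [T2Space M] [NormedAddCommGroup P] [NormedSpace ℝ P]
  [NormedSpace ℂ P] [IsScalarTower ℝ ℂ P] [FiniteDimensional ℂ P] (A : Atl M P)

omit [T2Space M] [IsScalarTower ℝ ℂ P] [FiniteDimensional ℂ P] in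
theorem eps_ch (m : M) : m ∈ (A.c (A.ch m)).source ∧ ‖A.c (A.ch m) m‖ < 1 :=
  (A.cover m).choose_spec

omit [T2Space M] in
theorem eps_int {h : ℂ → M} {x₀ : ℂ} {r : ℝ} (hh : ∀ x ∈ closedBall x₀ r, A.Hol h x) :
    IntegrableOn (fun x => A.en h x 1) (ball x₀ r) :=
  (ContinuousOn.integrableOn_compact (isCompact_closedBall x₀ r) fun x hx =>
    ((hh x hx).continuousAt_en 1).continuousWithinAt).mono_set ball_subset_closedBall

omit [T2Space M] in
/-- The area of a piece that lies in one chart. -/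
theorem eps_piece {h : ℂ → M} {O : Set ℂ} (hO : MeasurableSet O) {a : A.ι}
    (hh : ∀ x ∈ O, A.Hol h x ∧ h x ∈ (A.c a).source) (hi : IntegrableOn (fun x => A.en h x 1) O) :
    IntegrableOn (fun x => ‖deriv (A.c a ∘ h) x‖ ^ 2) O ∧
      A.lam * ∫ x in O, ‖deriv (A.c a ∘ h) x‖ ^ 2 ≤ ∫ x in O, A.en h x 1 := by
  have := FiniteDimensional.complete ℂ P
  have hle : ∀ x ∈ O, A.lam * ‖deriv (A.c a ∘ h) x‖ ^ 2 ≤ A.en h x 1 := fun x hx =>
    (hh x hx).1.le_en (hh x hx).2 1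
  have hc : ContinuousOn (fun x => ‖deriv (A.c a ∘ h) x‖ ^ 2) O := fun x hx =>
    (((hh x hx).1.2 a (hh x hx).2).deriv.continuousAt.norm.pow 2).continuousWithinAt
  have hI : IntegrableOn (fun x => ‖deriv (A.c a ∘ h) x‖ ^ 2) O := by
    refine Integrable.mono' (hi.div_const A.lam) (hc.aestronglyMeasurable hO) ?_
    refine (ae_restrict_mem hO).mono fun x hx => ?_
    rw [Real.norm_of_nonneg (by positivity), le_div_iff₀' A.lam_pos]
    exact hle x hx
  refine ⟨hI, ?_⟩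
  rw [← integral_const_mul]
  exact setIntegral_mono_on (hI.const_mul _) hi hO hle

/-- The mean value inequality on a small disc. -/
theorem eps_disc {h : ℂ → M} {x₁ : ℂ} {ρ B : ℝ} (hρ : 0 < ρ)
    (hh : ∀ x ∈ closedBall x₁ ρ, A.Hol h x ∧ A.en h x 1 ≤ B) (hB : ρ ^ 2 * B ≤ A.lam) :
    Real.pi * ρ ^ 2 * A.en h x₁ 1 ≤ A.θ * ∫ x in ball x₁ ρ, A.en h x 1 := by
  have := FiniteDimensional.complete ℂ P
  obtain ⟨h1, h2⟩ := A.eps_ch (h x₁)
  set a := A.ch (h x₁)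
  have hx₁ : x₁ ∈ closedBall x₁ ρ := mem_closedBall_self hρ.le
  have hB0 : 0 ≤ B := ((hh x₁ hx₁).1.en_nonneg 1).trans (hh x₁ hx₁).2
  have hsrc : ∀ x ∈ closedBall x₁ ρ, h x ∈ (A.c a).source := by
    intro x hx
    have hn : ‖x - x₁‖ ≤ ρ := mem_closedBall_iff_norm.1 hx
    have := stay (A := A) (Ψ := h) (σ := fun t : ℝ => x₁ + t • (x - x₁)) (σ' := fun _ => x - x₁)
      (L := 1) zero_le_one (a := a) ?_ (by simpa using h1) (by simp only [zero_smul, add_zero]; linarith)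
      1 ⟨zero_le_one, le_rfl⟩
    · simpa using this.1
    · intro t ht
      have hm : x₁ + t • (x - x₁) ∈ closedBall x₁ ρ := by
        rw [mem_closedBall_iff_norm, add_sub_cancel_left, norm_smul, Real.norm_of_nonneg ht.1]
        nlinarith [ht.1, ht.2, norm_nonneg (x - x₁)]
      refine ⟨by simpa using ((hasDerivAt_id t).smul_const (x - x₁)).const_add x₁, (hh _ hm).1, ?_⟩
      have e := (hh _ hm).1.en_smul (x - x₁) 1
      rw [smul_eq_mul, mul_one] at e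
      rw [e, one_pow, mul_one]
      refine le_trans ?_ hB
      exact mul_le_mul (pow_le_pow_left₀ (norm_nonneg _) hn 2) (hh _ hm).2
        ((hh _ hm).1.en_nonneg 1) (by positivity)
  have hmv := EpsAux.mv_ineq (g := deriv (A.c a ∘ h)) hρ fun x hx =>
    ((hh x hx).1.2 a (hsrc x hx)).deriv.differentiableAt.differentiableWithinAt
  obtain ⟨-, hp⟩ := A.eps_piece (a := a) measurableSet_ball
    (fun x hx => ⟨(hh x (ball_subset_closedBall hx)).1, hsrc x (ball_subset_closedBall hx)⟩)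
    (A.eps_int fun x hx => (hh x hx).1)
  have h3 : A.en h x₁ 1 ≤ A.Lam * ‖deriv (A.c a ∘ h) x₁‖ ^ 2 := (hh x₁ hx₁).1.en_le h1 1
  have hl := A.lam_pos
  have hL : 0 < A.Lam := hl.trans_le A.lam_le
  calc Real.pi * ρ ^ 2 * A.en h x₁ 1
      ≤ Real.pi * ρ ^ 2 * (A.Lam * ‖deriv (A.c a ∘ h) x₁‖ ^ 2) := by gcongr
    _ = A.Lam * (Real.pi * ρ ^ 2 * ‖deriv (A.c a ∘ h) x₁‖ ^ 2) := by ring
    _ ≤ A.Lam * ∫ x in ball x₁ ρ, ‖deriv (A.c a ∘ h) x‖ ^ 2 := by gcongr
    _ = A.θ * (A.lam * ∫ x in ball x₁ ρ, ‖deriv (A.c a ∘ h) x‖ ^ 2) := by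
      rw [θ]; field_simp
    _ ≤ _ := by
      have := A.one_le_θ
      gcongr

theorem eps_reg : ∃ ε₀ C : ℝ, 0 < ε₀ ∧ 0 < C ∧ ∀ (h : ℂ → M) (x₀ : ℂ) (r : ℝ), 0 < r →
    (∀ x ∈ closedBall x₀ r, A.Hol h x) → ∫ x in ball x₀ r, A.en h x 1 ≤ ε₀ →
    r ^ 2 * A.en h x₀ 1 ≤ C * ∫ x in ball x₀ r, A.en h x 1 := by
  have hθ := A.one_le_θ
  have hl := A.lam_pos
  refine ⟨A.lam / (2 * A.θ), 2 * A.θ, by positivity, by positivity, fun h x₀ r hr hh hI => ?_⟩
  set I := ∫ x in ball x₀ r, A.en h x 1 with hIdef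
  have hI0 : 0 ≤ I := setIntegral_nonneg measurableSet_ball fun x hx =>
    (hh x (ball_subset_closedBall hx)).en_nonneg 1
  obtain ⟨x₁, hx₁, hmax⟩ := (isCompact_closedBall x₀ r).exists_isMaxOn
    (f := fun x => (r - dist x x₀) ^ 2 * A.en h x 1) ⟨x₀, mem_closedBall_self hr.le⟩
    (fun x hx => (ContinuousAt.mul (by fun_prop) ((hh x hx).continuousAt_en 1)).continuousWithinAt)
  set ρ := r - dist x₁ x₀ with hρ
  set e₁ := A.en h x₁ 1 with he₁
  have h0 : r ^ 2 * A.en h x₀ 1 ≤ ρ ^ 2 * e₁ := by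
    simpa using hmax (mem_closedBall_self hr.le)
  refine h0.trans ?_
  have hρ0 : 0 ≤ ρ := sub_nonneg.2 hx₁
  have he0 : 0 ≤ e₁ := (hh x₁ hx₁).en_nonneg 1
  rcases hρ0.eq_or_lt with h1 | hρ0
  · rw [← h1, zero_pow two_ne_zero, zero_mul]; positivity
  have key : ∀ s, 0 < s → s ≤ ρ / 2 → s ^ 2 * (4 * e₁) ≤ A.lam →
      Real.pi * s ^ 2 * e₁ ≤ A.θ * I := by
    intro s hs hsρ hsl
    have hsub : closedBall x₁ s ⊆ ball x₀ r := closedBall_subset_ball' (by linarith)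
    refine (A.eps_disc hs (B := 4 * e₁) (fun x hx => ?_) hsl).trans ?_
    · have hx' := ball_subset_closedBall (hsub hx)
      refine ⟨hh x hx', ?_⟩
      have h2 : (r - dist x x₀) ^ 2 * A.en h x 1 ≤ ρ ^ 2 * e₁ := hmax hx'
      have h3 : ρ / 2 ≤ r - dist x x₀ := by
        have := dist_triangle x x₁ x₀
        have := mem_closedBall.1 hx
        linarith
      have h4 : (ρ / 2) ^ 2 * A.en h x 1 ≤ (r - dist x x₀) ^ 2 * A.en h x 1 :=
        mul_le_mul_of_nonneg_right (pow_le_pow_left₀ (by positivity) h3 2) ((hh x hx').en_nonneg 1)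
      have h5 : ρ ^ 2 * A.en h x 1 ≤ ρ ^ 2 * (4 * e₁) := by nlinarith
      exact le_of_mul_le_mul_left h5 (by positivity)
    · refine mul_le_mul_of_nonneg_left ?_ (by linarith)
      refine setIntegral_mono_set (A.eps_int hh) ?_ (ball_subset_closedBall.trans hsub).eventuallyLE
      exact (ae_restrict_mem measurableSet_ball).mono fun x hx =>
        (hh x (ball_subset_closedBall hx)).en_nonneg 1
  have hπ := Real.pi_gt_three
  by_cases hc : ρ ^ 2 * e₁ ≤ A.lam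
  · have := key (ρ / 2) (by positivity) le_rfl (by nlinarith)
    have h6 : 0 ≤ ρ ^ 2 * e₁ := by positivity
    nlinarith
  · exfalso
    push Not at hc
    have he : 0 < e₁ := by
      rcases he0.eq_or_lt with h1 | h1
      · rw [← h1] at hc; linarith
      · exact h1
    have hs : √(A.lam / (4 * e₁)) ^ 2 = A.lam / (4 * e₁) := Real.sq_sqrt (by positivity)
    have := key √(A.lam / (4 * e₁)) (by positivity) (by
      refine Real.sqrt_le_iff.2 ⟨by positivity, ?_⟩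
      rw [div_le_iff₀ (by positivity)]
      nlinarith) (by rw [hs]; field_simp; rfl)
    rw [hs] at this
    have h7 : Real.pi * (A.lam / (4 * e₁)) * e₁ = Real.pi * A.lam / 4 := by field_simp
    have h8 : A.θ * I ≤ A.lam / 2 := by
      rw [le_div_iff₀ (by positivity)] at hI
      linarith
    nlinarith

/-- The component of a point in the preimage of a unit ball has area bounded below. -/
theorem eps_comp : ∃ c₁ : ℝ, 0 < c₁ ∧ ∀ (h : ℂ → M) (R : ℝ) (x₁ : ℂ), x₁ ∈ ball (0 : ℂ) R →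
    (∀ x ∈ closedBall (0 : ℂ) R, A.Hol h x) → 0 < A.en h x₁ 1 → ∃ (a : A.ι) (O : Set ℂ),
      IsOpen O ∧ IsPreconnected O ∧ x₁ ∈ O ∧ O ⊆ ball 0 R ∧ (∀ x ∈ O, h x ∈ (A.c a).source) ∧
      ∀ R' < R, O ⊆ closedBall 0 R' → c₁ ≤ ∫ x in O, A.en h x 1 := by
  obtain ⟨c₀, hc₀, hle⟩ := lelong P
  have hl := A.lam_pos
  refine ⟨A.lam * c₀, by positivity, fun h R x₁ hx₁ hh hpos => ?_⟩
  obtain ⟨h1, h2⟩ := A.eps_ch (h x₁)
  set a := A.ch (h x₁)
  set U : Set ℂ := {x | x ∈ ball (0 : ℂ) R ∧ h x ∈ (A.c a).source ∧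
    ‖A.c a (h x) - A.c a (h x₁)‖ < 1} with hU
  have hUo : IsOpen U := by
    refine isOpen_iff_mem_nhds.2 fun x hx => ?_
    have hx' := hh x (ball_subset_closedBall hx.1)
    have e1 : ∀ᶠ y in 𝓝 x, h y ∈ (A.c a).source := hx'.1 ((A.c a).open_source.mem_nhds hx.2.1)
    have e2 : ∀ᶠ y in 𝓝 x, ‖A.c a (h y) - A.c a (h x₁)‖ < 1 :=
      (((hx'.2 a hx.2.1).continuousAt.sub continuousAt_const).norm).eventually
        (gt_mem_nhds hx.2.2)
    filter_upwards [isOpen_ball.mem_nhds hx.1, e1, e2] with y y1 y2 y3 using ⟨y1, y2, y3⟩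
  have hxU : x₁ ∈ U := ⟨hx₁, h1, by simp⟩
  have hOU : connectedComponentIn U x₁ ⊆ U := connectedComponentIn_subset U x₁
  have hOo : IsOpen (connectedComponentIn U x₁) := hUo.connectedComponentIn
  refine ⟨a, connectedComponentIn U x₁, hOo, isPreconnected_connectedComponentIn,
    mem_connectedComponentIn hxU, fun x hx => (hOU hx).1, fun x hx => (hOU hx).2.1,
    fun R' hR' hsub => ?_⟩
  have hhO : ∀ x ∈ connectedComponentIn U x₁, A.Hol h x ∧ h x ∈ (A.c a).source := fun x hx =>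
    ⟨hh x (ball_subset_closedBall (hOU hx).1), (hOU hx).2.1⟩
  obtain ⟨hI, hp⟩ := A.eps_piece hOo.measurableSet hhO
    ((A.eps_int hh).mono_set fun x hx => (hOU hx).1)
  refine le_trans (mul_le_mul_of_nonneg_left ?_ hl.le) hp
  refine hle _ _ x₁ hOo (fun x hx => (hhO x hx).1.2 a (hhO x hx).2) (mem_connectedComponentIn hxU)
    (fun h0 => ?_) ?_ hI
  · have h3 : A.en h x₁ 1 ≤ A.Lam * ‖deriv (A.c a ∘ h) x₁‖ ^ 2 :=
      (hh x₁ (ball_subset_closedBall hx₁)).en_le h1 1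
    rw [h0] at h3
    simp at h3
    linarith
  · have hC := isClosed_chart (A := A) a (K := closedBall (A.c a (h x₁)) (1 / 2)) isClosed_closedBall
      (r := 2) (by norm_num) (closedBall_subset_closedBall' (by rw [dist_zero_right]; linarith))
    have hK : IsClosed (closedBall (0 : ℂ) R' ∩ h ⁻¹' {m | m ∈ (A.c a).source ∧
        A.c a m ∈ closedBall (A.c a (h x₁)) (1 / 2)}) :=
      ContinuousOn.preimage_isClosed_of_isClosed
        (fun x hx => (hh x (closedBall_subset_closedBall hR'.le hx)).1.continuousWithinAt)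
        isClosed_closedBall hC
    refine (isCompact_closedBall (0 : ℂ) R').of_isClosed_subset ?_ fun x hx => hsub hx.1
    refine isClosed_of_closure_subset fun x hx => ?_
    have hx1 : x ∈ closedBall (0 : ℂ) R' ∩ h ⁻¹' {m | m ∈ (A.c a).source ∧
        A.c a m ∈ closedBall (A.c a (h x₁)) (1 / 2)} :=
      hK.closure_subset_iff.2
        (fun y hy => ⟨hsub hy.1, (hOU hy.1).2.1, mem_closedBall_iff_norm.2 hy.2⟩) hx
    have hn : ‖A.c a (h x) - A.c a (h x₁)‖ ≤ 1 / 2 := mem_closedBall_iff_norm.1 hx1.2.2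
    have hx2 : x ∈ U := ⟨closedBall_subset_ball hR' hx1.1, hx1.2.1, by linarith⟩
    obtain ⟨y, hy1, hy2⟩ := mem_closure_iff.1 hx _ hUo.connectedComponentIn
      (mem_connectedComponentIn hx2)
    refine ⟨?_, hn⟩
    rw [connectedComponentIn_eq hy2.1, ← connectedComponentIn_eq hy1]
    exact mem_connectedComponentIn hx2

theorem hole (A₁ : ℝ) : ∃ Θ : ℝ, 0 < Θ ∧ ∀ (h : ℂ → M) (w : ℂ → ℝ) (R R' w₀ : ℝ), 0 < R' → R' < R →
    0 < w₀ → (∀ x ∈ closedBall (0 : ℂ) R, A.Hol h x ∧ 0 < A.en h x 1 ∧ ContinuousAt w x) →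
    (∀ (a : A.ι) (O : Set ℂ), IsPreconnected O → O ⊆ ball 0 R → (∀ x ∈ O, h x ∈ (A.c a).source) →
      ∀ x ∈ O, ∀ x' ∈ O, w x ≤ A.θ * w x') →
    (∀ x : ℂ, R' ≤ ‖x‖ → ‖x‖ < R → w x ≤ w₀) → ∫ x in ball (0 : ℂ) R, A.en h x 1 ≤ A₁ →
    ∀ x ∈ ball (0 : ℂ) R, w x ≤ Θ * w₀ := by
  obtain ⟨c₁, hc₁, hcomp⟩ := A.eps_comp
  obtain ⟨N, hN⟩ := exists_nat_gt (A₁ / c₁)
  have hθ := A.one_le_θ
  set q := 2 * A.θ ^ 2 with hq
  have hq1 : 1 ≤ q := by nlinarith
  refine ⟨q ^ N, by positivity, fun h w R R' w₀ hR' hR hw₀ hh hH hout hA x hx => ?_⟩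
  by_contra hlt
  push Not at hlt
  have hy : ((R' : ℝ) : ℂ) ∈ ball (0 : ℂ) R := by simpa [abs_of_pos hR'] using hR
  have hwy : w R' ≤ w₀ := hout _ (by simp [abs_of_pos hR']) (by simpa using hy)
  have hex : ∀ j : Fin N, ∃ z ∈ ball (0 : ℂ) R, w z = q ^ (j + 1 : ℕ) * w₀ := by
    intro j
    refine (convex_ball (0 : ℂ) R).isPreconnected.intermediate_value hy hx
      (fun z hz => (hh z (ball_subset_closedBall hz)).2.2.continuousWithinAt) ⟨?_, ?_⟩
    · exact hwy.trans (le_mul_of_one_le_left hw₀.le (one_le_pow₀ hq1))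
    · exact (mul_le_mul_of_nonneg_right (pow_le_pow_right₀ hq1 j.2) hw₀.le).trans hlt.le
  choose z hz hwz using hex
  choose a O hOo hOc hzO hOR hOa hOI using fun j => hcomp h R (z j) (hz j)
    (fun y hy => (hh y hy).1) (hh _ (ball_subset_closedBall (hz j))).2.1
  have hHO := fun j => hH (a j) (O j) (hOc j) (hOR j) (hOa j)
  have hin : ∀ j, O j ⊆ closedBall 0 R' := by
    intro j y hy
    rw [mem_closedBall_zero_iff]
    by_contra hn
    have h1 := hout y (not_le.1 hn).le (mem_ball_zero_iff.1 (hOR j hy))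
    have h2 := hHO j _ (hzO j) y hy
    have h3 : q ≤ q ^ (j + 1 : ℕ) := le_self_pow₀ hq1 (Nat.succ_ne_zero _)
    rw [hwz] at h2
    have h4 : q * w₀ ≤ A.θ * w₀ :=
      (mul_le_mul_of_nonneg_right h3 hw₀.le).trans (h2.trans (by gcongr))
    have h5 : q ≤ A.θ := le_of_mul_le_mul_right h4 hw₀
    nlinarith
  have hdis : ∀ i j, i < j → Disjoint (O i) (O j) := by
    intro i j hij
    refine Set.disjoint_left.2 fun y hi hj => ?_
    have h1 := hHO j _ (hzO j) y hj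
    have h2 := hHO i y hi _ (hzO i)
    rw [hwz] at h1 h2
    have h3 : q ^ (i + 1 + 1 : ℕ) ≤ q ^ (j + 1 : ℕ) := pow_le_pow_right₀ hq1 (by omega)
    have h4 : 0 < q ^ (i + 1 : ℕ) * w₀ := by positivity
    have h5 : q ^ (i + 1 + 1 : ℕ) * w₀ ≤ A.θ * (A.θ * (q ^ (i + 1 : ℕ) * w₀)) :=
      (mul_le_mul_of_nonneg_right h3 hw₀.le).trans (h1.trans (by gcongr))
    rw [pow_succ q (i + 1)] at h5
    have h6 : 0 < A.θ ^ 2 * (q ^ (i + 1 : ℕ) * w₀) := by positivity
    nlinarith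
  have hI := A.eps_int (x₀ := 0) fun y hy => (hh y hy).1
  have hsum : ∫ y in ⋃ j, O j, A.en h y 1 = ∑ j, ∫ y in O j, A.en h y 1 :=
    integral_iUnion_fintype (fun j => (hOo j).measurableSet)
      (fun i j hij => (lt_or_gt_of_ne hij).elim (hdis i j) fun h' => (hdis j i h').symm)
      fun j => hI.mono_set (hOR j)
  have hle : ∫ y in ⋃ j, O j, A.en h y 1 ≤ A₁ := by
    refine le_trans (setIntegral_mono_set hI ?_ (iUnion_subset hOR).eventuallyLE) hA
    exact (ae_restrict_mem measurableSet_ball).mono fun y hy =>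
      (hh y (ball_subset_closedBall hy)).2.1.le
  have hlow : ∑ _j : Fin N, c₁ ≤ ∑ j, ∫ y in O j, A.en h y 1 :=
    Finset.sum_le_sum fun j _ => hOI j R' hR (hin j)
  rw [div_lt_iff₀ hc₁] at hN
  simp only [Finset.sum_const, Finset.card_univ, Fintype.card_fin, nsmul_eq_mul] at hlow
  linarith

end Vale.Agent.P278.Atl
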