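import Vale.Agent.P278.ProdA
import Vale.Agent.P278.ChartX

/-! P278 task ProdB1: the factors as complex manifolds. -/

open scoped Manifold ContDiff
open Metric Set Filter Topology

namespace Vale.Agent.P278.Atl

variable {M κ : Type} [TopologicalSpace M] [Fintype κ] [DecidableEq κ] {d : κ → ℕ}
  {A : Atl M (∀ i, Cn (d i))}

theorem prodB1_update {a : A.ι} {m m' : M} (h : m ∈ (A.c a).source) (h' : m' ∈ (A.c a).source)
    (i : κ) : Function.update (A.c a m) i (A.c a m' i) ∈ (A.c a).target := by
  have h1 := norm_lt h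
  have h2 := norm_lt h'
  rw [A.tgt, mem_ball_zero_iff]
  rw [pi_norm_lt_iff (by norm_num)] at h1 h2 ⊢
  intro j
  by_cases hj : j = i
  · subst hj; rw [Function.update_self]; exact h2 j
  · rw [Function.update_of_ne hj]; exact h1 j

theorem prodB1_fix {i : κ} {S : M → M} {a : A.ι} {q : ∀ i, Cn (d i)} {N : Set M}
    (hS : ∀ m ∈ N, S m = (A.c a).symm (Function.update q i (A.c a m i))) {p : Cn (d i)}
    (h1 : Function.update q i p ∈ (A.c a).target) (h2 : (A.c a).symm (Function.update q i p) ∈ N) :
    S ((A.c a).symm (Function.update q i p)) = (A.c a).symm (Function.update q i p) := by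
  rw [hS _ h2, (A.c a).right_inv h1, Function.update_self]

/-- The chart of the fixed set at one of its points. -/
noncomputable def prodB1_chart {i : κ} {S : M → M} (h2 : ∀ m, S (S m) = S m) (a : A.ι) (y : M) (N : Set M)
    (hN : IsOpen N) (hy : y ∈ (A.c a).source) (hs : N ⊆ (A.c a).source)
    (hS : ∀ m ∈ N, S m = (A.c a).symm (Function.update (A.c a y) i (A.c a m i))) :
    OpenPartialHomeomorph {w // S w = w} (Cn (d i)) where
  toFun y' := A.c a y'.1 i
  invFun p := ⟨S ((A.c a).symm (Function.update (A.c a y) i p)), h2 _⟩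
  source := {y' | y'.1 ∈ N}
  target := Function.update (A.c a y) i ⁻¹' ((A.c a).target ∩ (A.c a).symm ⁻¹' N)
  map_source' y' hy' := ⟨prodB1_update hy (hs hy') i, by
    rw [mem_preimage, ← hS _ hy', y'.2]; exact hy'⟩
  map_target' p hp := by
    change S _ ∈ N
    rw [prodB1_fix hS hp.1 hp.2]; exact hp.2
  left_inv' y' hy' := Subtype.ext (by
    change S _ = y'.1
    rw [← hS _ hy', y'.2, y'.2])
  right_inv' p hp := by
    change A.c a (S _) i = p
    rw [prodB1_fix hS hp.1 hp.2, (A.c a).right_inv hp.1, Function.update_self]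
  open_source := hN.preimage continuous_subtype_val
  open_target := ((A.c a).isOpen_inter_preimage_symm hN).preimage
    (continuous_const.update i continuous_id)
  continuousOn_toFun := (continuous_apply i).comp_continuousOn
    ((A.c a).continuousOn.comp continuous_subtype_val.continuousOn fun _ h => hs h)
  continuousOn_invFun := by
    refine (IsInducing.subtypeVal (t := {w | S w = w})).continuousOn_iff.2 ?_
    refine ((A.c a).continuousOn_symm.comp (continuous_const.update i continuous_id).continuousOn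
      fun _ h => h.1).congr fun p hp => ?_
    exact prodB1_fix hS hp.1 hp.2

/-- The fixed set of a retraction is a manifold whose charts are coordinates of the atlas. -/
theorem factor_manifold (hA : A.IsProd) {i : κ} {S : M → M} (h1 : ∀ w, A.RG {i} S w)
    (h2 : ∀ m, S (S m) = S m)
    (h3 : ∀ w, S w = w → ∀ a, w ∈ (A.c a).source →
      ∀ᶠ m in 𝓝 w, S m = (A.c a).symm (Function.update (A.c a w) i (A.c a m i))) :
    ∃ _ : ChartedSpace (Cn (d i)) {w // S w = w}, IsManifold 𝓘(ℂ, Cn (d i)) ω {w // S w = w} ∧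
      ∀ y : {w // S w = w}, ∃ a, y.1 ∈ (A.c a).source ∧
        ∀ y' : {w // S w = w}, chartAt (Cn (d i)) y y' = A.c a y'.1 i := by
  have _ := hA
  have _ := h1
  have h0 : ∀ y : {w // S w = w}, ∃ (a : A.ι) (N : Set M), IsOpen N ∧ y.1 ∈ N ∧
      N ⊆ (A.c a).source ∧
      ∀ m ∈ N, S m = (A.c a).symm (Function.update (A.c a y) i (A.c a m i)) := by
    intro y
    obtain ⟨a, ha, -⟩ := A.cover y.1
    obtain ⟨N, n1, n2, n3⟩ := eventually_nhds_iff.1
      ((h3 y.1 y.2 a ha).and ((A.c a).open_source.mem_nhds ha))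
    exact ⟨a, N, n2, n3, fun m hm => (n1 m hm).2, fun m hm => (n1 m hm).1⟩
  choose a N n1 n2 n3 n4 using h0
  let e : {w // S w = w} → OpenPartialHomeomorph {w // S w = w} (Cn (d i)) := fun y =>
    prodB1_chart h2 (a y) y (N y) (n1 y) (n3 y (n2 y)) (n3 y) (n4 y)
  let C : ChartedSpace (Cn (d i)) {w // S w = w} :=
    { atlas := range e
      chartAt := e
      mem_chart_source := n2
      chart_mem_atlas := fun y => ⟨y, rfl⟩ }
  refine ⟨C, isManifold_of_contDiffOn _ _ _ ?_, fun y => ⟨a y, n3 y (n2 y), fun _ => rfl⟩⟩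
  rintro _ _ ⟨y, rfl⟩ ⟨y', rfl⟩
  simp only [modelWithCornersSelf_coe, modelWithCornersSelf_coe_symm, preimage_id_eq, id_eq,
    range_id, inter_univ, Function.id_comp, Function.comp_id]
  refine ContDiffOn.congr (f := fun p => A.c (a y') ((A.c (a y)).symm
    (Function.update (A.c (a y) y) i p)) i) (fun p hp => ?_) fun p hp => ?_
  · have p1 : Function.update (A.c (a y) y) i p ∈ (A.c (a y)).target := hp.1.1
    have p2 : S ((A.c (a y)).symm (Function.update (A.c (a y) y) i p)) ∈ N y' := hp.2
    rw [prodB1_fix (n4 y) p1 hp.1.2] at p2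
    have h4 := A.trans (a y) (a y') _ ((A.c (a y)).map_target p1) (n3 y' p2)
    rw [(A.c (a y)).right_inv p1] at h4
    have h5 : ContDiffAt ℂ ω (fun p => (A.c (a y') ∘ (A.c (a y)).symm)
        (Function.update (A.c (a y) y) i p)) p :=
      h4.contDiffAt.comp p (contDiff_update ω _ i).contDiffAt
    exact (contDiffAt_pi.1 h5 i).contDiffWithinAt
  · change A.c (a y') (S _) i = _
    rw [prodB1_fix (n4 y) hp.1.1 hp.1.2]

end Vale.Agent.P278.Atl
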