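import Vale.Agent.P278.ProdA
import Vale.Agent.P278.ChartX
import Vale.Agent.P278.ProdB1

/-! P278 task ProdB: the factors as complex manifolds. -/

open scoped Manifold ContDiff
open Metric Set Filter Topology

namespace Vale.Agent.P278.Atl

variable {M κ : Type} [TopologicalSpace M] [Fintype κ] [DecidableEq κ] {d : κ → ℕ}
  {A : Atl M (∀ i, Cn (d i))}

section Aux

variable {n : ℕ} [ChartedSpace (Cn n) M] {Y : κ → Type} [∀ i, TopologicalSpace (Y i)]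
  [∀ i, ChartedSpace (Cn (d i)) (Y i)]
  {E : κ → ∀ x : M, Submodule ℂ (TangentSpace 𝓘(ℂ, Cn n) x)} {φ : M → ∀ i, Y i} {m : M}
  {c : OpenPartialHomeomorph M (∀ i, Cn (d i))} {g : ∀ i, Cn (d i) → Cn (d i)}

theorem prodB_fwd (hm : m ∈ c.source) (hc : ProdChart E c) (hg : Bi g (c m))
    (hφ : ContinuousAt φ m)
    (h : ∀ i, ∀ᶠ m' in 𝓝 m, chartAt (Cn (d i)) (φ m i) (φ m' i) = g i (c m' i)) :
    ContMDiffAt 𝓘(ℂ, Cn n) (ModelWithCorners.pi fun i => 𝓘(ℂ, Cn (d i))) ω φ m := by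
  rw [contMDiffAt_iff_target]
  refine ⟨hφ, ?_⟩
  have h1 : ContMDiffAt 𝓘(ℂ, Cn n) 𝓘(ℂ, ∀ i, Cn (d i)) ω c m :=
    hc.1.contMDiffAt (c.open_source.mem_nhds hm)
  have h2 := (hg.analyticAt.contDiffAt (n := ω)).contMDiffAt.comp m h1
  refine h2.congr_of_eventuallyEq ?_
  filter_upwards [eventually_all.2 h] with m' hm'
  funext i
  exact hm' i

theorem prodB_bwd {ψ : (∀ i, Y i) → M} (hψ : Function.LeftInverse ψ φ) (hm : m ∈ c.source)
    (hc : ProdChart E c) (hg : Bi g (c m)) (hφ : ContinuousAt φ m)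
    (h : ∀ i, ∀ᶠ m' in 𝓝 m, chartAt (Cn (d i)) (φ m i) (φ m' i) = g i (c m' i)) :
    ContMDiffAt (ModelWithCorners.pi fun i => 𝓘(ℂ, Cn (d i))) 𝓘(ℂ, Cn n) ω ψ (φ m) := by
  obtain ⟨g', hg', e1, e2⟩ := hg.inverse
  have e0 : ∀ i, chartAt (Cn (d i)) (φ m i) (φ m i) = g i (c m i) := fun i =>
    (h i).self_of_nhds
  set χ : (∀ i, Y i) → ∀ i, Cn (d i) := fun y i => chartAt (Cn (d i)) (φ m i) (y i) with hχ
  have hχ0 : χ (φ m) = fun i => g i (c m i) := funext e0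
  have h1 : ContMDiffAt (ModelWithCorners.pi fun i => 𝓘(ℂ, Cn (d i))) 𝓘(ℂ, ∀ i, Cn (d i)) ω χ
      (φ m) := contMDiffAt_extChartAt (I := ModelWithCorners.pi fun i => 𝓘(ℂ, Cn (d i)))
        (x := φ m)
  set G : (∀ i, Cn (d i)) → ∀ i, Cn (d i) := fun p i => g' i (p i) with hG
  have h2 : ContMDiffAt 𝓘(ℂ, ∀ i, Cn (d i)) 𝓘(ℂ, ∀ i, Cn (d i)) ω G (χ (φ m)) := by
    rw [hχ0]
    exact (hg'.analyticAt.contDiffAt (n := ω)).contMDiffAt
  have hG0 : (G ∘ χ) (φ m) = c m := by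
    funext i
    simp only [Function.comp, hχ0, hG, e1]
  have h12 := h2.comp (φ m) h1
  have h3 : ContMDiffAt 𝓘(ℂ, ∀ i, Cn (d i)) 𝓘(ℂ, Cn n) ω c.symm ((G ∘ χ) (φ m)) := by
    rw [hG0]
    exact hc.2.1.contMDiffAt (c.open_target.mem_nhds (c.map_source hm))
  have h4 := h3.comp (φ m) h12
  have h40 : (c.symm ∘ G ∘ χ) (φ m) = m := by
    rw [Function.comp_apply, hG0, c.left_inv hm]
  have t4 : Tendsto (c.symm ∘ G ∘ χ) (𝓝 (φ m)) (𝓝 m) := by
    have := h4.continuousAt.tendsto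
    rwa [h40] at this
  have t3 : Tendsto (G ∘ χ) (𝓝 (φ m)) (𝓝 (c m)) := by
    have := h12.continuousAt.tendsto
    rwa [hG0] at this
  have t1 : ∀ i, Tendsto (fun y => χ y i) (𝓝 (φ m)) (𝓝 (g i (c m i))) := fun i => by
    have := ((continuous_apply i).continuousAt.comp h1.continuousAt).tendsto
    rw [Function.comp_apply, hχ0] at this
    exact this
  refine h4.congr_of_eventuallyEq ?_
  have k : ∀ i, ∀ᶠ y in 𝓝 (φ m), φ ((c.symm ∘ G ∘ χ) y) i = y i := fun i => by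
    have hs := (chartAt (Cn (d i)) (φ m i)).open_source.mem_nhds (mem_chart_source _ (φ m i))
    have a1 : ∀ᶠ y : ∀ i, Y i in 𝓝 (φ m), y i ∈ (chartAt (Cn (d i)) (φ m i)).source :=
      (continuous_apply i).continuousAt.eventually hs
    have a2 : ∀ᶠ m' in 𝓝 m, φ m' i ∈ (chartAt (Cn (d i)) (φ m i)).source :=
      ((continuous_apply i).continuousAt.comp hφ).eventually hs
    filter_upwards [a1, t4.eventually a2, t4.eventually (h i), (t1 i).eventually (e2 i),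
      t3.eventually (c.open_target.mem_nhds (c.map_source hm))] with y b1 b2 b3 b4 b5
    refine (chartAt (Cn (d i)) (φ m i)).injOn b2 b1 ?_
    rw [b3, Function.comp_apply, c.right_inv b5]
    exact b4
  filter_upwards [eventually_all.2 k] with y hy
  have : φ ((c.symm ∘ G ∘ χ) y) = y := funext hy
  rw [← hψ ((c.symm ∘ G ∘ χ) y), this]

omit [DecidableEq κ] in
theorem prodB_deriv (hm : m ∈ c.source) (hc : ProdChart E c) (hg : Bi g (c m))
    (hφ : ContinuousAt φ m)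
    (h : ∀ i, ∀ᶠ m' in 𝓝 m, chartAt (Cn (d i)) (φ m i) (φ m' i) = g i (c m' i)) (j : κ)
    (v : TangentSpace 𝓘(ℂ, Cn n) m) :
    mfderiv 𝓘(ℂ, Cn n) 𝓘(ℂ, Cn (d j)) (fun x => φ x j) m v = 0 ↔
      (mfderiv 𝓘(ℂ, Cn n) 𝓘(ℂ, ∀ i, Cn (d i)) c m v : ∀ i, Cn (d i)) j = 0 := by
  have h1 := ((hc.1.contMDiffAt (c.open_source.mem_nhds hm)).mdifferentiableAt
    (by simp)).hasMFDerivAt
  have h2 : HasFDerivAt (fun p : ∀ i, Cn (d i) => g j (p j))
      ((fderiv ℂ (g j) (c m j)).comp (ContinuousLinearMap.proj j)) (c m) :=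
    (hg j).1.differentiableAt.hasFDerivAt.comp (c m)
      (ContinuousLinearMap.proj (R := ℂ) (φ := fun i => Cn (d i)) j).hasFDerivAt
  have h3 := (h2.hasMFDerivAt.comp m h1).congr_of_eventuallyEq
    (f₁ := fun x => chartAt (Cn (d j)) (φ m j) (φ x j)) (h j)
  have h4 : HasMFDerivAt 𝓘(ℂ, Cn n) 𝓘(ℂ, Cn (d j)) (fun x => φ x j) m
      (((fderiv ℂ (g j) (c m j)).comp (ContinuousLinearMap.proj j)).comp
        (mfderiv 𝓘(ℂ, Cn n) 𝓘(ℂ, ∀ i, Cn (d i)) c m)) :=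
    ⟨(continuous_apply j).continuousAt.comp hφ, h3.2⟩
  rw [h4.mfderiv]
  exact map_eq_zero_iff (fderiv ℂ (g j) (c m j)) (hg j).2

end Aux

theorem exists_diffeo {n : ℕ} [ChartedSpace (Cn n) M] [IsManifold 𝓘(ℂ, Cn n) ω M] (hA : A.IsProd)
    {E : κ → ∀ x : M, Submodule ℂ (TangentSpace 𝓘(ℂ, Cn n) x)} (hE : ∀ a, ProdChart E (A.c a))
    {S : κ → M → M} (h1 : ∀ i w, A.RG {i} (S i) w) (h2 : ∀ i m, S i (S i m) = S i m)
    (h4 : ∀ m m', (∀ i, S i m = S i m') → m = m')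
    (h5 : ∀ y : κ → M, (∀ i, S i (y i) = y i) → ∃ m, ∀ i, S i m = y i)
    [∀ i, ChartedSpace (Cn (d i)) {w // S i w = w}]
    (h6 : ∀ i (y : {w // S i w = w}), ∃ a, y.1 ∈ (A.c a).source ∧
      ∀ y' : {w // S i w = w}, chartAt (Cn (d i)) y y' = A.c a y'.1 i) :
    ∃ Φ : Diffeomorph 𝓘(ℂ, Cn n) (ModelWithCorners.pi fun i => 𝓘(ℂ, Cn (d i))) M
        (∀ i, {w // S i w = w}) ω,
      ∀ (m : M) (i : κ) (v : TangentSpace 𝓘(ℂ, Cn n) m), v ∈ E i m ↔
        ∀ j ≠ i, mfderiv 𝓘(ℂ, Cn n) 𝓘(ℂ, Cn (d j)) (fun x => Φ x j) m v = 0 := by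
  set φ : M → ∀ i, {w // S i w = w} := fun m i => ⟨S i m, h2 i m⟩ with hφ
  have hb : Function.Bijective φ := by
    refine ⟨fun m m' h => h4 m m' fun i => congrArg Subtype.val (congrFun h i), fun y => ?_⟩
    obtain ⟨m, hm⟩ := h5 (fun i => (y i).1) fun i => (y i).2
    exact ⟨m, funext fun i => Subtype.ext (hm i)⟩
  have loc : ∀ m, ∃ (a : A.ι) (g : ∀ i, Cn (d i) → Cn (d i)), m ∈ (A.c a).source ∧
      Bi g (A.c a m) ∧ ContinuousAt φ m ∧
      ∀ i, ∀ᶠ m' in 𝓝 m, chartAt (Cn (d i)) (φ m i) (φ m' i) = g i (A.c a m' i) := fun m => by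
    obtain ⟨a, ha, -⟩ := A.cover m
    choose b hb1 hb2 using fun i => h6 i (φ m i)
    choose f hf1 hf2 using fun i => (h1 i m).chart hA ha (hb1 i)
    refine ⟨a, fun i => f i i, ha, fun i => hf1 i i (Finset.mem_singleton_self i), ?_, fun i => ?_⟩
    · refine continuousAt_pi.2 fun i => ?_
      have c1 : ContinuousAt (S i) m := by
        refine (((h1 i m).hol hA ha).1.comp ((A.c a).continuousAt ha)).congr ?_
        filter_upwards [(A.c a).open_source.mem_nhds ha] with m' hm'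
        simp only [Function.comp, (A.c a).left_inv hm']
      exact Topology.IsInducing.subtypeVal.continuousAt_iff.2 c1
    · filter_upwards [hf2 i] with m' hm'
      rw [hb2 i]
      have := congrFun hm'.2 i
      rwa [Finset.piecewise_eq_of_mem _ _ _ (Finset.mem_singleton_self i)] at this
  let e := Equiv.ofBijective φ hb
  refine ⟨⟨e, fun m => ?_, fun y => ?_⟩, fun m i v => ?_⟩
  · obtain ⟨a, g, k1, k2, k3, k4⟩ := loc m
    exact prodB_fwd k1 (hE a) k2 k3 k4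
  · obtain ⟨m, rfl⟩ := hb.2 y
    obtain ⟨a, g, k1, k2, k3, k4⟩ := loc m
    exact prodB_bwd e.left_inv k1 (hE a) k2 k3 k4
  · obtain ⟨a, g, k1, k2, k3, k4⟩ := loc m
    rw [(hE a).2.2 m k1 i v]
    exact forall₂_congr fun j _ => (prodB_deriv k1 (hE a) k2 k3 k4 j v).symm

end Vale.Agent.P278.Atl
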