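import Vale.Agent.P278.AtlM
import Vale.Agent.P278.ProdB

/-! P278: the splitting theorem. -/

open scoped Manifold ContDiff

namespace Vale.Agent.P278

theorem splitting {n : ℕ} {X : Type} [TopologicalSpace X]
    [CompactSpace X] [ConnectedSpace X] [ChartedSpace (Cn n) X]
    [IsManifold 𝓘(ℂ, Cn n) ω X]
    (h : ∀ x : X, TangentSpace 𝓘(ℂ, Cn n) x →ₗ⋆[ℂ] TangentSpace 𝓘(ℂ, Cn n) x →ₗ[ℂ] ℂ)
    (hK : IsKaehler h)
    {k : ℕ} (E : Fin k → ∀ x : X, Submodule ℂ (TangentSpace 𝓘(ℂ, Cn n) x))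
    (hE : ∀ i, IsHolSubbundle (E i)) (hsum : ∀ x, DirectSum.IsInternal fun i => E i x)
    (hint : ∀ S : Set (Fin k), IsIntegrable fun x => ⨆ i ∈ S, E i x)
    {M : Type} [TopologicalSpace M] [T2Space M] [SecondCountableTopology M]
    [SimplyConnectedSpace M] [ChartedSpace (Cn n) M] [IsManifold 𝓘(ℂ, Cn n) ω M]
    (π : M → X) (hπ : IsCoveringMap π) (hπ' : IsLocalDiffeomorph 𝓘(ℂ, Cn n) 𝓘(ℂ, Cn n) ω π) :
    ∃ (d : Fin k → ℕ) (Y : Fin k → Type) (_ : ∀ i, TopologicalSpace (Y i))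
      (_ : ∀ i, ChartedSpace (Cn (d i)) (Y i)),
      (∀ i, IsManifold 𝓘(ℂ, Cn (d i)) ω (Y i) ∧ T2Space (Y i) ∧ SecondCountableTopology (Y i) ∧
        SimplyConnectedSpace (Y i)) ∧
      ∃ Φ : Diffeomorph 𝓘(ℂ, Cn n) (ModelWithCorners.pi fun i => 𝓘(ℂ, Cn (d i))) M (∀ i, Y i) ω,
        ∀ (m : M) (i : Fin k) (v : TangentSpace 𝓘(ℂ, Cn n) m),
          mfderiv 𝓘(ℂ, Cn n) 𝓘(ℂ, Cn n) π m v ∈ E i (π m) ↔
            ∀ j ≠ i, mfderiv 𝓘(ℂ, Cn n) 𝓘(ℂ, Cn (d j)) (fun x => Φ x j) m v = 0 := by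
  obtain ⟨d, hd⟩ := exists_prodChart E hE hsum hint
  obtain ⟨A, hA, hc⟩ := exists_atlM hK hd π hπ hπ'
  obtain ⟨S, h1, h2, h3, h4, h5⟩ := Atl.exists_factors hA
  choose cs hcs using fun i => Atl.factor_manifold hA (h1 i) (h2 i) (h3 i)
  obtain ⟨Φ, hΦ⟩ := Atl.exists_diffeo hA hc h1 h2 h4 h5 fun i => (hcs i).2
  refine ⟨d, fun i => {w // S i w = w}, inferInstance, cs, fun i => ⟨(hcs i).1, inferInstance,
    TopologicalSpace.Subtype.secondCountableTopology {w | S i w = w},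
    Atl.simplyConnected_fix (Atl.continuous_of_rg hA (h1 i)) (h2 i)⟩, Φ, hΦ⟩

end Vale.Agent.P278
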