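import Mathlib

/-! P278 task Frob: the analytic Frobenius theorem for total differential equations. -/

open Filter Topology

namespace Vale.Agent.P278

namespace FrobAux

section Nem

variable {K V W : Type} [TopologicalSpace K] [CompactSpace K] [NormedAddCommGroup V]
  [NormedSpace ℂ V] [NormedAddCommGroup W] [NormedSpace ℂ W]

/-- Pointwise application of a multilinear map. -/
noncomputable def ptMul {n : ℕ} (q : ContinuousMultilinearMap ℂ (fun _ : Fin n => V) W) :
    MultilinearMap ℂ (fun _ : Fin n => C(K, V)) C(K, W) :=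
  MultilinearMap.mk' (fun v => ⟨fun t => q fun i => v i t, q.cont.comp (by fun_prop)⟩)
    (fun v i x y => by
      ext t
      have h : ∀ z : C(K, V), (fun j => Function.update v i z j t) =
          Function.update (fun j => v j t) i (z t) := fun z =>
        funext fun j => Function.apply_update (fun _ (w : C(K, V)) => w t) v i z j
      simp [h])
    (fun v i c x => by
      ext t
      have h : ∀ z : C(K, V), (fun j => Function.update v i z j t) =
          Function.update (fun j => v j t) i (z t) := fun z =>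
        funext fun j => Function.apply_update (fun _ (w : C(K, V)) => w t) v i z j
      simp [h])

theorem ptMul_le {n : ℕ} (q : ContinuousMultilinearMap ℂ (fun _ : Fin n => V) W)
    (v : Fin n → C(K, V)) : ‖ptMul q v‖ ≤ ‖q‖ * ∏ i, ‖v i‖ := by
  rw [ContinuousMap.norm_le _ (by positivity)]
  exact fun t => q.le_opNorm_mul_prod_of_le fun i => (v i).norm_coe_le_norm t

/-- Pointwise application of a continuous multilinear map. -/
noncomputable def ptCM (K : Type) [TopologicalSpace K] [CompactSpace K] {n : ℕ}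
    (q : ContinuousMultilinearMap ℂ (fun _ : Fin n => V) W) :
    ContinuousMultilinearMap ℂ (fun _ : Fin n => C(K, V)) C(K, W) :=
  MultilinearMap.mkContinuous (E := fun _ : Fin n => C(K, V)) (G := C(K, W)) (ptMul q) ‖q‖
    (ptMul_le q)

theorem ptCM_le {n : ℕ} (q : ContinuousMultilinearMap ℂ (fun _ : Fin n => V) W) :
    ‖ptCM K q‖ ≤ ‖q‖ :=
  MultilinearMap.mkContinuous_norm_le (E := fun _ : Fin n => C(K, V)) (G := C(K, W)) (ptMul q)
    (norm_nonneg q) (ptMul_le q)

/-- The power series of a composition operator. -/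
noncomputable def ptSer (K : Type) [TopologicalSpace K] [CompactSpace K]
    (p : FormalMultilinearSeries ℂ V W) : FormalMultilinearSeries ℂ C(K, V) C(K, W) := fun n =>
  ptCM K (p n)

theorem ptSer_apply (p : FormalMultilinearSeries ℂ V W) (n : ℕ) (η : C(K, V)) (t : K) :
    ptSer K p n (fun _ => η) t = p n fun _ => η t := rfl

theorem ptSer_radius (p : FormalMultilinearSeries ℂ V W) : p.radius ≤ (ptSer K p).radius :=
  FormalMultilinearSeries.radius_le_of_le fun n => ptCM_le (p n)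

/-- Composition with an analytic map is analytic. -/
theorem nemytskii [CompleteSpace W] {f : V → W} (hf : AnalyticAt ℂ f 0) :
    ∃ N : C(K, V) → C(K, W), AnalyticAt ℂ N 0 ∧ ∀ᶠ η in 𝓝 (0 : C(K, V)), ∀ t, N η t = f (η t) := by
  obtain ⟨p, r, hp⟩ := hf
  have h2 : r ≤ (ptSer K p).radius := hp.r_le.trans (ptSer_radius p)
  have h3 := (ptSer K p).hasFPowerSeriesOnBall (hp.r_pos.trans_le h2)
  refine ⟨(ptSer K p).sum, h3.analyticAt, ?_⟩
  filter_upwards [Metric.eball_mem_nhds (0 : C(K, V)) hp.r_pos] with η hη t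
  have h4 := (ContinuousMap.evalCLM ℂ t).hasSum
    ((ptSer K p).hasSum (Metric.eball_subset_eball h2 hη))
  simp only [ContinuousMap.evalCLM_apply, ptSer_apply] at h4
  have h5 : η t ∈ Metric.eball (0 : V) r := by
    rw [Metric.mem_eball, edist_zero_right] at hη ⊢
    refine lt_of_le_of_lt ?_ hη
    rw [← ofReal_norm, ← ofReal_norm]
    exact ENNReal.ofReal_le_ofReal (η.norm_coe_le_norm t)
  have h6 := hp.hasSum h5
  rw [zero_add] at h6
  exact h4.unique h6

end Nem

/-- Analytic solutions of a fixed point equation. -/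
theorem fix {P B : Type} [NormedAddCommGroup P] [NormedSpace ℂ P] [CompleteSpace P]
    [NormedAddCommGroup B] [NormedSpace ℂ B] [CompleteSpace B] {T : P × B → B}
    (hT : AnalyticAt ℂ T 0) (h0 : ∀ᶠ γ in 𝓝 (0 : B), T (0, γ) = 0) :
    ∃ Γ : P → B, AnalyticAt ℂ Γ 0 ∧ Γ 0 = 0 ∧ ∀ᶠ p in 𝓝 (0 : P), Γ p = T (p, Γ p) := by
  have h1 : AnalyticAt ℂ (fun x : P × B => x.2 - T x) 0 := analyticAt_snd.sub hT
  have h2 : ContDiffAt ℂ ⊤ (fun x : P × B => x.2 - T x) 0 := h1.contDiffAt
  have h3 : fderiv ℂ (fun x : P × B => x.2 - T x) 0 ∘L ContinuousLinearMap.inr ℂ P B =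
      ContinuousLinearMap.id ℂ B := by
    have k1 : HasFDerivAt (fun x : P × B => x.2 - T x) _
        (ContinuousLinearMap.inr ℂ P B 0) := h1.differentiableAt.hasFDerivAt
    have k2 := k1.comp (0 : B) (ContinuousLinearMap.inr ℂ P B).hasFDerivAt
    refine k2.unique ((hasFDerivAt_id (0 : B)).congr_of_eventuallyEq ?_)
    filter_upwards [h0] with γ hγ
    simp [hγ]
  have h4 : (fderiv ℂ (fun x : P × B => x.2 - T x) 0 ∘L
      ContinuousLinearMap.inr ℂ P B).IsInvertible := h3 ▸ ⟨ContinuousLinearEquiv.refl ℂ B, rfl⟩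
  refine ⟨h2.implicitFunction (by simp) h4, ?_, h2.implicitFunction_apply_self (by simp) h4, ?_⟩
  · exact (h2.contDiffAt_implicitFunction (by simp) h4).analyticAt
  · filter_upwards [h2.eventually_apply_implicitFunction (by simp) h4] with p hp
    have k : T 0 = 0 := h0.self_of_nhds
    rw [k] at hp
    exact sub_eq_zero.1 (hp.trans (sub_zero _))

/-- The time interval. -/
abbrev KI : Type := Set.Icc (0 : ℝ) 1

variable {F : Type} [NormedAddCommGroup F] [NormedSpace ℂ F]

/-- Extension of a curve to the real line. -/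
noncomputable def ext (γ : C(KI, F)) (s : ℝ) : F := γ (Set.projIcc 0 1 zero_le_one s)

omit [NormedSpace ℂ F] in
theorem ext_cont (γ : C(KI, F)) : Continuous (ext γ) := γ.continuous.comp continuous_projIcc

omit [NormedSpace ℂ F] in
theorem ext_mem (γ : C(KI, F)) {s : ℝ} (hs : s ∈ Set.Icc (0 : ℝ) 1) : ext γ s = γ ⟨s, hs⟩ := by
  rw [ext, Set.projIcc_of_mem]

/-- The primitive vanishing at zero. -/
noncomputable def prim (γ : C(KI, F)) (t : ℝ) : F := ∫ s in (0 : ℝ)..t, ext γ s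

theorem prim_deriv [CompleteSpace F] (γ : C(KI, F)) (t : ℝ) : HasDerivAt (prim γ) (ext γ t) t :=
  ((ext_cont γ).integral_hasStrictDerivAt 0 t).hasDerivAt

/-- The primitive as an operator. -/
noncomputable def primL (F : Type) [NormedAddCommGroup F] [NormedSpace ℂ F] :
    C(KI, F) →L[ℂ] C(KI, F) :=
  LinearMap.mkContinuous
    { toFun := fun γ => ⟨fun t => prim γ t,
        (intervalIntegral.continuous_primitive
          (fun a b => (ext_cont γ).intervalIntegrable a b) 0).comp continuous_subtype_val⟩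
      map_add' := fun γ η => by
        ext t
        exact intervalIntegral.integral_add ((ext_cont γ).intervalIntegrable _ _)
          ((ext_cont η).intervalIntegrable _ _)
      map_smul' := fun c γ => by
        ext t
        exact intervalIntegral.integral_smul c (ext γ) } 1 fun γ => by
    rw [ContinuousMap.norm_le _ (by positivity), one_mul]
    intro t
    refine (intervalIntegral.norm_integral_le_of_norm_le_const (C := ‖γ‖)
      fun s _ => γ.norm_coe_le_norm _).trans (mul_le_of_le_one_right (norm_nonneg _) ?_)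
    rw [sub_zero, abs_of_nonneg t.2.1]
    exact t.2.2

theorem primL_apply (γ : C(KI, F)) (t : KI) : primL F γ t = prim γ t := rfl

variable {E : Type} [NormedAddCommGroup E] [NormedSpace ℂ E]

/-- The arguments of the right hand side along a ray. -/
noncomputable def ray (E F : Type) [NormedAddCommGroup E] [NormedSpace ℂ E] [NormedAddCommGroup F]
    [NormedSpace ℂ F] : E × C(KI, F) →L[ℂ] C(KI, E × E × F) :=
  LinearMap.mkContinuous
    { toFun := fun x => ⟨fun t => (x.1, ((t : ℝ) : ℂ) • x.1, x.2 t), by fun_prop⟩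
      map_add' := fun x y => by
        ext t <;> simp
      map_smul' := fun c x => by
        ext t
        · simp
        · exact smul_comm ((t : ℝ) : ℂ) c x.1
        · simp } 1 fun x => by
    rw [ContinuousMap.norm_le _ (by positivity), one_mul]
    intro t
    refine max_le (norm_fst_le x) (max_le ?_ ((x.2.norm_coe_le_norm t).trans (norm_snd_le x)))
    show ‖((t : ℝ) : ℂ) • x.1‖ ≤ _
    rw [norm_smul, Complex.norm_real, Real.norm_of_nonneg t.2.1]
    exact (mul_le_of_le_one_left (norm_nonneg _) t.2.2).trans (norm_fst_le x)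

theorem ray_apply (x : E × C(KI, F)) (t : KI) :
    ray E F x t = (x.1, ((t : ℝ) : ℂ) • x.1, x.2 t) := rfl

/-- The solutions along rays depend analytically on the data. -/
theorem exists_sol [CompleteSpace E] [CompleteSpace F] (A : E × F → E →L[ℂ] F)
    (hA : AnalyticAt ℂ A 0) : ∃ Γ Ψ : E × F → C(KI, F), AnalyticAt ℂ Γ 0 ∧ AnalyticAt ℂ Ψ 0 ∧
      Γ 0 = 0 ∧ ∀ᶠ p in 𝓝 (0 : E × F), ∀ t : KI, Γ p t = p.2 + prim (Ψ p) t ∧
        Ψ p t = A (((t : ℝ) : ℂ) • p.1, Γ p t) p.1 := by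
  have h1 : AnalyticAt ℂ (fun x : E × E × F => A x.2 x.1) 0 :=
    ((ContinuousLinearMap.id ℂ (E →L[ℂ] F)).analyticAt_bilinear (A 0, 0)).comp_of_eq
      (f := fun x : E × E × F => (A x.2, x.1))
      ((hA.comp_of_eq analyticAt_snd rfl).prod analyticAt_fst) rfl
  obtain ⟨N, hN, hN'⟩ := nemytskii (K := KI) h1
  let c : F →L[ℂ] C(KI, F) := ContinuousLinearMap.const ℂ KI
  let l : (E × F) × C(KI, F) →L[ℂ] C(KI, E × E × F) :=
    ray E F ∘L (ContinuousLinearMap.fst ℂ E F).prodMap (ContinuousLinearMap.id ℂ C(KI, F))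
  have h2 : AnalyticAt ℂ (fun x => N (l x)) 0 := hN.comp_of_eq (l.analyticAt 0) l.map_zero
  have h3 : ∀ᶠ x in 𝓝 (0 : (E × F) × C(KI, F)), ∀ t : KI,
      N (l x) t = A (((t : ℝ) : ℂ) • x.1.1, x.2 t) x.1.1 :=
    (l.continuous.tendsto' 0 0 l.map_zero).eventually hN'
  have h4 : AnalyticAt ℂ (fun x : (E × F) × C(KI, F) => c x.1.2 + primL F (N (l x))) 0 :=
    ((c.analyticAt _).comp (analyticAt_snd.comp analyticAt_fst)).add
      (((primL F).analyticAt _).comp h2)
  obtain ⟨Γ, g1, g2, g3⟩ := fix h4 (by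
    have k : Tendsto (fun γ : C(KI, F) => ((0 : E × F), γ)) (𝓝 0) (𝓝 0) :=
      Continuous.tendsto' (by fun_prop) 0 0 rfl
    filter_upwards [k.eventually h3] with γ hγ
    have k2 : N (l (0, γ)) = 0 := by
      ext t
      simp [hγ t]
    simp [k2])
  have g4 : AnalyticAt ℂ (fun p => (p, Γ p)) 0 := analyticAt_id.prod g1
  have g5 : ((0 : E × F), Γ 0) = 0 := by rw [g2]; rfl
  refine ⟨Γ, fun p => N (l (p, Γ p)), g1, h2.comp_of_eq g4 g5, g2, ?_⟩
  filter_upwards [g3, (g5 ▸ g4.continuousAt.tendsto).eventually h3] with p p1 p2 t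
  exact ⟨DFunLike.congr_fun p1 t, p2 t⟩

/-- Uniqueness for the linearised equation along a ray. -/
theorem ode_zero {A : E × F → E →L[ℂ] F} {a u : E} {G Z G' Z' : ℝ → F} {C : ℝ}
    (hG : ∀ s, HasDerivAt G (G' s) s) (hZ : ∀ s, HasDerivAt Z (Z' s) s) (h0 : Z 0 = 0)
    (hA : ∀ s ∈ Set.Icc (0 : ℝ) 1, DifferentiableAt ℂ A ((s : ℂ) • a, G s) ∧
      ‖fderiv ℂ A ((s : ℂ) • a, G s)‖ ≤ C ∧
      fderiv ℂ A ((s : ℂ) • a, G s) (a, A ((s : ℂ) • a, G s) a) u =
        fderiv ℂ A ((s : ℂ) • a, G s) (u, A ((s : ℂ) • a, G s) u) a)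
    (hG' : ∀ s ∈ Set.Icc (0 : ℝ) 1, G' s = A ((s : ℂ) • a, G s) a)
    (hZ' : ∀ s ∈ Set.Icc (0 : ℝ) 1, Z' s =
      fderiv ℂ A ((s : ℂ) • a, G s) ((s : ℂ) • u, Z s) a + A ((s : ℂ) • a, G s) u) :
    Z 1 = A (a, G 1) u := by
  have key : ∀ s ∈ Set.Icc (0 : ℝ) 1,
      HasDerivAt (fun s : ℝ => Z s - (s : ℂ) • A ((s : ℂ) • a, G s) u)
        (fderiv ℂ A ((s : ℂ) • a, G s) (0, Z s - (s : ℂ) • A ((s : ℂ) • a, G s) u) a) s := by
    intro s hs
    obtain ⟨a1, -, a3⟩ := hA s hs
    have d0 : HasDerivAt (fun s : ℝ => (s : ℂ)) 1 s := Complex.ofRealCLM.hasDerivAt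
    have d1 : HasDerivAt (fun s : ℝ => ((s : ℂ) • a, G s)) ((1 : ℂ) • a, G' s) s :=
      (d0.smul_const a).prodMk (hG s)
    have d2 : HasFDerivAt (fun x => A x u) _ ((s : ℂ) • a, G s) :=
      a1.hasFDerivAt.clm_apply (hasFDerivAt_const u _)
    have d3 := (d2.restrictScalars ℝ).comp_hasDerivAt s d1
    refine ((hZ s).sub (d0.smul d3)).congr_deriv ?_
    have e : ((0 : E), Z s - (s : ℂ) • A ((s : ℂ) • a, G s) u) =
        ((s : ℂ) • u, Z s) - (s : ℂ) • (u, A ((s : ℂ) • a, G s) u) := by simp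
    rw [e, map_sub, map_smul, hZ' s hs, hG' s hs]
    simp only [Complex.coe_smul] at a3
    simp [a3]
  have h := norm_le_gronwallBound_of_norm_deriv_right_le (δ := 0) (K := C * ‖a‖) (ε := 0)
    (a := 0) (b := 1) (fun s hs => (key s hs).continuousAt.continuousWithinAt)
    (fun s hs => (key s (Set.Ico_subset_Icc_self hs)).hasDerivWithinAt) (by simp [h0])
    (fun s hs => by
      have a2 := (hA s (Set.Ico_subset_Icc_self hs)).2.1
      refine (ContinuousLinearMap.le_opNorm _ _).trans ?_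
      rw [add_zero, mul_right_comm]
      refine mul_le_mul_of_nonneg_right ?_ (norm_nonneg _)
      refine ContinuousLinearMap.le_of_opNorm_le_of_le _ a2 ?_
      simp) 1 ⟨zero_le_one, le_rfl⟩
  rw [gronwallBound_ε0_δ0, norm_le_zero_iff, sub_eq_zero] at h
  simpa using h

end FrobAux

open FrobAux in
theorem frob_graph {E F : Type} [NormedAddCommGroup E] [NormedSpace ℂ E] [FiniteDimensional ℂ E]
    [NormedAddCommGroup F] [NormedSpace ℂ F] [FiniteDimensional ℂ F]
    (A : E × F → E →L[ℂ] F) (hA : AnalyticAt ℂ A 0)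
    (hint : ∀ᶠ p in 𝓝 (0 : E × F), ∀ u v,
      fderiv ℂ A p (u, A p u) v = fderiv ℂ A p (v, A p v) u) :
    ∃ φ : E × F → F, AnalyticAt ℂ φ 0 ∧ (∀ᶠ b in 𝓝 (0 : F), φ (0, b) = b) ∧
      ∀ᶠ p in 𝓝 (0 : E × F), ∀ u, fderiv ℂ φ p (u, 0) = A (p.1, φ p) u := by
  have : CompleteSpace E := FiniteDimensional.complete ℂ E
  have : CompleteSpace F := FiniteDimensional.complete ℂ F
  obtain ⟨Γ, Ψ, g1, g2, g3, g4⟩ := exists_sol A hA
  have one : (1 : ℝ) ∈ Set.Icc (0 : ℝ) 1 := ⟨zero_le_one, le_rfl⟩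
  refine ⟨fun p => Γ p ⟨1, one⟩, 
    ((ContinuousMap.evalCLM ℂ (M := F) (⟨1, one⟩ : KI)).analyticAt _).comp g1, ?_, ?_⟩
  · have k : Tendsto (fun b : F => ((0 : E), b)) (𝓝 0) (𝓝 0) :=
      Continuous.tendsto' (by fun_prop) 0 0 rfl
    filter_upwards [k.eventually g4] with b hb
    have k2 : Ψ (0, b) = 0 := by
      ext t
      simp [(hb t).2]
    rw [(hb _).1, k2, ← primL_apply, map_zero]
    simp
  have b1 : ∀ᶠ x in 𝓝 (0 : E × F), ‖fderiv ℂ A x‖ ≤ ‖fderiv ℂ A 0‖ + 1 :=
    (hA.fderiv.continuousAt.norm.eventually (gt_mem_nhds (lt_add_one _))).mono fun _ h => h.le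
  obtain ⟨r, hr, hb⟩ := Metric.eventually_nhds_iff.1 (hA.eventually_analyticAt.and (b1.and hint))
  have b2 : ∀ᶠ p in 𝓝 (0 : E × F), ‖Γ p‖ < r :=
    g1.continuousAt.norm.eventually (gt_mem_nhds (by simpa [g3] using hr))
  filter_upwards [g4.eventually_nhds, g1.eventually_analyticAt, g2.eventually_analyticAt, b2,
    Metric.ball_mem_nhds (0 : E × F) hr] with p p1 p2 p3 p4 p5 u
  have p0 := p1.self_of_nhds
  have q1 := p2.differentiableAt.hasFDerivAt
  have q2 := p3.differentiableAt.hasFDerivAt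
  have ev : ∀ {Θ : E × F → C(KI, F)} {Θ' : E × F →L[ℂ] C(KI, F)}, HasFDerivAt Θ Θ' p → ∀ t,
      HasFDerivAt (fun q => Θ q t) (ContinuousMap.evalCLM ℂ t ∘L Θ') p := fun h t =>
    (ContinuousMap.evalCLM ℂ (M := F) t).hasFDerivAt.comp p h
  have hin : ∀ t : KI, dist (((t : ℝ) : ℂ) • p.1, Γ p t) 0 < r := by
    intro t
    rw [dist_zero_right]
    refine max_lt ?_ (((Γ p).norm_coe_le_norm t).trans_lt p4)
    show ‖((t : ℝ) : ℂ) • p.1‖ < r
    rw [norm_smul, Complex.norm_real, Real.norm_of_nonneg t.2.1]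
    exact ((mul_le_of_le_one_left (norm_nonneg _) t.2.2).trans (norm_fst_le p)).trans_lt
      (mem_ball_zero_iff.1 p5)
  have e1 : ∀ t : KI, fderiv ℂ Γ p (u, 0) t = prim (fderiv ℂ Ψ p (u, 0)) t := by
    intro t
    have k1 := ev ((primL F).hasFDerivAt.comp p q2) t
    have k2 := (hasFDerivAt_snd.add k1).congr_of_eventuallyEq (f₁ := fun q => Γ q t)
      (p1.mono fun q hq => (hq t).1)
    simpa [primL_apply] using DFunLike.congr_fun ((ev q1 t).unique k2) (u, 0)
  have e2 : ∀ t : KI, fderiv ℂ Ψ p (u, 0) t =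
      fderiv ℂ A (((t : ℝ) : ℂ) • p.1, Γ p t) (((t : ℝ) : ℂ) • u, fderiv ℂ Γ p (u, 0) t) p.1 +
        A (((t : ℝ) : ℂ) • p.1, Γ p t) u := by
    intro t
    have k1 : HasFDerivAt (fun q : E × F => (((t : ℝ) : ℂ) • q.1, Γ q t)) _ p :=
      (hasFDerivAt_fst.const_smul ((t : ℝ) : ℂ)).prodMk (ev q1 t)
    have k2 := ((hb (hin t)).1.differentiableAt.hasFDerivAt.comp p k1).clm_apply
      (hasFDerivAt_fst (p := p))
    have k3 := k2.congr_of_eventuallyEq (f₁ := fun q => Ψ q t) (p1.mono fun q hq => (hq t).2)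
    have k4 := DFunLike.congr_fun ((ev q2 t).unique k3) (u, 0)
    simpa [add_comm] using k4
  have hG : ∀ s (hs : s ∈ Set.Icc (0 : ℝ) 1), p.2 + prim (Ψ p) s = Γ p ⟨s, hs⟩ := fun s hs =>
    (p0 ⟨s, hs⟩).1.symm
  have fin := ode_zero (A := A) (a := p.1) (u := u) (C := ‖fderiv ℂ A 0‖ + 1)
    (fun s => (prim_deriv (Ψ p) s).const_add p.2) (prim_deriv (fderiv ℂ Ψ p (u, 0)))
    intervalIntegral.integral_same
    (fun s hs => by
      rw [hG s hs]
      have k := hb (hin ⟨s, hs⟩)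
      exact ⟨k.1.differentiableAt, k.2.1, k.2.2 _ _⟩)
    (fun s hs => by
      rw [hG s hs, ext_mem _ hs]
      exact (p0 ⟨s, hs⟩).2)
    (fun s hs => by
      rw [hG s hs, ext_mem _ hs, e2, e1])
  rw [hG 1 one] at fin
  rw [(ev q1 ⟨1, one⟩).fderiv, ← fin]
  exact e1 ⟨1, one⟩

end Vale.Agent.P278
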