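import Mathlib

/-! P278 task Mono: the monodromy theorem for a class of germs. -/

open Filter Topology

namespace Vale.Agent.P278

namespace MonoAux

variable {X Z : Type} [TopologicalSpace X]

/-- The space of germs that have a representative in the class `G`. -/
structure Et (G : X → (X → Z) → Prop) where
  pt : X
  cls : Set (X → Z)
  ex : ∃ s, G pt s ∧ cls = {s' | s' =ᶠ[𝓝 pt] s}

variable {G : X → (X → Z) → Prop}

theorem Et.exists_mem (e : Et G) : ∃ s, s ∈ e.cls := by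
  obtain ⟨s, -, hs⟩ := e.ex
  exact ⟨s, by rw [hs]; exact EventuallyEq.rfl⟩

theorem Et.eq_of_mem (e : Et G) {s t : X → Z} (hs : s ∈ e.cls) (ht : t ∈ e.cls) :
    s =ᶠ[𝓝 e.pt] t := by
  obtain ⟨u, -, hu⟩ := e.ex
  rw [hu] at hs ht
  exact EventuallyEq.trans hs (EventuallyEq.symm ht)

theorem Et.mem_of_eq (e : Et G) {s t : X → Z} (hs : s ∈ e.cls) (ht : t =ᶠ[𝓝 e.pt] s) :
    t ∈ e.cls := by
  obtain ⟨u, -, hu⟩ := e.ex
  rw [hu] at hs ⊢
  exact EventuallyEq.trans ht hs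

theorem Et.good (hcongr : ∀ x s s', G x s → s' =ᶠ[𝓝 x] s → G x s') (e : Et G) {s : X → Z}
    (hs : s ∈ e.cls) : G e.pt s := by
  obtain ⟨u, hG, hu⟩ := e.ex
  rw [hu] at hs
  exact hcongr _ _ _ hG hs

theorem Et.ext' {e e' : Et G} (hp : e.pt = e'.pt) {s : X → Z} (hs : s ∈ e.cls)
    (hs' : s ∈ e'.cls) : e = e' := by
  have hc : e.cls = e'.cls := by
    ext t
    constructor
    · intro ht
      exact e'.mem_of_eq hs' (hp ▸ e.eq_of_mem ht hs)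
    · intro ht
      exact e.mem_of_eq hs (hp ▸ e'.eq_of_mem ht hs')
  cases e
  cases e'
  simp only at hp hc
  subst hp
  subst hc
  rfl

/-- The germ of `s` at `x`. -/
def Et.of (x : X) (s : X → Z) (h : G x s) : Et G := ⟨x, {s' | s' =ᶠ[𝓝 x] s}, s, h, rfl⟩

theorem Et.mem_of (x : X) (s : X → Z) (h : G x s) : s ∈ (Et.of x s h).cls :=
  EventuallyEq.rfl

/-- The topology of the space of germs. -/
@[reducible] def top (G : X → (X → Z) → Prop) : TopologicalSpace (Et G) where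
  IsOpen W := ∀ e ∈ W, ∀ s ∈ e.cls, ∀ᶠ y in 𝓝 e.pt, ∀ e' : Et G, e'.pt = y → s ∈ e'.cls → e' ∈ W
  isOpen_univ := fun _ _ _ _ => Eventually.of_forall fun _ _ _ _ => Set.mem_univ _
  isOpen_inter := fun W W' hW hW' e he s hs => by
    filter_upwards [hW e he.1 s hs, hW' e he.2 s hs] with y h1 h2 e' hp hs'
    exact ⟨h1 e' hp hs', h2 e' hp hs'⟩
  isOpen_sUnion := fun C hC e he s hs => by
    obtain ⟨W, hWC, heW⟩ := he
    filter_upwards [hC W hWC e heW s hs] with y h1 e' hp hs'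
    exact ⟨W, hWC, h1 e' hp hs'⟩

theorem isOpen_iff {W : Set (Et G)} : IsOpen[top G] W ↔
    ∀ e ∈ W, ∀ s ∈ e.cls, ∀ᶠ y in 𝓝 e.pt, ∀ e' : Et G, e'.pt = y → s ∈ e'.cls → e' ∈ W :=
  Iff.rfl

theorem isOpen_sheet {W : Set X} (hW : IsOpen W) (s : X → Z) :
    IsOpen[top G] {e : Et G | e.pt ∈ W ∧ s ∈ e.cls} := by
  rw [isOpen_iff]
  rintro e ⟨heW, hes⟩ t ht
  filter_upwards [hW.mem_nhds heW, (e.eq_of_mem hes ht).eventuallyEq_nhds] with y hy hst e' hp ht'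
  subst hp
  exact ⟨hy, e'.mem_of_eq ht' hst⟩

theorem covering (hcongr : ∀ x s s', G x s → s' =ᶠ[𝓝 x] s → G x s')
    (hloc : ∀ x₀, ∃ U : Set X, IsOpen U ∧ x₀ ∈ U ∧
      (∀ x ∈ U, ∀ s, G x s → ∃ s', s' =ᶠ[𝓝 x] s ∧ ∀ y ∈ U, G y s') ∧
      ∀ s s', (∀ y ∈ U, G y s) → (∀ y ∈ U, G y s') → ∀ x ∈ U, s =ᶠ[𝓝 x] s' →
        ∀ y ∈ U, s =ᶠ[𝓝 y] s') :
    @IsCoveringMap (Et G) X (top G) _ Et.pt := by
  let _ := top G
  intro x₀
  obtain ⟨U, hU, hx₀, hext, huniq⟩ := hloc x₀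
  let _ : TopologicalSpace {e : Et G // e.pt = x₀} := ⊥
  have : DiscreteTopology {e : Et G // e.pt = x₀} := ⟨rfl⟩
  suffices h : IsEvenlyCovered (Et.pt : Et G → X) x₀ {e : Et G // e.pt = x₀} from
    h.to_isEvenlyCovered_preimage
  have hsec : ∀ e : Et G, e.pt ∈ U → ∃ s ∈ e.cls, ∀ y ∈ U, G y s := by
    intro e he
    obtain ⟨s, hs⟩ := e.exists_mem
    obtain ⟨s', h1, h2⟩ := hext _ he s (e.good hcongr hs)
    exact ⟨s', e.mem_of_eq hs h1, h2⟩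
  rcases isEmpty_or_nonempty {e : Et G // e.pt = x₀} with hE | hE
  · refine IsEvenlyCovered.of_preimage_eq_empty _ (hU.mem_nhds hx₀) ?_
    rw [Set.eq_empty_iff_forall_notMem]
    intro e he
    obtain ⟨s, -, h2⟩ := hsec e he
    exact hE.false ⟨Et.of x₀ s (h2 x₀ hx₀), rfl⟩
  · have : Nonempty (Et G) := hE.map Subtype.val
    have hσ : ∀ i : {e : Et G // e.pt = x₀}, ∃ s ∈ i.1.cls, ∀ y ∈ U, G y s :=
      fun i => hsec i.1 (by rw [i.2]; exact hx₀)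
    choose σ hσ1 hσ2 using hσ
    refine IsEvenlyCovered.of_trivialization
      (t := IsOpen.trivializationDiscrete (f := (Et.pt : Et G → X))
        (fun i => {e : Et G | e.pt ∈ U ∧ σ i ∈ e.cls}) U hU ?_ ?_ ?_ ?_ ?_) hx₀
    · intro i W hWU
      constructor
      · intro hW
        have : Et.pt ⁻¹' W ∩ {e : Et G | e.pt ∈ U ∧ σ i ∈ e.cls} =
            {e : Et G | e.pt ∈ W ∧ σ i ∈ e.cls} := by
          ext e
          exact ⟨fun h => ⟨h.1, h.2.2⟩, fun h => ⟨h.1, hWU h.1, h.2⟩⟩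
        rw [this]
        exact isOpen_sheet hW _
      · intro hW
        rw [isOpen_iff_mem_nhds]
        intro x hx
        have h1 := isOpen_iff.1 hW (Et.of x (σ i) (hσ2 i x (hWU hx)))
          ⟨hx, hWU hx, Et.mem_of _ _ _⟩ (σ i) (Et.mem_of _ _ _)
        filter_upwards [h1, hU.mem_nhds (hWU hx)] with y hy hyU
        exact (hy (Et.of y (σ i) (hσ2 i y hyU)) rfl (Et.mem_of _ _ _)).1
    · intro i e he e' he' hp
      exact Et.ext' hp he.2 he'.2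
    · intro i y hy
      exact ⟨Et.of y (σ i) (hσ2 i y hy), ⟨hy, Et.mem_of _ _ _⟩, rfl⟩
    · intro i j hij
      rw [Function.onFun, Set.disjoint_left]
      intro e hi hj
      apply hij
      have h1 := huniq _ _ (hσ2 i) (hσ2 j) _ hi.1 (e.eq_of_mem hi.2 hj.2) x₀ hx₀
      apply Subtype.ext
      refine Et.ext' (i.2.trans j.2.symm) (hσ1 i) (j.1.mem_of_eq (hσ1 j) ?_)
      rw [j.2]
      exact h1
    · intro e he
      obtain ⟨s, h1, h2⟩ := hsec e he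
      let i : {e : Et G // e.pt = x₀} := ⟨Et.of x₀ s (h2 x₀ hx₀), rfl⟩
      have h3 : σ i =ᶠ[𝓝 x₀] s := i.1.eq_of_mem (hσ1 i) (Et.mem_of x₀ s (h2 x₀ hx₀))
      exact Set.mem_iUnion.2 ⟨i, he, e.mem_of_eq h1 (huniq _ _ (hσ2 i) h2 x₀ hx₀ h3 _ he)⟩

end MonoAux

open MonoAux in
theorem monodromy {X Z : Type} [TopologicalSpace X] [SimplyConnectedSpace X]
    [LocallyPathConnectedSpace X] (G : X → (X → Z) → Prop)
    (hcongr : ∀ x s s', G x s → s' =ᶠ[𝓝 x] s → G x s')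
    (hloc : ∀ x₀, ∃ U : Set X, IsOpen U ∧ x₀ ∈ U ∧
      (∀ x ∈ U, ∀ s, G x s → ∃ s', s' =ᶠ[𝓝 x] s ∧ ∀ y ∈ U, G y s') ∧
      ∀ s s', (∀ y ∈ U, G y s) → (∀ y ∈ U, G y s') → ∀ x ∈ U, s =ᶠ[𝓝 x] s' →
        ∀ y ∈ U, s =ᶠ[𝓝 y] s')
    {x₀ : X} {s₀ : X → Z} (h : G x₀ s₀) : ∃ S : X → Z, S =ᶠ[𝓝 x₀] s₀ ∧ ∀ x, G x S := by
  let _ := top G
  obtain ⟨F, ⟨hF0, hF⟩, -⟩ := (covering hcongr hloc).existsUnique_continuousMap_lifts
    (ContinuousMap.id X) x₀ (Et.of x₀ s₀ h) rfl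
  have hp : ∀ x, (F x).pt = x := fun x => congrFun hF x
  choose r hr using fun e : Et G => e.exists_mem
  have key : ∀ x, ∀ s ∈ (F x).cls, (fun y => r (F y) y) =ᶠ[𝓝 x] s := by
    intro x s hs
    have h1 : IsOpen (F ⁻¹' {e : Et G | e.pt ∈ (Set.univ : Set X) ∧ s ∈ e.cls}) :=
      (isOpen_sheet isOpen_univ s).preimage F.continuous
    filter_upwards [h1.mem_nhds (show x ∈ _ from ⟨Set.mem_univ _, hs⟩)] with y hy
    have h2 := ((F y).eq_of_mem (hr (F y)) hy.2).eq_of_nhds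
    rwa [hp] at h2
  refine ⟨fun y => r (F y) y, key x₀ s₀ (by rw [hF0]; exact Et.mem_of _ _ _), fun x => ?_⟩
  have h3 := (F x).good hcongr (hr (F x))
  rw [hp] at h3
  exact hcongr _ _ _ h3 (key x _ (hr (F x)))

end Vale.Agent.P278
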