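import Vale.Agent.P278.Basic

/-! P278 task PL: product maps and leaves. -/

open Metric Set Filter Topology

namespace Vale.Agent.P278.Atl

variable {M κ : Type} [TopologicalSpace M] [Fintype κ] [DecidableEq κ] {d : κ → ℕ}
  {A : Atl M (∀ i, Cn (d i))} {F G : (∀ i, Cn (d i)) → M} {z : ∀ i, Cn (d i)}

set_option linter.unusedSectionVars false

theorem Bi.eventually {f : ∀ i, Cn (d i) → Cn (d i)} (h : Bi f z) :
    ∀ᶠ z' in 𝓝 z, Bi f z' := by
  refine eventually_all.2 fun i => ((continuous_apply i).tendsto z).eventually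
    (p := fun y => AnalyticAt ℂ (f i) y ∧ Function.Injective (fderiv ℂ (f i) y)) ?_
  exact (h i).1.eventually_analyticAt.and ((h i).1.fderiv.continuousAt.eventually
    (ContinuousLinearMap.isOpen_injective.mem_nhds (h i).2))

theorem Bi.comp {f g : ∀ i, Cn (d i) → Cn (d i)} (hf : Bi f fun i => g i (z i)) (hg : Bi g z) :
    Bi (fun i => f i ∘ g i) z := fun i => by
  refine ⟨(hf i).1.comp (hg i).1, ?_⟩
  rw [fderiv_comp _ (hf i).1.differentiableAt (hg i).1.differentiableAt]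
  exact (hf i).2.comp (hg i).2

theorem Bi.analyticAt {f : ∀ i, Cn (d i) → Cn (d i)} (h : Bi f z) :
    AnalyticAt ℂ (fun (p : ∀ i, Cn (d i)) i => f i (p i)) z :=
  analyticAt_pi_iff.2 fun i => (h i).1.comp (f := fun p : ∀ i, Cn (d i) => p i)
    ((ContinuousLinearMap.proj (R := ℂ) (φ := fun i => Cn (d i)) i).analyticAt z)

theorem pl_inverse {n : ℕ} {f : Cn n → Cn n} {x : Cn n} (h : AnalyticAt ℂ f x)
    (hi : Function.Injective (fderiv ℂ f x)) : ∃ g : Cn n → Cn n,
      (AnalyticAt ℂ g (f x) ∧ Function.Injective (fderiv ℂ g (f x))) ∧ g (f x) = x ∧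
        ∀ᶠ p in 𝓝 (f x), f (g p) = p := by
  let e : Cn n ≃L[ℂ] Cn n :=
    (LinearEquiv.ofInjectiveEndo (fderiv ℂ f x).toLinearMap hi).toContinuousLinearEquiv
  have he : fderiv ℂ f x = (e : Cn n →L[ℂ] Cn n) := rfl
  have hs : HasStrictFDerivAt f (e : Cn n →L[ℂ] Cn n) x := he ▸ h.hasStrictFDerivAt
  refine ⟨hs.localInverse f e x, ⟨?_, ?_⟩, hs.localInverse_apply_image,
    hs.eventually_right_inverse⟩
  · exact (hs.toOpenPartialHomeomorph f).analyticAt_symm' hs.mem_toOpenPartialHomeomorph_source h he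
  · rw [hs.to_localInverse.hasFDerivAt.fderiv]
    exact e.symm.injective

/-- Local inverses. -/
theorem Bi.inverse {f : ∀ i, Cn (d i) → Cn (d i)} (h : Bi f z) :
    ∃ g : ∀ i, Cn (d i) → Cn (d i), Bi g (fun i => f i (z i)) ∧ (∀ i, g i (f i (z i)) = z i) ∧
      ∀ i, ∀ᶠ p in 𝓝 (f i (z i)), f i (g i p) = p := by
  choose g h1 h2 h3 using fun i => pl_inverse (h i).1 (h i).2
  exact ⟨g, h1, h2, h3⟩

theorem PL.congr (h : A.PL F z) (h' : G =ᶠ[𝓝 z] F) : A.PL G z := by
  obtain ⟨a, f, hf, h1⟩ := h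
  refine ⟨a, f, hf, ?_⟩
  filter_upwards [h1, h'] with p hp e
  rw [e]; exact hp

theorem PL.eventually (h : A.PL F z) : ∀ᶠ z' in 𝓝 z, A.PL F z' := by
  obtain ⟨a, f, hf, h1⟩ := h
  filter_upwards [hf.eventually, h1.eventually_nhds] with p hp e
  exact ⟨a, f, hp, e⟩

theorem PL.hol (h : A.PL F z) : A.Hol F z := by
  obtain ⟨a, f, hf, h1⟩ := h
  have h0 := h1.self_of_nhds
  refine (hol_symm_comp a hf.analyticAt (h0.2 ▸ norm_lt h0.1)).congr ?_
  filter_upwards [h1] with p hp
  rw [← hp.2, (A.c a).left_inv hp.1]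

theorem PL.chart (hA : A.IsProd) (h : A.PL F z) {b : A.ι} (hb : F z ∈ (A.c b).source) :
    ∃ f : ∀ i, Cn (d i) → Cn (d i), Bi f z ∧
      ∀ᶠ z' in 𝓝 z, F z' ∈ (A.c b).source ∧ A.c b (F z') = fun i => f i (z' i) := by
  have hc := h.hol.1
  obtain ⟨a, f, hf, h1⟩ := h
  have h0 := h1.self_of_nhds
  obtain ⟨g, hg, h2⟩ := hA a b _ h0.1 hb
  rw [h0.2] at hg h2
  refine ⟨fun i => g i ∘ f i, hg.comp hf, ?_⟩
  filter_upwards [h1, hf.analyticAt.continuousAt.eventually h2,
    hc.eventually ((A.c b).open_source.mem_nhds hb)] with p e1 e2 e3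
  refine ⟨e3, ?_⟩
  rw [← e1.2, (A.c a).left_inv e1.1] at e2
  exact e2

theorem PL.comp {g : ∀ i, Cn (d i) → Cn (d i)} (h : A.PL F fun i => g i (z i)) (hg : Bi g z) :
    A.PL (fun p => F fun i => g i (p i)) z := by
  obtain ⟨a, f, hf, h1⟩ := h
  exact ⟨a, fun i => f i ∘ g i, hf.comp hg, hg.analyticAt.continuousAt.eventually h1⟩

theorem pl_symm (a : A.ι) {f : ∀ i, Cn (d i) → Cn (d i)} (hf : Bi f z)
    (h : ‖fun i => f i (z i)‖ < 4) : A.PL (fun p => (A.c a).symm fun i => f i (p i)) z := by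
  refine ⟨a, f, hf, ?_⟩
  have h1 : (fun i => f i (z i)) ∈ (A.c a).target := by
    rw [A.tgt]; exact mem_ball_zero_iff.2 h
  filter_upwards [hf.analyticAt.continuousAt.eventually ((A.c a).open_target.mem_nhds h1)] with p hp
  exact ⟨(A.c a).map_target hp, (A.c a).right_inv hp⟩

theorem norm_piecewise_lt (I : Finset κ) {p q : ∀ i, Cn (d i)} {r : ℝ} (hp : ‖p‖ < r)
    (hq : ‖q‖ < r) : ‖I.piecewise p q‖ < r := by
  have hr : 0 < r := (norm_nonneg _).trans_lt hp
  rw [pi_norm_lt_iff hr] at hp hq ⊢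
  intro i
  by_cases hi : i ∈ I
  · rw [I.piecewise_eq_of_mem _ _ hi]; exact hp i
  · rw [I.piecewise_eq_of_notMem _ _ hi]; exact hq i

theorem Leaf.symm {J : Finset κ} {m m' : M} (h : A.Leaf J m m') : A.Leaf J m' m := by
  induction h with
  | refl => exact Relation.ReflTransGen.refl
  | tail _ h ih =>
    obtain ⟨a, h1, h2, h3⟩ := h
    exact Relation.ReflTransGen.head ⟨a, h2, h1, fun i hi => (h3 i hi).symm⟩ ih

theorem Leaf.mono {J J' : Finset κ} (hJ : J ⊆ J') {m m' : M} (h : A.Leaf J m m') :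
    A.Leaf J' m m' := by
  induction h with
  | refl => exact Relation.ReflTransGen.refl
  | tail _ h ih =>
    obtain ⟨a, h1, h2, h3⟩ := h
    exact ih.tail ⟨a, h1, h2, fun i hi => h3 i fun h => hi (hJ h)⟩

theorem Leaf.eq_of_empty {m m' : M} (h : A.Leaf ∅ m m') : m = m' := by
  induction h with
  | refl => rfl
  | tail _ h ih =>
    obtain ⟨a, h1, h2, h3⟩ := h
    exact ih.trans ((A.c a).injOn h1 h2 (funext fun i => h3 i (Finset.notMem_empty i)))

theorem leaf_univ [PreconnectedSpace M] (m m' : M) : A.Leaf Finset.univ m m' := by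
  refine isPreconnected_univ.induction₂ (A.Leaf Finset.univ) (fun x _ => ?_)
    (fun _ _ _ _ _ _ h h' => h.trans h') (fun _ _ _ _ h => h.symm) (mem_univ m) (mem_univ m')
  obtain ⟨a, ha, -⟩ := A.cover x
  filter_upwards [mem_nhdsWithin_of_mem_nhds ((A.c a).open_source.mem_nhds ha)] with y hy
  exact Relation.ReflTransGen.single ⟨a, ha, hy, fun i hi => absurd (Finset.mem_univ i) hi⟩

theorem pl_segment {J : Finset κ} {γ : ℝ → M}
    (h : ∀ t ∈ Icc (0 : ℝ) 1, ∀ᶠ s in 𝓝 t, A.Step J (γ t) (γ s)) : A.Leaf J (γ 0) (γ 1) :=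
  isPreconnected_Icc.induction₂ (fun s t => A.Leaf J (γ s) (γ t))
    (fun t ht => ((h t ht).filter_mono nhdsWithin_le_nhds).mono
      fun _ hs => Relation.ReflTransGen.single hs)
    (fun _ _ _ _ _ _ h h' => h.trans h') (fun _ _ _ _ h => h.symm) (left_mem_Icc.2 zero_le_one)
    (right_mem_Icc.2 zero_le_one)

/-- A product map sends a segment in the directions `J` into a leaf. -/
theorem leaf_of_pl {J : Finset κ} {p q : ∀ i, Cn (d i)} (hpq : ∀ i ∉ J, p i = q i)
    (h : ∀ t ∈ Icc (0 : ℝ) 1, A.PL F (p + t • (q - p))) : A.Leaf J (F p) (F q) := by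
  have h1 := pl_segment (A := A) (J := J) (γ := fun t : ℝ => F (p + t • (q - p))) fun t ht => by
    obtain ⟨a, f, -, h2⟩ := h t ht
    have hc : Continuous fun t : ℝ => p + t • (q - p) := by fun_prop
    have h0 := h2.self_of_nhds
    filter_upwards [hc.continuousAt.eventually h2] with s hs
    refine ⟨a, h0.1, hs.1, fun i hi => ?_⟩
    rw [h0.2, hs.2]
    simp [hpq i hi]
  simpa using h1

theorem RG.chart' (hA : A.IsProd) {I : Finset κ} {S : M → M} {w : M} (h : A.RG I S w) {a b : A.ι}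
    (ha : w ∈ (A.c a).source) (hb : S w ∈ (A.c b).source) :
    ∃ f : ∀ i, Cn (d i) → Cn (d i), (∀ i ∈ I, AnalyticAt ℂ (f i) (A.c a w i) ∧
      Function.Injective (fderiv ℂ (f i) (A.c a w i))) ∧
      ∀ᶠ m in 𝓝 w, S m ∈ (A.c b).source ∧
        A.c b (S m) = I.piecewise (fun i => f i (A.c a m i)) (A.c b (S w)) := by
  obtain ⟨a0, F, y, h0, hF, hS⟩ := h
  obtain ⟨g, hg, hg'⟩ := hA a a0 w ha h0
  have hw : S w = F (I.piecewise (A.c a0 w) y) := hS.self_of_nhds
  obtain ⟨k, hk, hk'⟩ := hF.chart hA (hw ▸ hb)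
  have e0 : ∀ᶠ m in 𝓝 w, A.c a0 m = fun i => g i (A.c a m i) := by
    filter_upwards [((A.c a).continuousAt ha).eventually hg', (A.c a).open_source.mem_nhds ha]
      with m e1 e2
    rwa [(A.c a).left_inv e2] at e1
  have hc : ContinuousAt (fun m => I.piecewise (A.c a0 m) y) w := by
    refine continuousAt_pi.2 fun i => ?_
    by_cases hi : i ∈ I
    · simp only [I.piecewise_eq_of_mem _ _ hi]
      exact continuousAt_pi.1 ((A.c a0).continuousAt h0) i
    · simp only [I.piecewise_eq_of_notMem _ _ hi]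
      exact continuousAt_const
  refine ⟨fun i => k i ∘ g i, fun i hi => ?_, ?_⟩
  · have h1 := hk i
    rw [I.piecewise_eq_of_mem _ _ hi, e0.self_of_nhds] at h1
    refine ⟨h1.1.comp (hg i).1, ?_⟩
    rw [fderiv_comp _ h1.1.differentiableAt (hg i).1.differentiableAt]
    exact h1.2.comp (hg i).2
  · filter_upwards [e0, hS, hc.eventually hk'] with m e1 e2 e3
    rw [e2]
    refine ⟨e3.1, ?_⟩
    rw [e3.2, hw, hk'.self_of_nhds.2]
    funext i
    by_cases hi : i ∈ I
    · simp only [I.piecewise_eq_of_mem _ _ hi, e1, Function.comp]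
    · simp only [I.piecewise_eq_of_notMem _ _ hi]

theorem RG.leaf (hA : A.IsProd) {I J : Finset κ} {S : M → M} (h : ∀ w, A.RG I S w) {w w' : M}
    (hw : A.Leaf J w w') : A.Leaf (J ∩ I) (S w) (S w') := by
  induction hw with
  | refl => exact Relation.ReflTransGen.refl
  | @tail m m' _ hs ih =>
    obtain ⟨a, h1, h2, h3⟩ := hs
    refine ih.trans ?_
    have hc : Continuous fun t : ℝ => A.c a m + t • (A.c a m' - A.c a m) := by fun_prop
    have h4 := pl_segment (A := A) (J := J ∩ I)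
      (γ := fun t : ℝ => S ((A.c a).symm (A.c a m + t • (A.c a m' - A.c a m)))) fun t ht => by
        have ht' : A.c a m + t • (A.c a m' - A.c a m) ∈ (A.c a).target := by
          rw [A.tgt]
          exact (convex_ball _ _).add_smul_sub_mem (mem_ball_zero_iff.2 (norm_lt h1))
            (mem_ball_zero_iff.2 (norm_lt h2)) ht
        obtain ⟨b, hb, -⟩ := A.cover (S ((A.c a).symm (A.c a m + t • (A.c a m' - A.c a m))))
        obtain ⟨f, -, hf⟩ := (h _).chart' hA ((A.c a).map_target ht') hb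
        have hc' : ContinuousAt (fun t : ℝ => (A.c a).symm (A.c a m + t • (A.c a m' - A.c a m))) t :=
          ContinuousAt.comp (f := fun t : ℝ => A.c a m + t • (A.c a m' - A.c a m))
            ((A.c a).continuousAt_symm ht') hc.continuousAt
        filter_upwards [hc'.eventually hf,
          hc.continuousAt.eventually ((A.c a).open_target.mem_nhds ht')] with s e1 e2
        refine ⟨b, hb, e1.1, fun i hi => ?_⟩
        rw [e1.2]
        by_cases hi' : i ∈ I
        · have hJ : i ∉ J := fun hJ => hi (Finset.mem_inter.2 ⟨hJ, hi'⟩)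
          rw [hf.self_of_nhds.2, I.piecewise_eq_of_mem _ _ hi', I.piecewise_eq_of_mem _ _ hi',
            (A.c a).right_inv ht', (A.c a).right_inv e2]
          simp [h3 i hJ]
        · rw [I.piecewise_eq_of_notMem _ _ hi']
    have h5 : A.Leaf (J ∩ I) (S m) (S m') := by
      simpa [(A.c a).left_inv h1, (A.c a).left_inv h2] using h4
    exact h5

theorem RG.hol (hA : A.IsProd) {I : Finset κ} {S : M → M} {w : M} (h : A.RG I S w) {a : A.ι}
    (ha : w ∈ (A.c a).source) : A.Hol (S ∘ (A.c a).symm) (A.c a w) := by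
  obtain ⟨b, hb, -⟩ := A.cover (S w)
  obtain ⟨f, hf, hf'⟩ := h.chart' hA ha hb
  have han : AnalyticAt ℂ (fun p : ∀ i, Cn (d i) =>
      I.piecewise (fun i => f i (p i)) (A.c b (S w))) (A.c a w) := by
    refine analyticAt_pi_iff.2 fun i => ?_
    by_cases hi : i ∈ I
    · simp only [I.piecewise_eq_of_mem _ _ hi]
      exact (hf i hi).1.comp (f := fun p : ∀ i, Cn (d i) => p i)
        ((ContinuousLinearMap.proj (R := ℂ) (φ := fun i => Cn (d i)) i).analyticAt _)
    · simp only [I.piecewise_eq_of_notMem _ _ hi]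
      exact analyticAt_const
  refine (hol_symm_comp b han (hf'.self_of_nhds.2 ▸ norm_lt hb)).congr ?_
  have ht := (A.c a).map_source ha
  have h1 : Tendsto (A.c a).symm (𝓝 (A.c a w)) (𝓝 w) := (A.c a).tendsto_symm ha
  filter_upwards [h1.eventually hf', (A.c a).open_target.mem_nhds ht] with p e1 e2
  rw [(A.c a).right_inv e2] at e1
  rw [← e1.2, (A.c b).left_inv e1.1]
  rfl

/-- The local form of such a submersion in arbitrary charts. -/
theorem RG.chart (hA : A.IsProd) {I : Finset κ} {S : M → M} {w : M} (h : A.RG I S w) {a b : A.ι}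
    (ha : w ∈ (A.c a).source) (hb : S w ∈ (A.c b).source) :
    ∃ f : ∀ i, Cn (d i) → Cn (d i), (∀ i ∈ I, AnalyticAt ℂ (f i) (A.c a w i) ∧
      Function.Injective (fderiv ℂ (f i) (A.c a w i))) ∧
      ∀ᶠ m in 𝓝 w, S m ∈ (A.c b).source ∧
        A.c b (S m) = I.piecewise (fun i => f i (A.c a m i)) (A.c b (S w)) :=
  h.chart' hA ha hb

end Vale.Agent.P278.Atl
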