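import Vale.Agent.P278.Retr

/-! P278 task ProdA: the set theoretic product decomposition. -/

open Metric Set Filter Topology

namespace Vale.Agent.P278.Atl

variable {M κ : Type} [TopologicalSpace M] [T2Space M] [Fintype κ] [DecidableEq κ] {d : κ → ℕ}
  {A : Atl M (∀ i, Cn (d i))}

theorem simplyConnected_fix {M : Type} [TopologicalSpace M] [SimplyConnectedSpace M] {S : M → M}
    (hS : Continuous S) (h : ∀ m, S (S m) = S m) : SimplyConnectedSpace {w // S w = w} := by
  have hr : Continuous fun m => (⟨S m, h m⟩ : {w // S w = w}) := hS.subtype_mk _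
  have hsurj : Function.Surjective fun m => (⟨S m, h m⟩ : {w // S w = w}) :=
    fun w => ⟨w.1, Subtype.ext w.2⟩
  rw [simply_connected_iff_paths_homotopic']
  refine ⟨hsurj.pathConnectedSpace hr, fun {x y} p q => ?_⟩
  obtain ⟨H⟩ := SimplyConnectedSpace.paths_homotopic (p.map continuous_subtype_val)
    (q.map continuous_subtype_val)
  refine ⟨{ toFun := fun t => ⟨S (H t), h _⟩
            continuous_toFun := hr.comp H.continuous
            map_zero_left := fun t => Subtype.ext ?_
            map_one_left := fun t => Subtype.ext ?_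
            prop' := fun t s hs => Subtype.ext ?_ }⟩
  · have := H.apply_zero t
    simp only [this]
    exact (p t).2
  · have := H.apply_one t
    simp only [this]
    exact (q t).2
  · have := H.eq_fst t hs
    simp only [ContinuousMap.coe_mk, this]
    exact (p s).2

theorem continuous_of_rg (hA : A.IsProd) {I : Finset κ} {S : M → M} (h : ∀ w, A.RG I S w) :
    Continuous S := by
  refine continuous_iff_continuousAt.2 fun w => ?_
  obtain ⟨a, ha, -⟩ := A.cover w
  have h1 := (RG.hol hA (h w) ha).1
  have h2 := h1.comp ((A.c a).continuousAt ha)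
  refine h2.congr ?_
  filter_upwards [(A.c a).open_source.mem_nhds ha] with m hm
  simp [(A.c a).left_inv hm]

theorem retr_aux [SimplyConnectedSpace M] (hA : A.IsProd) (I : Finset κ) (z : M) :
    ∃ S : M → M, (∀ w, A.RG I S w) ∧ (∀ w, A.Leaf Iᶜ w (S w)) ∧
      (∀ w, A.Leaf I z w → ∀ a, w ∈ (A.c a).source →
        ∀ᶠ m in 𝓝 w, S m = (A.c a).symm (I.piecewise (A.c a m) (A.c a w))) ∧
      (∀ w, A.Leaf I z w → S w = w) ∧ ∀ w, A.Leaf I z (S w) := by
  obtain ⟨S, h1, h2, h3⟩ := retr hA I z
  have h4 : ∀ w, A.Leaf I z w → S w = w := by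
    intro w hw
    obtain ⟨a, ha, -⟩ := A.cover w
    have := (h3 w hw a ha).self_of_nhds
    rw [this, Finset.piecewise_same, (A.c a).left_inv ha]
  refine ⟨S, h1, h2, h3, h4, fun w => ?_⟩
  have := RG.leaf hA h1 (leaf_univ (A := A) z w)
  rwa [Finset.univ_inter, h4 z Relation.ReflTransGen.refl] at this

theorem leaf_inter [SimplyConnectedSpace M] (hA : A.IsProd) {I J : Finset κ} {z w : M}
    (hI : A.Leaf I z w) (hJ : A.Leaf J z w) : A.Leaf (J ∩ I) z w := by
  obtain ⟨S, h1, -, -, h4, -⟩ := retr_aux hA I z
  have := RG.leaf hA h1 hJ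
  rwa [h4 z Relation.ReflTransGen.refl, h4 w hI] at this

theorem exists_factors [SimplyConnectedSpace M] (hA : A.IsProd) : ∃ S : κ → M → M,
    (∀ i w, A.RG {i} (S i) w) ∧ (∀ i m, S i (S i m) = S i m) ∧
    (∀ i w, S i w = w → ∀ a, w ∈ (A.c a).source →
      ∀ᶠ m in 𝓝 w, S i m = (A.c a).symm (Function.update (A.c a w) i (A.c a m i))) ∧
    (∀ m m', (∀ i, S i m = S i m') → m = m') ∧
    ∀ y : κ → M, (∀ i, S i (y i) = y i) → ∃ m, ∀ i, S i m = y i := by
  obtain ⟨z⟩ : Nonempty M := inferInstance
  choose S h1 h2 h3 h4 h5 using fun i : κ => retr_aux hA {i} z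
  refine ⟨S, h1, fun i m => h4 i _ (h5 i m), fun i w hw a ha => ?_, fun m m' hm => ?_,
    fun y hy => ?_⟩
  · have := h3 i w (hw ▸ h5 i w) a ha
    simpa only [Finset.piecewise_singleton] using this
  · have hi : ∀ i, A.Leaf ({i} : Finset κ)ᶜ m m' := fun i =>
      Relation.ReflTransGen.trans (h2 i m) (hm i ▸ (h2 i m').symm)
    have hT : ∀ T : Finset κ, A.Leaf Tᶜ m m' := by
      intro T
      induction T using Finset.induction_on with
      | empty => simpa using leaf_univ (A := A) m m'
      | insert i T _ ih =>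
        have := leaf_inter hA ih (hi i)
        refine this.mono fun j hj => ?_
        simpa using hj
    exact Leaf.eq_of_empty (A := A) (by simpa using hT Finset.univ)
  · have hT : ∀ T : Finset κ, ∃ m, ∀ i ∈ T, S i m = y i := by
      intro T
      induction T using Finset.induction_on with
      | empty => exact ⟨z, by simp⟩
      | insert j T hj ih =>
        obtain ⟨m, hm⟩ := ih
        obtain ⟨R, -, r2, -, -, r5⟩ := retr_aux hA {j} m
        refine ⟨R (y j), fun i hi => ?_⟩
        rcases Finset.mem_insert.1 hi with rfl | hi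
        · have := RG.leaf hA (h1 i) (r2 (y i))
          rw [Finset.inter_comm, Finset.inter_compl] at this
          rw [← this.eq_of_empty, hy]
        · have := RG.leaf hA (h1 i) (r5 (y j))
          have he : ({j} : Finset κ) ∩ {i} = ∅ := by
            refine Finset.singleton_inter_of_notMem ?_
            rw [Finset.mem_singleton]
            rintro rfl
            exact hj hi
          rw [he] at this
          rw [← this.eq_of_empty, hm i hi]
    obtain ⟨m, hm⟩ := hT Finset.univ
    exact ⟨m, fun i => hm i (Finset.mem_univ i)⟩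

end Vale.Agent.P278.Atl
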