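import Vale.Agent.P278.Atl

/-! P278 task Pull: pull-backs of closed forms, and the Kaehler form in a holomorphic chart. -/

open scoped Manifold ContDiff
open Filter Topology

namespace Vale.Agent.P278

theorem closedAt_pullback {V W : Type} [NormedAddCommGroup V] [NormedSpace ℝ V]
    [NormedAddCommGroup W] [NormedSpace ℝ W] {Ω : W → W →L[ℝ] W →L[ℝ] ℝ} {ψ : V → W} {p : V}
    (hΩ : DifferentiableAt ℝ Ω (ψ p)) (halt : ∀ u v, Ω (ψ p) u v = -Ω (ψ p) v u)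
    (hc : ClosedAt (fun q u v => Ω q u v) (ψ p)) (hψ : ContDiffAt ℝ 2 ψ p) :
    ClosedAt (fun q u v => Ω (ψ q) (fderiv ℝ ψ q u) (fderiv ℝ ψ q v)) p := by
  have h1 : DifferentiableAt ℝ ψ p := hψ.differentiableAt two_ne_zero
  have h2 : DifferentiableAt ℝ (fderiv ℝ ψ) p :=
    (hψ.fderiv_right (m := 1) (by norm_num)).differentiableAt one_ne_zero
  have hsym : ∀ u v, fderiv ℝ (fderiv ℝ ψ) p u v = fderiv ℝ (fderiv ℝ ψ) p v u :=
    hψ.isSymmSndFDerivAt (by simp)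
  have hD : ∀ v, HasFDerivAt (fun q => fderiv ℝ ψ q v) ((fderiv ℝ (fderiv ℝ ψ) p).flip v) p := by
    intro v
    simpa using h2.hasFDerivAt.clm_apply (hasFDerivAt_const v p)
  have hO : HasFDerivAt (fun q => Ω (ψ q)) ((fderiv ℝ Ω (ψ p)).comp (fderiv ℝ ψ p)) p :=
    HasFDerivAt.comp (G := W →L[ℝ] W →L[ℝ] ℝ) p hΩ.hasFDerivAt h1.hasFDerivAt
  have key : ∀ u v w, fderiv ℝ (fun q => Ω (ψ q) (fderiv ℝ ψ q v) (fderiv ℝ ψ q w)) p u =
      Ω (ψ p) (fderiv ℝ ψ p v) (fderiv ℝ (fderiv ℝ ψ) p u w) +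
      (Ω (ψ p) (fderiv ℝ (fderiv ℝ ψ) p u v) (fderiv ℝ ψ p w) +
      fderiv ℝ Ω (ψ p) (fderiv ℝ ψ p u) (fderiv ℝ ψ p v) (fderiv ℝ ψ p w)) := by
    intro u v w
    rw [((hO.clm_apply (hD v)).clm_apply (hD w)).fderiv]
    simp
  have key2 : ∀ u v w, fderiv ℝ (fun q => Ω q v w) (ψ p) u = fderiv ℝ Ω (ψ p) u v w := by
    intro u v w
    rw [((hΩ.hasFDerivAt.clm_apply (hasFDerivAt_const v _)).clm_apply
      (hasFDerivAt_const w _)).fderiv]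
    simp
  intro u v w
  have := hc (fderiv ℝ ψ p u) (fderiv ℝ ψ p v) (fderiv ℝ ψ p w)
  simp only [key2] at this
  simp only [key]
  rw [halt (fderiv ℝ (fderiv ℝ ψ) p u v), halt (fderiv ℝ (fderiv ℝ ψ) p v w),
    halt (fderiv ℝ (fderiv ℝ ψ) p w u), hsym u w, hsym v u, hsym w v]
  linarith

theorem ClosedAt.congr {V : Type} [NormedAddCommGroup V] [NormedSpace ℝ V] {Ω Ω' : V → V → V → ℝ}
    {p : V} (h : ClosedAt Ω p) (h' : Ω' =ᶠ[𝓝 p] Ω) : ClosedAt Ω' p := by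
  have key : ∀ v w, fderiv ℝ (fun q => Ω' q v w) p = fderiv ℝ (fun q => Ω q v w) p := by
    intro v w
    apply Filter.EventuallyEq.fderiv_eq
    filter_upwards [h'] with q hq
    rw [hq]
  intro u v w
  simp only [key]
  exact h u v w

theorem exists_clm2 {P T : Type} [NormedAddCommGroup P] [NormedSpace ℝ P] [NormedSpace ℂ P]
    [IsScalarTower ℝ ℂ P] [FiniteDimensional ℂ P] [AddCommGroup T] [Module ℂ T]
    (b : T →ₗ⋆[ℂ] T →ₗ[ℂ] ℂ) (D : P →ₗ[ℂ] T) :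
    ∃ Ω : P →L[ℝ] P →L[ℝ] ℝ, ∀ u v, Ω u v = (b (D u) (D v)).im := by
  have : FiniteDimensional ℝ P := Module.Finite.trans ℂ P
  have hs : ∀ (r : ℝ) (u : P), D (r • u) = (r : ℂ) • D u := by
    intro r u
    rw [← map_smul]
    congr 1
    exact (algebraMap_smul ℂ r u).symm
  refine ⟨(LinearMap.mk₂ ℝ (fun u v => (b (D u) (D v)).im) ?_ ?_ ?_ ?_).toContinuousBilinearMap,
    fun u v => rfl⟩
  · intro a a' v
    simp
  · intro r u v
    rw [hs, LinearMap.map_smulₛₗ₂]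
    simp
  · intro a v v'
    simp
  · intro r u v
    simp [hs]

/-- The Kaehler form in an arbitrary holomorphic chart. -/
theorem form_in_chart {n : ℕ} {X P : Type} [TopologicalSpace X] [ChartedSpace (Cn n) X]
    [IsManifold 𝓘(ℂ, Cn n) ω X] [NormedAddCommGroup P] [NormedSpace ℝ P] [NormedSpace ℂ P]
    [IsScalarTower ℝ ℂ P] [FiniteDimensional ℂ P]
    {h : ∀ x : X, TangentSpace 𝓘(ℂ, Cn n) x →ₗ⋆[ℂ] TangentSpace 𝓘(ℂ, Cn n) x →ₗ[ℂ] ℂ}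
    (hK : IsKaehler h) (c : OpenPartialHomeomorph X P)
    (h1 : ContMDiffOn 𝓘(ℂ, Cn n) 𝓘(ℂ, P) ω c c.source)
    (h2 : ContMDiffOn 𝓘(ℂ, P) 𝓘(ℂ, Cn n) ω c.symm c.target) :
    ∃ Ω : P → P →L[ℝ] P →L[ℝ] ℝ, ContDiffOn ℝ 1 Ω c.target ∧ ∀ p ∈ c.target,
      (∀ u v, Ω p u v = (h (c.symm p) (mfderiv 𝓘(ℂ, P) 𝓘(ℂ, Cn n) c.symm p u)
        (mfderiv 𝓘(ℂ, P) 𝓘(ℂ, Cn n) c.symm p v)).im) ∧
      (∀ u v, Ω p u v = -Ω p v u) ∧ ClosedAt (fun q u v => Ω q u v) p ∧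
      ∀ u, u ≠ 0 → 0 < Ω p u (Complex.I • u) := by
  have : FiniteDimensional ℝ P := Module.Finite.trans ℂ P
  choose Ω hΩ using fun p : P => exists_clm2 (P := P) (h (c.symm p))
    (mfderiv 𝓘(ℂ, P) 𝓘(ℂ, Cn n) c.symm p).toLinearMap
  choose Ω₀ hΩ₀ using fun (x₀ : X) (q : Cn n) => exists_clm2 (P := Cn n)
    (h ((chartAt (Cn n) x₀).symm q))
    (mfderiv 𝓘(ℂ, Cn n) 𝓘(ℂ, Cn n) (chartAt (Cn n) x₀).symm q).toLinearMap
  replace hΩ : ∀ p u v, Ω p u v = (h (c.symm p) (mfderiv 𝓘(ℂ, P) 𝓘(ℂ, Cn n) c.symm p u)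
      (mfderiv 𝓘(ℂ, P) 𝓘(ℂ, Cn n) c.symm p v)).im := hΩ
  replace hΩ₀ : ∀ x₀ q u v, Ω₀ x₀ q u v = (inChart h x₀ q u v).im := hΩ₀
  have him : ∀ x u v, (h x u v).im = -(h x v u).im := by
    intro x u v
    rw [hK.herm x u v]
    simp
  have hsm0 : ∀ x₀, ContDiffOn ℝ ∞ (Ω₀ x₀) (chartAt (Cn n) x₀).target := by
    intro x₀
    rw [contDiffOn_clm_apply]
    intro u
    rw [contDiffOn_clm_apply]
    intro v
    simp only [hΩ₀]
    exact Complex.imCLM.contDiff.comp_contDiffOn (hK.smooth x₀ u v)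
  have hloc : ∀ p ∈ c.target, ∃ (x₀ : X) (ψ : P → Cn n), ψ p ∈ (chartAt (Cn n) x₀).target ∧
      ContDiffAt ℝ ω ψ p ∧ ∀ᶠ q in 𝓝 p, ∀ u v,
        Ω q u v = Ω₀ x₀ (ψ q) (fderiv ℝ ψ q u) (fderiv ℝ ψ q v) := by
    intro p hp
    set φ := chartAt (Cn n) (c.symm p) with hφ
    have hψ : ∀ q ∈ c.target, c.symm q ∈ φ.source → ContDiffAt ℂ ω (φ ∘ c.symm) q := by
      intro q hq hq'
      rw [← contMDiffAt_iff_contDiffAt]
      exact (contMDiffOn_chart.contMDiffAt (φ.open_source.mem_nhds hq')).comp q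
        (h2.contMDiffAt (c.open_target.mem_nhds hq))
    have hev : ∀ q ∈ c.target, c.symm q ∈ φ.source →
        ∀ᶠ q' in 𝓝 q, q' ∈ c.target ∧ c.symm q' ∈ φ.source := by
      intro q hq hq'
      exact (c.open_target.eventually_mem hq).and
        ((c.continuousAt_symm hq).eventually (φ.open_source.mem_nhds hq'))
    have hp' : c.symm p ∈ φ.source := mem_chart_source _ _
    refine ⟨c.symm p, φ ∘ c.symm, φ.map_source hp', (hψ p hp hp').restrict_scalars ℝ, ?_⟩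
    filter_upwards [hev p hp hp'] with q ⟨hq, hq'⟩ u v
    have hd : DifferentiableAt ℂ (φ ∘ c.symm) q := (hψ q hq hq').differentiableAt (by simp)
    have e1 : c.symm =ᶠ[𝓝 q] φ.symm ∘ (φ ∘ c.symm) := by
      filter_upwards [hev q hq hq'] with q' hq'
      simp [φ.left_inv hq'.2]
    have e2 : mfderiv 𝓘(ℂ, P) 𝓘(ℂ, Cn n) c.symm q =
        (mfderiv 𝓘(ℂ, Cn n) 𝓘(ℂ, Cn n) φ.symm ((φ ∘ c.symm) q)).comp
          (mfderiv 𝓘(ℂ, P) 𝓘(ℂ, Cn n) (φ ∘ c.symm) q) := by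
      rw [e1.mfderiv_eq]
      exact mfderiv_comp q ((mdifferentiable_chart (c.symm p)).mdifferentiableAt_symm
        (φ.map_source hq')) hd.mdifferentiableAt
    rw [hΩ, hΩ₀, hd.fderiv_restrictScalars ℝ, e2, mfderiv_eq_fderiv]
    have e3 : φ.symm ((φ ∘ c.symm) q) = c.symm q := φ.left_inv hq'
    have e4 : ∀ (x y : X) (a b : Cn n), x = y → h x a b = h y a b := by
      rintro x y a b rfl
      rfl
    congr 1
    exact e4 _ _ _ _ e3.symm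
  refine ⟨Ω, ?_, fun p hp => ⟨hΩ p, fun u v => ?_, ?_, fun u hu => ?_⟩⟩
  · rw [contDiffOn_clm_apply]
    intro u
    rw [contDiffOn_clm_apply]
    intro v p hp
    obtain ⟨x₀, ψ, hx, hψ, hev⟩ := hloc p hp
    have a1 : ContDiffAt ℝ 1 (Ω₀ x₀) (ψ p) :=
      ((hsm0 x₀).contDiffAt ((chartAt (Cn n) x₀).open_target.mem_nhds hx)).of_le (by simp)
    have a2 : ContDiffAt ℝ 1 (fderiv ℝ ψ) p := hψ.fderiv_right (by simp)
    have a3 : ContDiffAt ℝ 1 (fun q => Ω₀ x₀ (ψ q)) p :=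
      ContDiffAt.comp (G := Cn n →L[ℝ] Cn n →L[ℝ] ℝ) p a1 (hψ.of_le (by simp))
    have a4 : ContDiffAt ℝ 1 (fun q => Ω₀ x₀ (ψ q) (fderiv ℝ ψ q u) (fderiv ℝ ψ q v)) p :=
      (a3.clm_apply (a2.clm_apply contDiffAt_const)).clm_apply (a2.clm_apply contDiffAt_const)
    refine (a4.congr_of_eventuallyEq ?_).contDiffWithinAt
    filter_upwards [hev] with q hq using hq u v
  · rw [hΩ, hΩ, him]
  · obtain ⟨x₀, ψ, hx, hψ, hev⟩ := hloc p hp
    have a1 : DifferentiableAt ℝ (Ω₀ x₀) (ψ p) :=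
      ((hsm0 x₀).contDiffAt ((chartAt (Cn n) x₀).open_target.mem_nhds hx)).differentiableAt
        (by simp)
    refine (closedAt_pullback a1 (fun u v => ?_) (fun u v w => ?_) (hψ.of_le (by simp))).congr ?_
    · rw [hΩ₀, hΩ₀]
      exact him _ _ _
    · simp only [hΩ₀]
      exact hK.closed x₀ _ hx u v w
    · filter_upwards [hev] with q hq
      funext u v
      exact hq u v
  · have hm : c.MDifferentiable 𝓘(ℂ, Cn n) 𝓘(ℂ, P) :=
      ⟨h1.mdifferentiableOn (by simp), h2.mdifferentiableOn (by simp)⟩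
    have hinj := hm.symm.mfderiv_injective (x := p) hp
    have hne : mfderiv 𝓘(ℂ, P) 𝓘(ℂ, Cn n) c.symm p u ≠ 0 := by
      intro h0
      exact hu (hinj (h0.trans (map_zero _).symm))
    have e : mfderiv 𝓘(ℂ, P) 𝓘(ℂ, Cn n) c.symm p (Complex.I • u) =
        Complex.I • mfderiv 𝓘(ℂ, P) 𝓘(ℂ, Cn n) c.symm p u := map_smul _ _ _
    rw [hΩ, e, map_smul]
    simpa using hK.pos _ _ hne

end Vale.Agent.P278
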