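import Mathlib

/-! P278: the first point of contact of an exhaustion with the complement of an open set. -/

open Metric Set Filter Topology

namespace Vale.Agent.P278

/-- An exhaustion function whose small sublevel sets are close to the unit interval. -/
noncomputable def exh (η : ℝ) (s : ℂ) : ℝ :=
  (s.re ^ 2 + s.im ^ 2) + 3 * (Real.smoothTransition ((s.re - 1) / η) +
    Real.smoothTransition (-s.re / η) + (s.im / η) ^ 2)

theorem exh_diff (η : ℝ) : Differentiable ℝ (exh η) := by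
  have h1 : Differentiable ℝ Real.smoothTransition :=
    (Real.smoothTransition.contDiff (n := 1)).differentiable (by norm_num)
  have hre : Differentiable ℝ fun s : ℂ => s.re := Complex.reCLM.differentiable
  have him : Differentiable ℝ fun s : ℂ => s.im := Complex.imCLM.differentiable
  unfold exh
  fun_prop

theorem exh_ge (η : ℝ) (s : ℂ) : ‖s‖ ^ 2 ≤ exh η s := by
  have h1 := Real.smoothTransition.nonneg ((s.re - 1) / η)
  have h2 := Real.smoothTransition.nonneg (-s.re / η)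
  have h3 := sq_nonneg (s.im / η)
  have h4 : ‖s‖ ^ 2 = s.re ^ 2 + s.im ^ 2 := by
    rw [Complex.sq_norm, Complex.normSq_apply]; ring
  unfold exh
  linarith

theorem exh_one {η : ℝ} (hη : 0 < η) : exh η 1 = 1 := by
  have h1 : Real.smoothTransition (-1 / η) = 0 :=
    Real.smoothTransition.zero_of_nonpos (div_nonpos_of_nonpos_of_nonneg (by norm_num) hη.le)
  simp [exh, h1]

theorem exh_near {η : ℝ} (hη : 0 < η) {s : ℂ} (h : exh η s ≤ 2) :
    ∃ t ∈ Icc (0 : ℝ) 1, dist s t < 2 * η := by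
  have h1 := Real.smoothTransition.nonneg ((s.re - 1) / η)
  have h2 := Real.smoothTransition.nonneg (-s.re / η)
  have h3 := sq_nonneg (s.im / η)
  have h4 := sq_nonneg s.re
  have h5 := sq_nonneg s.im
  unfold exh at h
  have a1 : s.re - 1 < η := by
    by_contra hc
    rw [Real.smoothTransition.one_of_one_le ((one_le_div hη).2 (not_lt.1 hc))] at h
    linarith
  have a2 : -s.re < η := by
    by_contra hc
    rw [Real.smoothTransition.one_of_one_le ((one_le_div hη).2 (not_lt.1 hc))] at h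
    linarith
  have a3 : |s.im| < η := by
    have : (s.im / η) ^ 2 < 1 := by linarith
    rw [sq_lt_one_iff_abs_lt_one, abs_div, abs_of_pos hη, div_lt_one hη] at this
    exact this
  refine ⟨max 0 (min 1 s.re), ⟨le_max_left _ _, max_le zero_le_one (min_le_left _ _)⟩, ?_⟩
  rw [dist_eq_norm]
  refine (Complex.norm_le_abs_re_add_abs_im _).trans_lt ?_
  have a4 : |s.re - max 0 (min 1 s.re)| < η := by
    rcases le_total 1 s.re with c | c
    · rw [min_eq_left c, max_eq_right zero_le_one, abs_lt]; constructor <;> linarith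
    · rw [min_eq_right c]
      rcases le_total 0 s.re with c' | c'
      · rw [max_eq_right c']; simpa using hη
      · rw [max_eq_left c', abs_lt]; constructor <;> linarith
  simp only [Complex.sub_re, Complex.ofReal_re, Complex.sub_im, Complex.ofReal_im, sub_zero]
  linarith

theorem exh_radial {η : ℝ} (hη : 0 < η) (s : ℂ) {l : ℝ} (hl : l ∈ Icc (0 : ℝ) 1) :
    exh η (l * s) + (1 - l) * ‖s‖ ^ 2 ≤ exh η s := by
  have h4 : ‖s‖ ^ 2 = s.re ^ 2 + s.im ^ 2 := by
    rw [Complex.sq_norm, Complex.normSq_apply]; ring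
  obtain ⟨l0, l1⟩ := hl
  have a1 : Real.smoothTransition ((l * s.re - 1) / η) ≤ Real.smoothTransition ((s.re - 1) / η) := by
    rcases le_total 0 s.re with c | c
    · exact Real.smoothTransition.monotone (div_le_div_of_nonneg_right (by nlinarith) hη.le)
    · rw [Real.smoothTransition.zero_of_nonpos
        (div_nonpos_of_nonpos_of_nonneg (by nlinarith) hη.le)]
      exact Real.smoothTransition.nonneg _
  have a2 : Real.smoothTransition (-(l * s.re) / η) ≤ Real.smoothTransition (-s.re / η) := by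
    rcases le_total 0 s.re with c | c
    · rw [Real.smoothTransition.zero_of_nonpos
        (div_nonpos_of_nonpos_of_nonneg (by nlinarith) hη.le)]
      exact Real.smoothTransition.nonneg _
    · exact Real.smoothTransition.monotone (div_le_div_of_nonneg_right (by nlinarith) hη.le)
  have a3 : (l * s.im / η) ^ 2 ≤ (s.im / η) ^ 2 := by
    rw [mul_div_assoc, mul_pow]
    have : l ^ 2 ≤ 1 := by nlinarith
    nlinarith [sq_nonneg (s.im / η)]
  have a4 : (l * s.re) ^ 2 + (l * s.im) ^ 2 + (1 - l) * (s.re ^ 2 + s.im ^ 2) ≤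
      s.re ^ 2 + s.im ^ 2 := by
    have : l ^ 2 ≤ l := by nlinarith
    nlinarith [sq_nonneg s.re, sq_nonneg s.im]
  simp only [exh, Complex.mul_re, Complex.ofReal_re, Complex.ofReal_im, zero_mul, sub_zero,
    Complex.mul_im, add_zero, h4]
  linarith

theorem exh_grad {η : ℝ} (hη : 0 < η) {s : ℂ} (hs : s ≠ 0) : ∃ ν : ℂ, 0 < (ν * s).re ∧
    HasFDerivAt (exh η) (Complex.reCLM.comp (ν • ContinuousLinearMap.id ℝ ℂ)) s := by
  have hd := (exh_diff η s).hasFDerivAt
  set D := fderiv ℝ (exh η) s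
  have hD : ∀ h : ℂ, D h = (((D 1 : ℝ) - (D Complex.I : ℝ) * Complex.I) * h).re := by
    intro h
    have : h = h.re • (1 : ℂ) + h.im • Complex.I := by
      apply Complex.ext <;> simp
    conv_lhs => rw [this, map_add, map_smul, map_smul]
    simp
    ring
  refine ⟨(D 1 : ℝ) - (D Complex.I : ℝ) * Complex.I, ?_, ?_⟩
  · rw [← hD]
    have h1 : HasDerivAt (fun l : ℝ => exh η (l * s)) (D s) 1 := by
      have h2 : HasDerivAt (fun l : ℝ => (l : ℂ) * s) s 1 := by
        simpa using (Complex.ofRealCLM.hasDerivAt (x := 1)).mul_const s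
      have h3 : HasFDerivAt (exh η) D (((1 : ℝ) : ℂ) * s) := by simpa using hd
      exact h3.comp_hasDerivAt (1 : ℝ) h2
    have h4 := (hasDerivAt_iff_tendsto_slope_left_right.1 h1).1
    have h5 : ‖s‖ ^ 2 ≤ D s := by
      refine ge_of_tendsto h4 ?_
      filter_upwards [Ioo_mem_nhdsLT (zero_lt_one' ℝ)] with l hl
      have := exh_radial hη s ⟨hl.1.le, hl.2.le⟩
      rw [slope_def_field, le_div_iff_of_neg (by linarith [hl.2])]
      simp only [Complex.ofReal_one, one_mul]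
      linarith
    exact lt_of_lt_of_le (by positivity) h5
  · convert hd using 1
    refine ContinuousLinearMap.ext fun h => ?_
    rw [hD h]
    simp

theorem contact {N : Set (ℂ × ℂ)} (hN : IsOpen N)
    (h1 : ∀ s ∈ Icc (0 : ℝ) 1, ((s : ℂ), (0 : ℂ)) ∈ N ∧ ((0 : ℂ), (s : ℂ)) ∈ N)
    (hstep : ∀ s₀ t₀ ν₁ ν₂ : ℂ, 0 < (ν₁ * s₀).re → 0 < (ν₂ * t₀).re →
      (∀ l ∈ Icc (0 : ℝ) 1, ∀ m ∈ Icc (0 : ℝ) 1, l + m < 2 → ((l : ℂ) * s₀, (m : ℂ) * t₀) ∈ N) →
      (∀ L : ℝ, ∀ᶠ r in 𝓝[>] (0 : ℝ), ∀ z : ℂ × ℂ, ‖z‖ ≤ L * r → r ≤ (z.1 + z.2).re →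
        (s₀ - ν₁⁻¹ * z.1, t₀ - ν₂⁻¹ * z.2) ∈ N) → (s₀, t₀) ∈ N) :
    ((1 : ℂ), (1 : ℂ)) ∈ N := by
  by_contra hc
  have hK : IsCompact ((fun s : ℝ => (s : ℂ)) '' Icc 0 1) :=
    isCompact_Icc.image Complex.continuous_ofReal
  have hO : IsOpen {s : ℂ | (s, (0 : ℂ)) ∈ N ∧ ((0 : ℂ), s) ∈ N} :=
    (hN.preimage (by fun_prop)).inter (hN.preimage (by fun_prop))
  obtain ⟨δ, hδ, hth⟩ := hK.exists_thickening_subset_open hO (by
    rintro _ ⟨s, hs, rfl⟩; exact h1 s hs)
  set η := δ / 2 with hηd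
  have hη : 0 < η := by positivity
  have hnear : ∀ s, exh η s ≤ 2 → (s, (0 : ℂ)) ∈ N ∧ ((0 : ℂ), s) ∈ N := by
    intro s hs
    obtain ⟨t, ht, hd⟩ := exh_near hη hs
    exact hth (mem_thickening_iff.2 ⟨t, ⟨t, ht, rfl⟩, by linarith⟩)
  have hcont : Continuous fun p : ℂ × ℂ => exh η p.1 + exh η p.2 :=
    ((exh_diff η).continuous.comp continuous_fst).add ((exh_diff η).continuous.comp continuous_snd)
  have hnn : ∀ s, 0 ≤ exh η s := fun s => (sq_nonneg _).trans (exh_ge η s)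
  have hC : IsCompact (Nᶜ ∩ {p : ℂ × ℂ | exh η p.1 + exh η p.2 ≤ 2}) := by
    refine (isCompact_closedBall (0 : ℂ × ℂ) 2).of_isClosed_subset
      (hN.isClosed_compl.inter (isClosed_le hcont continuous_const)) ?_
    rintro p ⟨-, hp⟩
    have a1 := exh_ge η p.1
    have a2 := exh_ge η p.2
    have a3 := hnn p.1
    have a4 := hnn p.2
    simp only [mem_ofPred_eq] at hp
    rw [mem_closedBall_zero_iff, Prod.norm_def, max_le_iff]
    constructor <;> nlinarith [norm_nonneg p.1, norm_nonneg p.2]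
  obtain ⟨⟨s₀, t₀⟩, ⟨hp, hp2⟩, hmin⟩ := hC.exists_isMinOn
    ⟨(1, 1), hc, by simp only [mem_ofPred_eq, exh_one hη]; norm_num⟩ hcont.continuousOn
  simp only [mem_ofPred_eq] at hp2
  have hlt : ∀ s t, exh η s + exh η t < exh η s₀ + exh η t₀ → (s, t) ∈ N := by
    intro s t h
    by_contra hn
    have := hmin (a := (s, t)) ⟨hn, by simp only [mem_ofPred_eq]; linarith⟩
    simp only [mem_ofPred_eq] at this
    linarith
  have hs : s₀ ≠ 0 := by
    rintro rfl
    exact hp (hnear t₀ (by linarith [hnn 0])).2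
  have ht : t₀ ≠ 0 := by
    rintro rfl
    exact hp (hnear s₀ (by linarith [hnn 0])).1
  obtain ⟨ν₁, p1, d1⟩ := exh_grad hη hs
  obtain ⟨ν₂, p2, d2⟩ := exh_grad hη ht
  have n1 : ν₁ ≠ 0 := by rintro rfl; simp at p1
  have n2 : ν₂ ≠ 0 := by rintro rfl; simp at p2
  refine hp (hstep s₀ t₀ ν₁ ν₂ p1 p2 ?_ ?_)
  · intro l hl m hm hlm
    apply hlt
    have a1 := exh_radial hη s₀ hl
    have a2 := exh_radial hη t₀ hm
    have a3 : 0 < ‖s₀‖ ^ 2 := by positivity
    have a4 : 0 < ‖t₀‖ ^ 2 := by positivity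
    have a5 := mul_nonneg (sub_nonneg.2 hl.2) a3.le
    have a6 := mul_nonneg (sub_nonneg.2 hm.2) a4.le
    rcases lt_or_ge l 1 with c | c
    · have := mul_pos (sub_pos.2 c) a3
      linarith
    · have := mul_pos (show 0 < 1 - m by linarith) a4
      linarith
  · intro L
    have e1 : HasFDerivAt (fun z : ℂ × ℂ => s₀ - ν₁⁻¹ * z.1)
        (-(ν₁⁻¹ • ContinuousLinearMap.fst ℝ ℂ ℂ)) 0 :=
      ((ν₁⁻¹ • ContinuousLinearMap.fst ℝ ℂ ℂ).hasFDerivAt).const_sub s₀
    have e2 : HasFDerivAt (fun z : ℂ × ℂ => t₀ - ν₂⁻¹ * z.2)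
        (-(ν₂⁻¹ • ContinuousLinearMap.snd ℝ ℂ ℂ)) 0 :=
      ((ν₂⁻¹ • ContinuousLinearMap.snd ℝ ℂ ℂ).hasFDerivAt).const_sub t₀
    have d1' : HasFDerivAt (exh η) (Complex.reCLM.comp (ν₁ • ContinuousLinearMap.id ℝ ℂ))
        (s₀ - ν₁⁻¹ * (0 : ℂ × ℂ).1) := by simpa using d1
    have d2' : HasFDerivAt (exh η) (Complex.reCLM.comp (ν₂ • ContinuousLinearMap.id ℝ ℂ))
        (t₀ - ν₂⁻¹ * (0 : ℂ × ℂ).2) := by simpa using d2
    have e3 := ((d1'.comp (0 : ℂ × ℂ) e1).add (d2'.comp (0 : ℂ × ℂ) e2)).isLittleO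
    have hc : 0 < 1 / (2 * (|L| + 1)) := by positivity
    obtain ⟨ρ, hρ, hb⟩ := Metric.eventually_nhds_iff.1 (e3.bound hc)
    filter_upwards [Ioo_mem_nhdsGT (show 0 < ρ / (|L| + 1) by positivity)] with r hr z hz hre
    apply hlt
    have hz' : ‖z‖ ≤ (|L| + 1) * r := hz.trans (mul_le_mul_of_nonneg_right
      (by linarith [le_abs_self L]) hr.1.le)
    have hz2 : dist z 0 < ρ := by
      rw [dist_zero_right]
      have := hr.2
      rw [lt_div_iff₀ (by positivity)] at this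
      linarith
    have h5 := hb hz2
    have h6 : 1 / (2 * (|L| + 1)) * ‖z‖ ≤ r / 2 := by
      rw [div_mul_eq_mul_div, div_le_div_iff₀ (by positivity) (by positivity)]
      linarith
    simp only [Pi.add_apply, Function.comp_apply, Prod.fst_zero, mul_zero, sub_zero, Prod.snd_zero,
      add_apply, ContinuousLinearMap.comp_apply, neg_apply,
      smul_apply, ContinuousLinearMap.coe_fst', ContinuousLinearMap.coe_snd',
      ContinuousLinearMap.id_apply, smul_eq_mul, mul_neg, mul_inv_cancel_left₀ n1,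
      mul_inv_cancel_left₀ n2, Complex.reCLM_apply, Complex.neg_re, Real.norm_eq_abs] at h5
    have h7 := (abs_le.1 (h5.trans h6)).2
    rw [Complex.add_re] at hre
    linarith [hr.1]

end Vale.Agent.P278
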