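import Vale.Agent.P278.SlC

/-! P278 task SlD: no bubbles; two crossing discs lie in one chart. -/

open Metric Set Filter Topology MeasureTheory

namespace Vale.Agent.P278.Atl

variable {M P : Type} [TopologicalSpace M] [T2Space M] [NormedAddCommGroup P] [NormedSpace ℝ P]
  [NormedSpace ℂ P] [IsScalarTower ℝ ℂ P] [FiniteDimensional ℂ P] {A : Atl M P} {π : P →L[ℂ] P}
  {H : ℂ × ℂ → M} {W : Set (ℂ × ℂ)}

theorem slD_ex {p : ℝ → Prop} (h : ∀ᶠ s in 𝓝[>] (0 : ℝ), p s) :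
    ∃ δ : ℝ, 0 < δ ∧ ∀ s, 0 < s → s < δ → p s := by
  obtain ⟨δ, hδ, h'⟩ := (nhdsGT_basis (0 : ℝ)).eventually_iff.1 h
  exact ⟨δ, hδ, fun s h1 h2 => h' ⟨h1, h2⟩⟩

theorem slD_ev {δ : ℝ} (hδ : 0 < δ) : ∀ᶠ s in 𝓝[>] (0 : ℝ), 0 < s ∧ s < δ :=
  (nhdsGT_basis (0 : ℝ)).eventually_iff.2 ⟨δ, hδ, fun _ h => h⟩

theorem slD_re {x : ℂ} {r : ℝ} (h : ‖x‖ ≤ r) : -r ≤ x.re := by
  have := Complex.abs_re_le_norm x
  have := neg_abs_le x.re
  linarith

omit [T2Space M] [IsScalarTower ℝ ℂ P] [FiniteDimensional ℂ P] in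
theorem slD_ch (A : Atl M P) (m : M) :
    m ∈ (A.c (A.ch m)).source ∧ ‖A.c (A.ch m) m‖ < 1 := (A.cover m).choose_spec

/-- One step of the decay. -/
theorem Slice.decay_step (h : A.Slice π H W) {J s : ℝ} (hJ : 1 ≤ J) (hs : 0 < s) {x : ℂ}
    (hW : ∀ y : ℝ, s ≤ y → y ≤ J * s → (x, (y : ℂ)) ∈ W ∧
      y ^ 2 * A.en H (x, (y : ℂ)) (0, 1) ≤ A.lam / J ^ 2) :
    A.en H (x, (s : ℂ)) (1, 0) ≤ A.θ * A.en H (x, ((J * s : ℝ) : ℂ)) (1, 0) := by
  have hJ0 : 0 < J := by linarith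
  have hlam := A.lam_pos
  set g : ℝ → ℝ := fun t => s + t * ((J - 1) * s) with hg
  have hg1 : ∀ t ∈ Icc (0 : ℝ) 1, s ≤ g t ∧ g t ≤ J * s := by
    intro t ht
    have h1 : 0 ≤ (J - 1) * s := mul_nonneg (by linarith) hs.le
    have h2 : t * ((J - 1) * s) ≤ 1 * ((J - 1) * s) := mul_le_mul_of_nonneg_right ht.2 h1
    have h3 : 0 ≤ t * ((J - 1) * s) := mul_nonneg ht.1 h1
    simp only [hg]
    constructor <;> nlinarith
  obtain ⟨ha, hn⟩ := slD_ch A (H (x, (s : ℂ)))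
  set a := A.ch (H (x, (s : ℂ)))
  have hg0 : g 0 = s := by simp [hg]
  have hg2 : g 1 = J * s := by simp only [hg]; ring
  have key := stay (A := A) (Ψ := H) (σ := fun t : ℝ => (x, ((g t : ℝ) : ℂ)))
    (σ' := fun _ => (((J - 1) * s : ℝ) : ℂ) • ((0, 1) : ℂ × ℂ)) (L := 1) zero_le_one (by
      intro t ht
      obtain ⟨h1, h2⟩ := hg1 t ht
      obtain ⟨h3, h4⟩ := hW (g t) h1 h2
      refine ⟨?_, h.hol _ h3, ?_⟩
      · have e1 : HasDerivAt g ((J - 1) * s) t := by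
          simpa [hg] using ((hasDerivAt_id t).mul_const ((J - 1) * s)).const_add s
        have e2 := (hasDerivAt_const t x).prodMk e1.ofReal_comp
        simpa using e2
      · rw [(h.hol _ h3).en_smul, Complex.norm_real, Real.norm_eq_abs, sq_abs]
        have h5 := (h.hol _ h3).en_nonneg ((0, 1) : ℂ × ℂ)
        set e := A.en H (x, ((g t : ℝ) : ℂ)) (0, 1)
        have h6 : s ^ 2 * e ≤ A.lam / J ^ 2 :=
          le_trans (mul_le_mul_of_nonneg_right (pow_le_pow_left₀ hs.le h1 2) h5) h4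
        have h7 : (J - 1) ^ 2 ≤ J ^ 2 := pow_le_pow_left₀ (by linarith) (by linarith) 2
        have h8 : J ^ 2 * (s ^ 2 * e) ≤ A.lam := by
          have := mul_le_mul_of_nonneg_left h6 (sq_nonneg J)
          rwa [mul_div_cancel₀ _ (pow_pos hJ0 2).ne'] at this
        have h9 : (J - 1) ^ 2 * (s ^ 2 * e) ≤ J ^ 2 * (s ^ 2 * e) :=
          mul_le_mul_of_nonneg_right h7 (mul_nonneg (sq_nonneg s) h5)
        calc ((J - 1) * s) ^ 2 * e = (J - 1) ^ 2 * (s ^ 2 * e) := by ring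
          _ ≤ A.lam * 1 ^ 2 := by linarith)
    (a := a) (by simpa only [hg0] using ha) (by simp only [hg0]; linarith)
  have hO : IsPreconnected ((fun t : ℝ => ((g t : ℝ) : ℂ)) '' Icc (0 : ℝ) 1) := by
    refine isPreconnected_Icc.image _ (Continuous.continuousOn ?_)
    simp only [hg]
    fun_prop
  have hh := h.swap.harnack a hO x (by
    rintro _ ⟨t, ht, rfl⟩
    obtain ⟨h1, h2⟩ := hg1 t ht
    exact ⟨(hW (g t) h1 h2).1, (key t ht).1⟩)
    _ ⟨0, ⟨le_rfl, zero_le_one⟩, rfl⟩ _ ⟨1, ⟨zero_le_one, le_rfl⟩, rfl⟩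
  simp only [hg0, hg2] at hh
  have hs1 : s ≤ J * s := by nlinarith
  have e1 := h.en_swap (hW s le_rfl hs1).1 ((1, 0) : ℂ × ℂ)
  have e2 := h.en_swap (hW (J * s) hs1 le_rfl).1 ((1, 0) : ℂ × ℂ)
  simp only [Prod.swap_prod_mk] at e1 e2
  rwa [e1, e2] at hh

theorem Slice.decay (h : A.Slice π H W) {J : ℝ} (hJ : 2 * A.θ ≤ J) : ∀ᶠ s₀ : ℝ in 𝓝[>] 0,
    ∀ ε : ℝ, 0 < ε → ∀ᶠ k : ℕ in atTop, ∀ x : ℂ, ‖x‖ ≤ s₀ / J ^ k / 2 →
      (s₀ / J ^ k) ^ 2 * A.en H (x, ((s₀ / J ^ k : ℝ) : ℂ)) (1, 0) ≤ ε := by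
  have hθ := A.one_le_θ
  have hJ2 : 2 ≤ J := by linarith
  have hJ0 : 0 < J := by linarith
  have hlam := A.lam_pos
  obtain ⟨δ₁, hδ₁, h₁⟩ := slD_ex (h.axis (A.lam / J ^ 2) (by positivity))
  obtain ⟨δ₂, hδ₂, h₂⟩ := slD_ex (h.cone 2)
  have hmem : ∀ y : ℝ, 0 < y → y < δ₂ → ∀ x : ℂ, ‖x‖ ≤ y / 2 → (x, (y : ℂ)) ∈ W := by
    intro y hy hy' x hx
    refine h₂ (y / 2) (by linarith) (by linarith) _ ?_ ?_
    · rw [Prod.norm_def]
      refine max_le (by simp only; linarith) ?_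
      simp only [Complex.norm_real, Real.norm_eq_abs, abs_of_pos hy]
      linarith
    · have := slD_re hx
      simp only [Complex.add_re, Complex.ofReal_re]
      linarith
  filter_upwards [slD_ev (lt_min hδ₁ hδ₂)] with s₀ ⟨hs₀, hs₀'⟩ ε hε
  have hd1 : s₀ < δ₁ := hs₀'.trans_le (min_le_left _ _)
  have hd2 : s₀ < δ₂ := hs₀'.trans_le (min_le_right _ _)
  obtain ⟨m, hm⟩ : ∃ m : ℝ, ∀ x : ℂ, ‖x‖ ≤ s₀ / 2 → s₀ ^ 2 * A.en H (x, (s₀ : ℂ)) (1, 0) ≤ m := by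
    have hc : ContinuousOn (fun x : ℂ => s₀ ^ 2 * A.en H (x, (s₀ : ℂ)) (1, 0))
        (closedBall 0 (s₀ / 2)) := by
      intro x hx
      have h1 := (h.hol _ (hmem s₀ hs₀ hd2 x (by simpa using hx))).continuousAt_en
        ((1, 0) : ℂ × ℂ)
      have h2 : ContinuousAt (fun x : ℂ => A.en H (x, (s₀ : ℂ)) (1, 0)) x :=
        ContinuousAt.comp (f := fun x : ℂ => (x, (s₀ : ℂ))) h1 (by fun_prop)
      exact (continuousAt_const.mul h2).continuousWithinAt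
    obtain ⟨m, hm⟩ := ((isCompact_closedBall (0 : ℂ) (s₀ / 2)).image_of_continuousOn hc).bddAbove
    exact ⟨m, fun x hx => hm ⟨x, by simpa using hx, rfl⟩⟩
  have hind : ∀ k : ℕ, ∀ x : ℂ, ‖x‖ ≤ s₀ / J ^ k / 2 →
      (s₀ / J ^ k) ^ 2 * A.en H (x, ((s₀ / J ^ k : ℝ) : ℂ)) (1, 0) ≤ m * (1 / 2) ^ k := by
    intro k
    induction k with
    | zero => simpa using hm
    | succ k ih =>
      intro x hx
      set s := s₀ / J ^ (k + 1) with hs
      have hs0 : 0 < s := by positivity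
      have hJs : J * s = s₀ / J ^ k := by
        simp only [hs]; field_simp; ring
      have hle : s₀ / J ^ k ≤ s₀ := div_le_self hs₀.le (one_le_pow₀ (by linarith))
      have hss : s ≤ J * s := by nlinarith
      have h3 := h.decay_step (J := J) (s := s) (x := x) (by linarith) hs0 (by
        intro y hy hy'
        have hy0 : 0 < y := by linarith
        exact ⟨hmem y hy0 (by linarith) x (by linarith),
          h₁ y hy0 (by linarith) x (by linarith)⟩)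
      have h4 := ih x (by rw [← hJs]; linarith)
      rw [← hJs] at h4
      have h5 := (h.hol _ (hmem (J * s) (by positivity) (by linarith) x
        (by linarith))).en_nonneg ((1, 0) : ℂ × ℂ)
      set e := A.en H (x, ((J * s : ℝ) : ℂ)) (1, 0)
      have h6 : 2 * A.θ ≤ J ^ 2 := by nlinarith
      have h7 : 2 * A.θ * (s ^ 2 * e) ≤ J ^ 2 * (s ^ 2 * e) :=
        mul_le_mul_of_nonneg_right h6 (by positivity)
      have h8 := mul_le_mul_of_nonneg_left h3 (sq_nonneg s)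
      rw [pow_succ (1 / 2 : ℝ)]
      nlinarith
  have ht : Tendsto (fun k : ℕ => m * (1 / 2 : ℝ) ^ k) atTop (𝓝 (m * 0)) :=
    (tendsto_pow_atTop_nhds_zero_of_lt_one (by norm_num) (by norm_num)).const_mul m
  rw [mul_zero] at ht
  filter_upwards [ht.eventually (ge_mem_nhds hε)] with k hk x hx
  exact (hind k x hx).trans hk

/-- A horizontal disc with small energy lies in the chart at its point `(s, s)`. -/
theorem Slice.row (h : A.Slice π H W) {s : ℝ} (hs : 0 < s)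
    (hW : ∀ w ∈ closedBall ((s / 2 : ℝ) : ℂ) s, (w, (s : ℂ)) ∈ W ∧
      s ^ 2 * A.en H (w, (s : ℂ)) (1, 0) ≤ A.lam / 3) {a : A.ι}
    (ha : H (s, s) ∈ (A.c a).source) (hn : ‖A.c a (H (s, s))‖ < 1) :
    ∀ x ∈ closedBall ((s / 2 : ℝ) : ℂ) s,
      (x, (s : ℂ)) ∈ W ∧ H (x, s) ∈ (A.c a).source ∧ ‖A.c a (H (x, s))‖ < 2 := by
  intro x hx
  have hlam := A.lam_pos
  have hsb : (s : ℂ) ∈ closedBall ((s / 2 : ℝ) : ℂ) s := by
    rw [mem_closedBall, dist_eq_norm, ← Complex.ofReal_sub, Complex.norm_real, Real.norm_eq_abs,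
      abs_of_nonneg (by linarith)]
    linarith
  have hxs : ‖x - s‖ ≤ 3 * s / 2 := by
    have h1 : dist x (s : ℂ) ≤ dist x ((s / 2 : ℝ) : ℂ) + dist ((s / 2 : ℝ) : ℂ) (s : ℂ) :=
      dist_triangle _ _ _
    have h2 : dist ((s / 2 : ℝ) : ℂ) (s : ℂ) = s / 2 := by
      rw [dist_eq_norm, ← Complex.ofReal_sub, Complex.norm_real, Real.norm_eq_abs,
        abs_of_nonpos (by linarith)]
      ring
    rw [mem_closedBall] at hx
    rw [← dist_eq_norm]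
    linarith
  have key := stay (A := A) (Ψ := H) (σ := fun t : ℝ => ((s : ℂ) + t • (x - s), (s : ℂ)))
    (σ' := fun _ => (x - s) • ((1, 0) : ℂ × ℂ)) (L := 1) zero_le_one (by
      intro t ht
      have hw : (s : ℂ) + t • (x - s) ∈ closedBall ((s / 2 : ℝ) : ℂ) s :=
        (convex_closedBall _ _).add_smul_sub_mem hsb hx ht
      obtain ⟨h3, h4⟩ := hW _ hw
      refine ⟨?_, h.hol _ h3, ?_⟩
      · have e1 : HasDerivAt (fun t : ℝ => (s : ℂ) + t • (x - s)) (x - s) t := by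
          simpa using ((hasDerivAt_id t).smul_const (x - s)).const_add (s : ℂ)
        have e2 := e1.prodMk (hasDerivAt_const t (s : ℂ))
        simpa using e2
      · rw [(h.hol _ h3).en_smul]
        have h5 := (h.hol _ h3).en_nonneg ((1, 0) : ℂ × ℂ)
        set e := A.en H ((s : ℂ) + t • (x - s), (s : ℂ)) (1, 0)
        have h6 : ‖x - s‖ ^ 2 ≤ (3 * s / 2) ^ 2 := pow_le_pow_left₀ (norm_nonneg _) hxs 2
        have h7 := mul_le_mul_of_nonneg_right h6 h5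
        nlinarith)
    (a := a) (by simpa using ha) (by simp only [zero_smul, add_zero]; linarith)
  obtain ⟨k1, k2⟩ := key 1 ⟨zero_le_one, le_rfl⟩
  simp only [one_smul, add_sub_cancel, zero_smul, add_zero] at k1 k2
  refine ⟨(hW x hx).1, k1, ?_⟩
  have := norm_sub_norm_le (A.c a (H (x, s))) (A.c a (H (s, s)))
  linarith

theorem Slice.row_ev (h : A.Slice π H W) : ∀ᶠ s₀ : ℝ in 𝓝[>] 0, ∀ᶠ k : ℕ in atTop,
    ∀ w ∈ closedBall ((s₀ / (2 * A.θ) ^ k / 2 : ℝ) : ℂ) (s₀ / (2 * A.θ) ^ k),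
      (w, ((s₀ / (2 * A.θ) ^ k : ℝ) : ℂ)) ∈ W ∧ (s₀ / (2 * A.θ) ^ k) ^ 2 *
        A.en H (w, ((s₀ / (2 * A.θ) ^ k : ℝ) : ℂ)) (1, 0) ≤ A.lam / 3 := by
  have hθ := A.one_le_θ
  have hlam := A.lam_pos
  obtain ⟨δ₁, hδ₁, h₁⟩ := slD_ex (h.away (A.lam / 3) (by positivity))
  obtain ⟨δ₂, hδ₂, h₂⟩ := slD_ex (h.cone 3)
  filter_upwards [slD_ev (lt_min hδ₁ hδ₂), h.decay (J := 2 * A.θ) le_rfl] with s₀ ⟨hs₀, hs₀'⟩ hd
  filter_upwards [hd (A.lam / 3) (by positivity)] with k hk w hw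
  have hd1 : s₀ < δ₁ := hs₀'.trans_le (min_le_left _ _)
  have hd2 : s₀ < δ₂ := hs₀'.trans_le (min_le_right _ _)
  have hle : s₀ / (2 * A.θ) ^ k ≤ s₀ := div_le_self hs₀.le (one_le_pow₀ (by linarith))
  have hs : 0 < s₀ / (2 * A.θ) ^ k := by positivity
  set s := s₀ / (2 * A.θ) ^ k
  rw [mem_closedBall, dist_eq_norm] at hw
  have hns : ‖((s : ℝ) : ℂ)‖ = s := by rw [Complex.norm_real, Real.norm_eq_abs, abs_of_pos hs]
  have hw1 : ‖w‖ ≤ 3 * s / 2 := by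
    have h1 := norm_sub_norm_le w ((s / 2 : ℝ) : ℂ)
    rw [Complex.norm_real, Real.norm_eq_abs, abs_of_pos (by linarith)] at h1
    linarith
  have hw2 : s / 2 ≤ (w + s).re := by
    have h1 := slD_re hw
    simp only [Complex.sub_re, Complex.ofReal_re] at h1
    simp only [Complex.add_re, Complex.ofReal_re]
    linarith
  refine ⟨h₂ (s / 2) (by linarith) (by linarith) _ ?_ hw2, ?_⟩
  · rw [Prod.norm_def]
    refine max_le (by simp only; linarith) ?_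
    simp only [hns]
    linarith
  · rcases le_total ‖w‖ (s / 2) with h3 | h3
    · exact hk w h3
    · exact (h₁ s hs (by linarith) w s (by linarith) (by linarith) (by rw [hns]; linarith)
        (by rw [hns]; linarith) (by linarith)).1

/-- The local extension theorem. -/
theorem Slice.cross (h : A.Slice π H W) : ∃ᶠ s : ℝ in 𝓝[>] 0, ∃ a : A.ι,
    ∀ x ∈ closedBall ((s / 2 : ℝ) : ℂ) s,
      ((x, (s : ℂ)) ∈ W ∧ H (x, s) ∈ (A.c a).source ∧ ‖A.c a (H (x, s))‖ < 2) ∧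
      (((s : ℂ), x) ∈ W ∧ H (s, x) ∈ (A.c a).source ∧ ‖A.c a (H (s, x))‖ < 2) := by
  have hθ := A.one_le_θ
  obtain ⟨s₀, ⟨h1, h2⟩, hs₀, -⟩ := ((h.row_ev.and h.swap.row_ev).and (slD_ev one_pos)).exists
  have ht : Tendsto (fun k : ℕ => s₀ / (2 * A.θ) ^ k) atTop (𝓝[>] 0) := by
    refine tendsto_nhdsWithin_iff.2 ⟨?_, Eventually.of_forall fun k => ?_⟩
    · exact tendsto_const_nhds.div_atTop (tendsto_pow_atTop_atTop_of_one_lt (by linarith))
    · simp only [mem_Ioi]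
      positivity
  refine ht.frequently (Eventually.frequently ?_)
  filter_upwards [h1, h2] with k k1 k2
  have hs : 0 < s₀ / (2 * A.θ) ^ k := by positivity
  set s := s₀ / (2 * A.θ) ^ k
  obtain ⟨ha, hn⟩ := slD_ch A (H (s, s))
  exact ⟨A.ch (H (s, s)), fun x hx => ⟨h.row hs k1 ha hn x hx, h.swap.row hs k2 ha hn x hx⟩⟩

end Vale.Agent.P278.Atl
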