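import Vale.Agent.P278.PL
import Vale.Agent.P278.SlD
import Vale.Agent.P278.RCAux

/-! P278 task RC: completion of rectangles. -/

open Metric Set Filter Topology

namespace Vale.Agent.P278.Atl

set_option linter.unusedSectionVars false
set_option linter.unusedSimpArgs false

variable {M κ : Type} [TopologicalSpace M] [T2Space M] [Fintype κ] [DecidableEq κ] {d : κ → ℕ}
  {A : Atl M (∀ i, Cn (d i))}

/-- The projection to the coordinates in `I`. -/
noncomputable def projI (I : Finset κ) : (∀ i, Cn (d i)) →L[ℂ] ∀ i, Cn (d i) :=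
  ContinuousLinearMap.pi fun i => if i ∈ I then ContinuousLinearMap.proj i else 0

theorem projI_apply (I : Finset κ) (u : ∀ i, Cn (d i)) (i : κ) :
    projI I u i = if i ∈ I then u i else 0 := by
  simp only [projI, ContinuousLinearMap.pi_apply]
  split_ifs <;> rfl

theorem continuous_mix (I : Finset κ) :
    Continuous fun p : (∀ i, Cn (d i)) × ∀ i, Cn (d i) => I.piecewise p.1 p.2 := by
  refine continuous_pi fun i => ?_
  by_cases hi : i ∈ I
  · simp only [Finset.piecewise_eq_of_mem _ _ _ hi]; fun_prop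
  · simp only [Finset.piecewise_eq_of_notMem _ _ _ hi]; fun_prop

theorem tendsto_mix_left (I : Finset κ) (p q : ∀ i, Cn (d i)) :
    Tendsto (fun z => I.piecewise z q) (𝓝 p) (𝓝 (I.piecewise p q)) :=
  ((continuous_mix I).comp (continuous_id.prodMk continuous_const)).tendsto p

theorem tendsto_mix_right (I : Finset κ) (p q : ∀ i, Cn (d i)) :
    Tendsto (fun z => I.piecewise p z) (𝓝 q) (𝓝 (I.piecewise p q)) :=
  ((continuous_mix I).comp (continuous_const.prodMk continuous_id)).tendsto q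

omit [T2Space M] in
theorem slice_of_pl (hA : A.IsProd) (I : Finset κ) {G : (∀ i, Cn (d i)) → M}
    {U : Set (∀ i, Cn (d i))} (hU : IsOpen U) (hG : ∀ z ∈ U, A.PL G z) {z₀ e₁ e₂ : ∀ i, Cn (d i)}
    (h1 : ∀ i ∉ I, e₁ i = 0) (h2 : ∀ i ∈ I, e₂ i = 0) (n1 : e₁ ≠ 0) (n2 : e₂ ≠ 0)
    (hc : ∀ L : ℝ, ∀ᶠ s in 𝓝[>] (0 : ℝ), ∀ z : ℂ × ℂ, ‖z‖ ≤ L * s → s ≤ (z.1 + z.2).re →
      z₀ + z.1 • e₁ + z.2 • e₂ ∈ U) :
    A.Slice (projI I) (fun w => G (z₀ + w.1 • e₁ + w.2 • e₂))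
      {w | z₀ + w.1 • e₁ + w.2 • e₂ ∈ U} := by
  have hσ : Continuous fun w : ℂ × ℂ => z₀ + w.1 • e₁ + w.2 • e₂ := by fun_prop
  refine ⟨fun u => ?_, fun u => ?_, fun u => ?_, hU.preimage hσ, hc, fun z hz => ?_,
    fun z hz a ha => ?_, fun z hz a ha => ?_⟩
  · funext i
    simp only [projI_apply]
    split_ifs <;> rfl
  · refine (pi_norm_le_iff_of_nonneg (norm_nonneg _)).2 fun i => ?_
    rw [projI_apply]
    split_ifs
    · exact norm_le_pi_norm u i
    · simp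
  · refine (pi_norm_le_iff_of_nonneg (norm_nonneg _)).2 fun i => ?_
    rw [Pi.sub_apply, projI_apply]
    split_ifs
    · simp
    · simpa using norm_le_pi_norm u i
  · exact Hol.comp (g := fun w : ℂ × ℂ => z₀ + w.1 • e₁ + w.2 • e₂) (hG _ hz).hol
      ((analyticAt_const.add (analyticAt_fst.smul analyticAt_const)).add
        (analyticAt_snd.smul analyticAt_const))
  · obtain ⟨f, -, hf⟩ := (hG _ hz).chart hA ha
    have t0 := hσ.tendsto z
    have t1 : Tendsto (fun w : ℂ × ℂ => z₀ + w.1 • e₁ + z.2 • e₂) (𝓝 z)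
        (𝓝 (z₀ + z.1 • e₁ + z.2 • e₂)) := Continuous.tendsto (by fun_prop) z
    have t2 : Tendsto (fun w : ℂ × ℂ => z₀ + z.1 • e₁ + w.2 • e₂) (𝓝 z)
        (𝓝 (z₀ + z.1 • e₁ + z.2 • e₂)) := Continuous.tendsto (by fun_prop) z
    filter_upwards [t0.eventually hf, t1.eventually hf, t2.eventually hf] with w a0 a1 a2
    rw [a0.2, a1.2, a2.2]
    funext i
    simp only [Pi.add_apply, Pi.sub_apply, projI_apply, Pi.smul_apply]
    split_ifs with hi
    · simp [h2 i hi]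
    · simp [h1 i hi]
  · obtain ⟨f, hb, hf⟩ := (hG _ hz).chart hA ha
    have e : (A.c a ∘ fun w : ℂ × ℂ => G (z₀ + w.1 • e₁ + w.2 • e₂)) =ᶠ[𝓝 z]
        fun w i => f i ((z₀ + w.1 • e₁ + w.2 • e₂) i) := by
      filter_upwards [(hσ.tendsto z).eventually hf] with w hw using hw.2
    have hd : ∀ i, HasFDerivAt (fun w : ℂ × ℂ => f i ((z₀ + w.1 • e₁ + w.2 • e₂) i))
        ((fderiv ℂ (f i) ((z₀ + z.1 • e₁ + z.2 • e₂) i)).comp
          ((ContinuousLinearMap.fst ℂ ℂ ℂ).smulRight (e₁ i) +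
            (ContinuousLinearMap.snd ℂ ℂ ℂ).smulRight (e₂ i))) z := by
      intro i
      refine (hb i).1.differentiableAt.hasFDerivAt.comp z
        (f := fun w : ℂ × ℂ => (z₀ + w.1 • e₁ + w.2 • e₂) i) ?_
      have := ((hasFDerivAt_fst (𝕜 := ℂ) (p := z)).smul_const (e₁ i)).const_add (z₀ i) |>.add
        ((hasFDerivAt_snd (𝕜 := ℂ) (p := z)).smul_const (e₂ i))
      exact this
    rw [e.fderiv_eq, (hasFDerivAt_pi.2 hd).fderiv]
    constructor
    · intro h0
      apply n1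
      funext i
      apply (hb i).2
      simpa using congrFun h0 i
    · intro h0
      apply n2
      funext i
      apply (hb i).2
      simpa using congrFun h0 i

theorem corner_ext (hA : A.IsProd) (I : Finset κ) {G : (∀ i, Cn (d i)) → M}
    {U : Set (∀ i, Cn (d i))} (hU : IsOpen U) (hG : ∀ z ∈ U, A.PL G z) {z₀ e₁ e₂ : ∀ i, Cn (d i)}
    (h1 : ∀ i ∉ I, e₁ i = 0) (h2 : ∀ i ∈ I, e₂ i = 0) (n1 : e₁ ≠ 0) (n2 : e₂ ≠ 0)
    (hc : ∀ L : ℝ, ∀ᶠ s in 𝓝[>] (0 : ℝ), ∀ z : ℂ × ℂ, ‖z‖ ≤ L * s → s ≤ (z.1 + z.2).re →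
      z₀ + z.1 • e₁ + z.2 • e₂ ∈ U) {L : ℝ} (hL : 1 ≤ L) :
    ∃ (G' : (∀ i, Cn (d i)) → M) (r : ℝ), 0 < r ∧ A.PL G' z₀ ∧ ∀ x y : ℂ, ‖x‖ ≤ r → ‖y‖ ≤ r →
      ‖x‖ ≤ L * x.re → ‖y‖ ≤ L * y.re → 0 < (x + y).re →
        G' =ᶠ[𝓝 (z₀ + x • e₁ + y • e₂)] G := by
  obtain ⟨δ, hδ, hcone⟩ := (mem_nhdsGT_iff_exists_Ioo_subset.1 (hc L))
  have hδ' : 0 < δ := hδ
  obtain ⟨s, ⟨b, hb⟩, hs0, hs1⟩ := ((slice_of_pl hA I hU hG h1 h2 n1 n2 hc).cross.and_eventually
    (Ioo_mem_nhdsGT (show 0 < δ / 3 by positivity))).exists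
  set σ : ℂ × ℂ → ∀ i, Cn (d i) := fun w => z₀ + w.1 • e₁ + w.2 • e₂ with hσ
  have mix : ∀ x y x' y' : ℂ, I.piecewise (σ (x, y)) (σ (x', y')) = σ (x, y') := by
    intro x y x' y'
    funext i
    by_cases hi : i ∈ I
    · simp [Finset.piecewise_eq_of_mem _ _ _ hi, hσ, h2 i hi]
    · simp [Finset.piecewise_eq_of_notMem _ _ _ hi, hσ, h1 i hi]
  set G' : (∀ i, Cn (d i)) → M := fun z => (A.c b).symm (I.piecewise
    (A.c b (G (I.piecewise z (σ (s, s))))) (A.c b (G (I.piecewise (σ (s, s)) z)))) with hG'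
  have hpl : ∀ x ∈ closedBall ((s / 2 : ℝ) : ℂ) s, ∀ y ∈ closedBall ((s / 2 : ℝ) : ℂ) s,
      A.PL G' (σ (x, y)) := by
    intro x hx y hy
    obtain ⟨⟨u1, s1, m1⟩, -⟩ := hb x hx
    obtain ⟨-, u2, s2, m2⟩ := hb y hy
    obtain ⟨f, bf, hf⟩ := (hG _ u1).chart hA s1
    obtain ⟨g, bg, hg⟩ := (hG _ u2).chart hA s2
    have t1 := tendsto_mix_left I (σ (x, y)) (σ (s, s))
    have t2 := tendsto_mix_right I (σ (s, s)) (σ (x, y))
    rw [mix] at t1 t2
    have ev : ∀ᶠ z in 𝓝 (σ (x, y)), I.piecewise (A.c b (G (I.piecewise z (σ (s, s)))))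
        (A.c b (G (I.piecewise (σ (s, s)) z))) =
          fun i => (if i ∈ I then f i else g i) (z i) := by
      filter_upwards [t1.eventually hf, t2.eventually hg] with z a1 a2
      rw [a1.2, a2.2]
      funext i
      by_cases hi : i ∈ I
      · simp [Finset.piecewise_eq_of_mem _ _ _ hi, hi]
      · simp [Finset.piecewise_eq_of_notMem _ _ _ hi, hi]
    have bi : Bi (fun i => if i ∈ I then f i else g i) (σ (x, y)) := by
      intro i
      by_cases hi : i ∈ I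
      · have := bf i
        simpa [hi, hσ, h2 i hi] using this
      · have := bg i
        simpa [hi, hσ, h1 i hi] using this
    refine (pl_symm b bi ?_).congr ?_
    · rw [← ev.self_of_nhds, mix, mix]
      exact norm_piecewise_lt I (m1.trans (by norm_num)) (m2.trans (by norm_num))
    · filter_upwards [ev] with z hz
      simp only [hG', hz]
  have hss : (s : ℂ) ∈ closedBall ((s / 2 : ℝ) : ℂ) s := by
    rw [mem_closedBall, Complex.dist_of_im_eq (by simp), Complex.ofReal_re, Complex.ofReal_re,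
      Real.dist_eq, abs_le]
    constructor <;> linarith
  have hev : G' =ᶠ[𝓝 (σ (s, s))] G := by
    obtain ⟨⟨u1, s1, -⟩, -⟩ := hb s hss
    obtain ⟨f, -, hf⟩ := (hG _ u1).chart hA s1
    have t1 := tendsto_mix_left I (σ (s, s)) (σ (s, s))
    have t2 := tendsto_mix_right I (σ (s, s)) (σ (s, s))
    rw [mix] at t1 t2
    filter_upwards [hf, t1.eventually hf, t2.eventually hf] with z a0 a1 a2
    rw [← (A.c b).left_inv a0.1, a0.2]
    simp only [hG', a1.2, a2.2]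
    congr 1
    funext i
    by_cases hi : i ∈ I
    · simp [Finset.piecewise_eq_of_mem _ _ _ hi]
    · simp [Finset.piecewise_eq_of_notMem _ _ _ hi]
  have hball : ∀ x : ℂ, ‖x‖ ≤ s / 2 → x ∈ closedBall ((s / 2 : ℝ) : ℂ) s := by
    intro x hx
    rw [mem_closedBall, dist_eq_norm]
    refine (norm_sub_le _ _).trans ?_
    rw [Complex.norm_real, Real.norm_eq_abs, abs_of_pos (by linarith)]
    linarith
  have hnorm : ∀ x ∈ closedBall ((s / 2 : ℝ) : ℂ) s, x.re ≤ 3 * s / 2 := by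
    intro x hx
    rw [mem_closedBall, dist_eq_norm] at hx
    have := (Complex.re_le_norm _).trans hx
    simp only [Complex.sub_re, Complex.ofReal_re] at this
    linarith
  set D : Set ℂ := closedBall ((s / 2 : ℝ) : ℂ) s ∩ {x | ‖x‖ - L * x.re ≤ 0} with hD
  have cD : Convex ℝ D := by
    refine (convex_closedBall _ _).inter ?_
    have : ConvexOn ℝ univ fun x : ℂ => ‖x‖ - L * x.re :=
      convexOn_univ_norm.sub ((L • Complex.reLm).concaveOn convex_univ)
    simpa using this.convex_le 0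
  set Z : Set (ℂ × ℂ) := D ×ˢ D ∩ {w | 0 < (w.1 + w.2).re} with hZ
  have cZ : Convex ℝ Z := by
    refine (cD.prod cD).inter (convex_halfSpace_gt (f := fun w : ℂ × ℂ => (w.1 + w.2).re) ?_ 0)
    constructor
    · intro x y; simp; ring
    · intro c x; simp; ring
  have pZ : IsPreconnected (σ '' Z) := cZ.isPreconnected.image _ (by
    apply Continuous.continuousOn; simp only [hσ]; fun_prop)
  have hid := ident (A := A) (Ψ := G') (Ψ' := G) pZ ?_ ?_ (z₀ := σ (s, s)) ?_ hev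
  · refine ⟨G', s / 2, by positivity, ?_, fun x y hx hy lx ly hxy => hid _
      ⟨(x, y), ⟨⟨⟨hball x hx, sub_nonpos.2 lx⟩, hball y hy, sub_nonpos.2 ly⟩, hxy⟩, rfl⟩⟩
    have := hpl 0 (hball 0 (by simp; positivity)) 0 (hball 0 (by simp; positivity))
    simpa [hσ] using this
  · rintro _ ⟨⟨x, y⟩, ⟨⟨hx, hy⟩, -⟩, rfl⟩
    exact (hpl x hx.1 y hy.1).hol
  · rintro _ ⟨⟨x, y⟩, ⟨⟨hx, hy⟩, hxy⟩, rfl⟩
    refine (hG _ (hcone (a := (x + y).re) ⟨hxy, ?_⟩ (x, y) ?_ le_rfl)).hol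
    · have := hnorm x hx.1
      have := hnorm y hy.1
      rw [Complex.add_re]
      linarith
    · have a1 : ‖x‖ ≤ L * x.re := sub_nonpos.1 hx.2
      have a2 : ‖y‖ ≤ L * y.re := sub_nonpos.1 hy.2
      rw [Prod.norm_def, max_le_iff, Complex.add_re, mul_add]
      constructor <;> linarith [norm_nonneg x, norm_nonneg y]
  · have : (s : ℂ) ∈ D := ⟨hss, by
      simp only [mem_ofPred_eq, Complex.norm_real, Real.norm_eq_abs, Complex.ofReal_re,
        abs_of_pos hs0]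
      nlinarith⟩
    exact ⟨(s, s), ⟨⟨this, this⟩, by simpa using hs0⟩, rfl⟩

/-- The points of the rectangle spanned by `a` and `z`. -/
noncomputable def rp (I : Finset κ) (a z : ∀ i, Cn (d i)) (s t : ℝ) : ∀ i, Cn (d i) :=
  I.piecewise (a + s • (z - a)) (a + t • (z - a))

theorem rp_apply (I : Finset κ) (a z : ∀ i, Cn (d i)) (s t : ℝ) (i : κ) :
    rp I a z s t i = a i + (if i ∈ I then s else t) • (z i - a i) := by
  by_cases hi : i ∈ I
  · simp [rp, Finset.piecewise_eq_of_mem _ _ _ hi, hi]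
  · simp [rp, Finset.piecewise_eq_of_notMem _ _ _ hi, hi]

theorem rp_rp (I : Finset κ) (a z : ∀ i, Cn (d i)) (s t s' t' : ℝ) :
    rp I a (rp I a z s t) s' t' = rp I a z (s' * s) (t' * t) := by
  funext i
  simp only [rp_apply, add_sub_cancel_left, smul_smul]
  split_ifs <;> rfl

theorem rp_zero (I : Finset κ) (a z : ∀ i, Cn (d i)) : rp I a z 0 0 = a := by
  funext i; simp [rp_apply]

theorem rp_one (I : Finset κ) (a z : ∀ i, Cn (d i)) : rp I a z 1 1 = z := by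
  funext i; simp [rp_apply]

theorem rp_self (I : Finset κ) (a : ∀ i, Cn (d i)) (s t : ℝ) : rp I a a s t = a := by
  funext i; simp [rp_apply]

theorem continuous_rp (I : Finset κ) (a : ∀ i, Cn (d i)) :
    Continuous fun p : (∀ i, Cn (d i)) × ℝ × ℝ => rp I a p.1 p.2.1 p.2.2 := by
  refine continuous_pi fun i => ?_
  simp only [rp_apply]
  split_ifs <;> fun_prop

/-- `G` continues the germ of `F` at `a` over the rectangle spanned by `a` and `z`. -/
def Cont (A : Atl M (∀ i, Cn (d i))) (I : Finset κ) (F : (∀ i, Cn (d i)) → M) (a : ∀ i, Cn (d i))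
    (G : (∀ i, Cn (d i)) → M) (z : ∀ i, Cn (d i)) : Prop :=
  G =ᶠ[𝓝 a] F ∧ ∀ s ∈ Icc (0 : ℝ) 1, ∀ t ∈ Icc (0 : ℝ) 1, A.PL G (rp I a z s t)

variable {I : Finset κ} {F G G' : (∀ i, Cn (d i)) → M} {a z : ∀ i, Cn (d i)}

omit [T2Space M] in
theorem Cont.eventually (h : A.Cont I F a G z) : ∀ᶠ z' in 𝓝 z, A.Cont I F a G z' := by
  have hK : IsCompact (Icc (0 : ℝ) 1 ×ˢ Icc (0 : ℝ) 1) := isCompact_Icc.prod isCompact_Icc
  have := hK.eventually_forall_of_forall_eventually (x₀ := z)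
    (P := fun z' p => A.PL G (rp I a z' p.1 p.2)) (fun p hp =>
      ((continuous_rp I a).tendsto (z, p)).eventually (h.2 _ hp.1 _ hp.2).eventually)
  filter_upwards [this] with z' hz' using ⟨h.1, fun s hs t ht => hz' (s, t) ⟨hs, ht⟩⟩

omit [T2Space M] in
theorem Cont.sub (h : A.Cont I F a G z) {s t : ℝ} (hs : s ∈ Icc (0 : ℝ) 1)
    (ht : t ∈ Icc (0 : ℝ) 1) : A.Cont I F a G (rp I a z s t) :=
  ⟨h.1, fun s' hs' t' ht' => by
    rw [rp_rp]
    exact h.2 _ (unitInterval.mul_mem hs' hs) _ (unitInterval.mul_mem ht' ht)⟩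

theorem Cont.unique (h : A.Cont I F a G z) (h' : A.Cont I F a G' z) : G z = G' z := by
  have pZ : IsPreconnected ((fun p : ℝ × ℝ => rp I a z p.1 p.2) '' Icc 0 1 ×ˢ Icc 0 1) :=
    (isPreconnected_Icc.prod isPreconnected_Icc).image _
      ((continuous_rp I a).comp (continuous_const.prodMk continuous_id)).continuousOn
  refine (ident (A := A) (Ψ := G) (Ψ' := G') pZ ?_ ?_ (z₀ := a) ?_ (h.1.trans h'.1.symm) z
    ?_).self_of_nhds
  · rintro _ ⟨p, hp, rfl⟩
    exact (h.2 _ hp.1 _ hp.2).hol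
  · rintro _ ⟨p, hp, rfl⟩
    exact (h'.2 _ hp.1 _ hp.2).hol
  · exact ⟨(0, 0), by simp, rp_zero I a z⟩
  · exact ⟨(1, 1), by simp, rp_one I a z⟩

open Classical in
/-- The maximal continuation over rectangles. -/
noncomputable def ghat (A : Atl M (∀ i, Cn (d i))) (I : Finset κ) (F : (∀ i, Cn (d i)) → M)
    (a z : ∀ i, Cn (d i)) : M :=
  if h : ∃ G, A.Cont I F a G z then h.choose z else F z

theorem Cont.ghat_eq (h : A.Cont I F a G z) : A.ghat I F a =ᶠ[𝓝 z] G := by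
  filter_upwards [h.eventually] with z' hz'
  have e : ∃ G, A.Cont I F a G z' := ⟨G, hz'⟩
  rw [ghat, dif_pos e]
  exact e.choose_spec.unique hz'

theorem Cont.ghat_pl (h : A.Cont I F a G z) : A.PL (A.ghat I F a) z := by
  have := h.2 1 (by simp) 1 (by simp)
  rw [rp_one] at this
  exact this.congr h.ghat_eq

theorem corner (hA : A.IsProd) (hF : A.PL F a) {e₁ e₂ : ∀ i, Cn (d i)} {α β : ℂ}
    (h1 : ∀ i ∉ I, e₁ i = 0) (h2 : ∀ i ∈ I, e₂ i = 0) (n1 : e₁ ≠ 0) (n2 : e₂ ≠ 0)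
    (hα : 0 < α.re) (hβ : 0 < β.re) (hz : a = z + α • e₁ + β • e₂)
    (hr : ∀ l ∈ Icc (0 : ℝ) 1, ∀ m ∈ Icc (0 : ℝ) 1, l + m < 2 → ∃ G, A.Cont I F a G (rp I a z l m))
    (hc : ∀ L : ℝ, ∀ᶠ s in 𝓝[>] (0 : ℝ), ∀ w : ℂ × ℂ, ‖w‖ ≤ L * s → s ≤ (w.1 + w.2).re →
      ∃ G, A.Cont I F a G (z + w.1 • e₁ + w.2 • e₂)) : ∃ G, A.Cont I F a G z := by
  classical
  have hU : IsOpen {z | ∃ G, A.Cont I F a G z} := isOpen_iff_mem_nhds.2 fun z ⟨G, hG⟩ => by
    filter_upwards [hG.eventually] with z' hz' using ⟨G, hz'⟩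
  set L : ℝ := 1 + ‖α‖ / α.re + ‖β‖ / β.re with hL
  have p1 : 0 ≤ ‖α‖ / α.re := by positivity
  have p2 : 0 ≤ ‖β‖ / β.re := by positivity
  have l1 : ‖α‖ ≤ L * α.re := by
    rw [← div_le_iff₀ hα]; linarith
  have l2 : ‖β‖ ≤ L * β.re := by
    rw [← div_le_iff₀ hβ]; linarith
  obtain ⟨G', r, hr0, hG', hev⟩ := corner_ext hA I (G := A.ghat I F a) hU
    (fun z ⟨G, hG⟩ => hG.ghat_pl) h1 h2 n1 n2 hc (L := L) (by linarith)
  have hrp : ∀ l m : ℝ, rp I a z l m = z + (((1 - l : ℝ) : ℂ) * α) • e₁ +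
      (((1 - m : ℝ) : ℂ) * β) • e₂ := by
    intro l m
    funext i
    rw [rp_apply, hz]
    by_cases hi : i ∈ I
    · simp only [hi, if_true, Pi.add_apply, Pi.smul_apply, h2 i hi, smul_zero, add_zero,
        mul_smul, Complex.coe_smul]
      module
    · simp only [hi, if_false, Pi.add_apply, Pi.smul_apply, h1 i hi, smul_zero, add_zero,
        mul_smul, Complex.coe_smul]
      module
  have q1 : 0 < ‖e₁‖ := norm_pos_iff.2 n1
  have q2 : 0 < ‖e₂‖ := norm_pos_iff.2 n2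
  set δ := r * min ‖e₁‖ ‖e₂‖ with hδ
  have hδ0 : 0 < δ := mul_pos hr0 (lt_min q1 q2)
  set F' : (∀ i, Cn (d i)) → M := fun p => if p ∈ ball z δ then G' p else A.ghat I F a p with hF'
  have key : ∀ l ∈ Icc (0 : ℝ) 1, ∀ m ∈ Icc (0 : ℝ) 1, l + m < 2 →
      F' =ᶠ[𝓝 (rp I a z l m)] A.ghat I F a := by
    intro l hl m hm hlm
    by_cases hp : rp I a z l m ∈ closedBall z δ
    · have hn : ‖(((1 - l : ℝ) : ℂ) * α) • e₁ + (((1 - m : ℝ) : ℂ) * β) • e₂‖ ≤ δ := by
        rwa [mem_closedBall, dist_eq_norm, hrp, add_assoc, add_sub_cancel_left] at hp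
      have b1 : ‖(((1 - l : ℝ) : ℂ) * α) • e₁‖ ≤ δ := by
        refine (pi_norm_le_iff_of_nonneg hδ0.le).2 fun i => ?_
        by_cases hi : i ∈ I
        · have := (norm_le_pi_norm _ i).trans hn
          simpa only [Pi.add_apply, Pi.smul_apply, h2 i hi, smul_zero, add_zero] using this
        · simp [h1 i hi, hδ0.le]
      have b2 : ‖(((1 - m : ℝ) : ℂ) * β) • e₂‖ ≤ δ := by
        refine (pi_norm_le_iff_of_nonneg hδ0.le).2 fun i => ?_
        by_cases hi : i ∈ I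
        · simp [h2 i hi, hδ0.le]
        · have := (norm_le_pi_norm _ i).trans hn
          simpa only [Pi.add_apply, Pi.smul_apply, h1 i hi, smul_zero, zero_add] using this
      rw [norm_smul] at b1 b2
      have c1 : δ ≤ r * ‖e₁‖ := mul_le_mul_of_nonneg_left (min_le_left _ _) hr0.le
      have c2 : δ ≤ r * ‖e₂‖ := mul_le_mul_of_nonneg_left (min_le_right _ _) hr0.le
      have u1 : 0 ≤ 1 - l := sub_nonneg.2 hl.2
      have u2 : 0 ≤ 1 - m := sub_nonneg.2 hm.2
      have := hev (((1 - l : ℝ) : ℂ) * α) (((1 - m : ℝ) : ℂ) * β)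
        (le_of_mul_le_mul_right (b1.trans c1) q1) (le_of_mul_le_mul_right (b2.trans c2) q2)
        (by rw [norm_mul, Complex.norm_real, Real.norm_of_nonneg u1, Complex.re_ofReal_mul]
            nlinarith)
        (by rw [norm_mul, Complex.norm_real, Real.norm_of_nonneg u2, Complex.re_ofReal_mul]
            nlinarith)
        (by rw [Complex.add_re, Complex.re_ofReal_mul, Complex.re_ofReal_mul]
            have a5 := mul_nonneg u1 hα.le
            have a6 := mul_nonneg u2 hβ.le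
            rcases lt_or_ge l 1 with c | c
            · have := mul_pos (sub_pos.2 c) hα
              linarith
            · have := mul_pos (show 0 < 1 - m by linarith) hβ
              linarith)
      rw [← hrp] at this
      filter_upwards [this] with p hp
      simp only [hF', hp, ite_self]
    · filter_upwards [isClosed_closedBall.isOpen_compl.mem_nhds hp] with p hp
      exact if_neg fun h => hp (ball_subset_closedBall h)
  have ha : A.Cont I F a F a := ⟨EventuallyEq.rfl, fun s _ t _ => by rwa [rp_self]⟩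
  refine ⟨F', ?_, fun l hl m hm => ?_⟩
  · have := key 0 (by simp) 0 (by simp) (by norm_num)
    rw [rp_zero] at this
    exact this.trans ha.ghat_eq
  · by_cases hlm : l + m < 2
    · obtain ⟨G, hG⟩ := hr l hl m hm hlm
      exact hG.ghat_pl.congr (key l hl m hm hlm)
    · obtain rfl : l = 1 := by linarith [hl.2, hm.2]
      obtain rfl : m = 1 := by linarith [hl.2, hm.2]
      rw [rp_one]
      refine hG'.congr ?_
      filter_upwards [ball_mem_nhds z hδ0] with p hp using if_pos hp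

theorem cont_of_legs (hA : A.IsProd) (hF : A.PL F a) (hG : G =ᶠ[𝓝 a] F)
    (h : ∀ s ∈ Icc (0 : ℝ) 1, A.PL F (rp I a z s 0) ∧ A.PL G (rp I a z 0 s)) :
    ∃ G, A.Cont I F a G z := by
  have hU : IsOpen {z | ∃ G, A.Cont I F a G z} := isOpen_iff_mem_nhds.2 fun z ⟨G, hG⟩ => by
    filter_upwards [hG.eventually] with z' hz' using ⟨G, hz'⟩
  set e₁ : ∀ i, Cn (d i) := fun i => if i ∈ I then z i - a i else 0 with he₁
  set e₂ : ∀ i, Cn (d i) := fun i => if i ∈ I then 0 else z i - a i with he₂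
  have hrp : ∀ (s t : ℂ) (l m : ℝ), rp I a (a + s • e₁ + t • e₂) l m =
      a + ((l : ℂ) * s) • e₁ + ((m : ℂ) * t) • e₂ := by
    intro s t l m
    funext i
    rw [rp_apply]
    by_cases hi : i ∈ I <;> simp [hi, he₁, he₂, mul_smul]
  have hz : a + (1 : ℂ) • e₁ + (1 : ℂ) • e₂ = z := by
    funext i
    by_cases hi : i ∈ I <;> simp [hi, he₁, he₂]
  have hrz : ∀ l m : ℝ, rp I a z l m = a + (l : ℂ) • e₁ + (m : ℂ) • e₂ := by
    intro l m
    have := hrp 1 1 l m
    rwa [hz, mul_one, mul_one] at this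
  by_cases n1 : e₁ = 0
  · refine ⟨G, hG, fun s _ t ht => ?_⟩
    have := (h t ht).2
    rw [hrz, n1] at this ⊢
    simpa using this
  by_cases n2 : e₂ = 0
  · refine ⟨F, EventuallyEq.rfl, fun s hs t _ => ?_⟩
    have := (h s hs).1
    rw [hrz, n2] at this ⊢
    simpa using this
  have := contact (N := {w : ℂ × ℂ | ∃ G, A.Cont I F a G (a + w.1 • e₁ + w.2 • e₂)})
    (hU.preimage (f := fun w : ℂ × ℂ => a + w.1 • e₁ + w.2 • e₂) (by fun_prop)) ?_ ?_
  · simpa only [mem_ofPred_eq, hz] using this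
  · intro s hs
    refine ⟨⟨F, EventuallyEq.rfl, fun l hl m _ => ?_⟩, G, hG, fun l _ m hm => ?_⟩
    · have := (h _ (unitInterval.mul_mem hl hs)).1
      rw [hrz] at this
      rw [hrp]
      simpa using this
    · have := (h _ (unitInterval.mul_mem hm hs)).2
      rw [hrz] at this
      rw [hrp]
      simpa using this
  · intro s₀ t₀ ν₁ ν₂ p1 p2 hr hc
    have m1 : ν₁ ≠ 0 := by rintro rfl; simp at p1
    have m2 : ν₂ ≠ 0 := by rintro rfl; simp at p2
    refine corner hA hF (e₁ := (-ν₁⁻¹) • e₁) (e₂ := (-ν₂⁻¹) • e₂) (α := ν₁ * s₀) (β := ν₂ * t₀)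
      (fun i hi => by simp [he₁, hi]) (fun i hi => by simp [he₂, hi])
      (smul_ne_zero (by simpa using m1) n1) (smul_ne_zero (by simpa using m2) n2) p1 p2 ?_ ?_ ?_
    · rw [smul_smul, smul_smul, show ν₁ * s₀ * -ν₁⁻¹ = -s₀ by field_simp,
        show ν₂ * t₀ * -ν₂⁻¹ = -t₀ by field_simp]
      module
    · intro l hl m hm hlm
      rw [hrp]
      exact hr l hl m hm hlm
    · intro L
      filter_upwards [hc L] with r hr w a1 a2
      have := hr w a1 a2
      convert this using 3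
      module

theorem rc (hA : A.IsProd) (I : Finset κ) {F : (∀ i, Cn (d i)) → M} {a : ∀ i, Cn (d i)}
    (hF : A.PL F a) : ∃ G : (∀ i, Cn (d i)) → M, G =ᶠ[𝓝 a] F ∧ ∀ z : ∀ i, Cn (d i),
      (∀ s ∈ Icc (0 : ℝ) 1, A.PL F (I.piecewise (a + s • (z - a)) a) ∧
        A.PL F (I.piecewise a (a + s • (z - a)))) →
      ∀ s ∈ Icc (0 : ℝ) 1, ∀ t ∈ Icc (0 : ℝ) 1,
        A.PL G (I.piecewise (a + s • (z - a)) (a + t • (z - a))) := by
  have ha : A.Cont I F a F a := ⟨EventuallyEq.rfl, fun s _ t _ => by rwa [rp_self]⟩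
  refine ⟨A.ghat I F a, ha.ghat_eq, fun z hz s hs t ht => ?_⟩
  obtain ⟨G, hG⟩ := cont_of_legs (I := I) (z := z) hA hF EventuallyEq.rfl fun s hs => by
    simpa [rp] using hz s hs
  exact (hG.sub hs ht).ghat_pl

end Vale.Agent.P278.Atl
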