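import Vale.Agent.P278.RC
import Vale.Agent.P278.Mono

/-! P278 task Retr: global retractions to the leaves. -/

open Metric Set Filter Topology

namespace Vale.Agent.P278.Atl

set_option linter.unusedSectionVars false
set_option linter.unusedSimpArgs false

variable {M κ : Type} [TopologicalSpace M] [T2Space M] [Fintype κ] [DecidableEq κ] {d : κ → ℕ}
  {A : Atl M (∀ i, Cn (d i))}

theorem mix_mix_left (I : Finset κ) (p q r : ∀ i, Cn (d i)) :
    I.piecewise (I.piecewise p q) r = I.piecewise p r := by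
  funext i; by_cases hi : i ∈ I <;> simp [hi]

theorem mix_mix_right (I : Finset κ) (p q r : ∀ i, Cn (d i)) :
    I.piecewise p (I.piecewise q r) = I.piecewise p r := by
  funext i; by_cases hi : i ∈ I <;> simp [hi]

theorem mix_self (I : Finset κ) (p : ∀ i, Cn (d i)) : I.piecewise p p = p := by
  funext i; by_cases hi : i ∈ I <;> simp [hi]

theorem mem_tgt {a : A.ι} {p : ∀ i, Cn (d i)} (h : ‖p‖ < 4) : p ∈ (A.c a).target := by
  rw [A.tgt]; simpa using h

theorem bi_id (z : ∀ i, Cn (d i)) : Bi (fun _ p => p) z := fun i =>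
  ⟨analyticAt_id, by simpa using Function.injective_id⟩

theorem pl_symm' (a : A.ι) {z : ∀ i, Cn (d i)} (h : ‖z‖ < 4) : A.PL (A.c a).symm z :=
  pl_symm a (bi_id z) h

theorem ch_mem' (m : M) : m ∈ (A.c (A.ch m)).source := (A.cover m).choose_spec.1

/-- The projection to the plaque through `w`. -/
noncomputable def pj (A : Atl M (∀ i, Cn (d i))) (I : Finset κ) (a : A.ι) (w m : M) : M :=
  (A.c a).symm (I.piecewise (A.c a m) (A.c a w))

variable {I : Finset κ} {G : (∀ i, Cn (d i)) → M} {q : ∀ i, Cn (d i)}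

theorem pj_comp (hA : A.IsProd) (h : A.PL G q) {a : A.ι} (ha : G q ∈ (A.c a).source) :
    ∀ᶠ q' in 𝓝 q, A.pj I a (G q) (G q') = G (I.piecewise q' q) := by
  obtain ⟨f, -, hf⟩ := h.chart hA ha
  have t := tendsto_mix_left I q q
  rw [mix_self] at t
  filter_upwards [hf, t.eventually hf] with q' a1 a2
  rw [← (A.c a).left_inv a2.1, a2.2, pj, a1.2, hf.self_of_nhds.2]
  congr 1
  funext i; by_cases hi : i ∈ I <;> simp [hi]

theorem PL.nhds_le (h : A.PL G q) : 𝓝 (G q) ≤ map G (𝓝 q) := by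
  obtain ⟨a, f, hb, hf⟩ := h
  obtain ⟨g, bg, g0, hg⟩ := hb.inverse
  have h0 := hf.self_of_nhds
  have t1 : Tendsto (A.c a) (𝓝 (G q)) (𝓝 fun i => f i (q i)) := by
    rw [← h0.2]; exact (A.c a).continuousAt h0.1
  have t2 : Tendsto (fun m i => g i (A.c a m i)) (𝓝 (G q)) (𝓝 q) := by
    have := bg.analyticAt.continuousAt.tendsto.comp t1
    simp only [g0] at this
    exact this
  have e : ∀ᶠ m in 𝓝 (G q), G (fun i => g i (A.c a m i)) = m := by
    have e1 : ∀ᶠ m in 𝓝 (G q), ∀ i, f i (g i (A.c a m i)) = A.c a m i :=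
      eventually_all.2 fun i => (((continuous_apply i).tendsto _).comp t1).eventually (hg i)
    filter_upwards [e1, t2.eventually hf, (A.c a).open_source.mem_nhds h0.1] with m a1 a2 a3
    refine (A.c a).injOn a2.1 a3 ?_
    rw [a2.2]
    exact funext a1
  intro s hs
  filter_upwards [e, t2.eventually hs] with m a1 a2
  rwa [← a1]

theorem PL.cancel (h : A.PL G q) {S S' : M → M} (he : ∀ᶠ q' in 𝓝 q, S (G q') = S' (G q')) :
    S =ᶠ[𝓝 (G q)] S' := h.nhds_le he

/-- Germs of holonomy maps to the leaf through `z`. -/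
inductive HT (A : Atl M (∀ i, Cn (d i))) (I : Finset κ) (z : M) : M → (M → M) → Prop
  | base {w : M} {a : A.ι} : A.Leaf I z w → w ∈ (A.c a).source → HT A I z w (A.pj I a w)
  | step {w w' : M} {S : M → M} {a : A.ι} : HT A I z w S → w ∈ (A.c a).source →
      w' ∈ (A.c a).source → (∀ i ∈ I, A.c a w i = A.c a w' i) →
      HT A I z w' fun m => S (A.pj I a w m)
  | congr {w : M} {S S' : M → M} : HT A I z w S → S' =ᶠ[𝓝 w] S → HT A I z w S'

variable {z : M}

theorem pj_eq {a : A.ι} {w w' : M} (hw : w ∈ (A.c a).source)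
    (h : ∀ i ∈ I, A.c a w i = A.c a w' i) : A.pj I a w w' = w := by
  rw [pj]
  have : I.piecewise (A.c a w') (A.c a w) = A.c a w := by
    funext i; by_cases hi : i ∈ I <;> simp [hi, h]
  rw [this, (A.c a).left_inv hw]

theorem HT.leaf {w : M} {S : M → M} (h : A.HT I z w S) : A.Leaf Iᶜ w (S w) := by
  induction h with
  | base _ ha => rw [pj_eq ha fun _ _ => rfl]; exact Relation.ReflTransGen.refl
  | step _ ha ha' hi ih =>
    simp only [pj_eq ha hi]
    exact Relation.ReflTransGen.head ⟨_, ha', ha, fun i h => (hi i (by simpa using h)).symm⟩ ih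
  | congr _ he ih => rw [he.self_of_nhds]; exact ih

/-- The germ that corresponds to `Φ` under `G` is a holonomy germ. -/
def RH (A : Atl M (∀ i, Cn (d i))) (I : Finset κ) (z : M) (G Φ : (∀ i, Cn (d i)) → M)
    (q : ∀ i, Cn (d i)) : Prop :=
  ∀ S : M → M, (∀ᶠ q' in 𝓝 q, S (G q') = Φ q') → A.HT I z (G q) S

theorem rh_local (hA : A.IsProd) {Φ : (∀ i, Cn (d i)) → M}
    (hΦ : ∀ p p', Φ (I.piecewise p p') = Φ p) (h : A.PL G q) :
    ∃ N ∈ 𝓝 q, ∀ q₁ ∈ N, ∀ q₂ ∈ N, (∀ i ∈ I, q₁ i = q₂ i) →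
      A.RH I z G Φ q₁ → A.RH I z G Φ q₂ := by
  obtain ⟨b, f, -, hf⟩ := id h
  refine ⟨_, hf.eventually_nhds.and h.eventually, fun q₁ ⟨f1, _⟩ q₂ ⟨f2, p2⟩ hq h1 S hS => ?_⟩
  have m2 : I.piecewise q₁ q₂ = q₂ := by
    funext i; by_cases hi : i ∈ I <;> simp [hi, hq]
  have t := tendsto_mix_left I q₁ q₂
  rw [m2] at t
  have s1 := f1.self_of_nhds
  have s2 := f2.self_of_nhds
  have k1 : A.HT I z (G q₁) fun m => S (A.pj I b (G q₂) m) := by
    apply h1
    filter_upwards [f1, t.eventually f2, t.eventually hS] with q' a1 a2 a3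
    rw [← hΦ q' q₂, ← a3, ← (A.c b).left_inv a2.1, a2.2, pj, a1.2, s2.2]
    congr 2
    funext i; by_cases hi : i ∈ I <;> simp [hi]
  refine (k1.step s1.1 s2.1 fun i hi => by rw [s1.2, s2.2]; simp [hq i hi]).congr (p2.cancel ?_)
  have t2 := tendsto_mix_left I q₂ q₂
  rw [mix_self] at t2
  filter_upwards [hS, t2.eventually hS, pj_comp (I := I) hA p2 s2.1, f2] with q' a1 a2 a3 a4
  rw [a1, ← hΦ q' q₂, ← a2, ← a3]
  congr 1
  simp only [pj]
  rw [(A.c b).right_inv (mem_tgt (norm_piecewise_lt I (norm_lt a4.1) (norm_lt s1.1))),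
    mix_mix_left]

theorem rh_segment (hA : A.IsProd) {Φ : (∀ i, Cn (d i)) → M}
    (hΦ : ∀ p p', Φ (I.piecewise p p') = Φ p) {p u v : ∀ i, Cn (d i)}
    (h : ∀ t ∈ Icc (0 : ℝ) 1, A.PL G (I.piecewise p (u + t • v)))
    (h1 : A.RH I z G Φ (I.piecewise p (u + v))) : A.RH I z G Φ (I.piecewise p u) := by
  have hc : Continuous fun t : ℝ => I.piecewise p (u + t • v) :=
    (continuous_mix I).comp (continuous_const.prodMk (by fun_prop))
  have := (isPreconnected_Icc (a := (0 : ℝ)) (b := 1)).induction₂'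
    (fun t t' => A.RH I z G Φ (I.piecewise p (u + t • v)) →
      A.RH I z G Φ (I.piecewise p (u + t' • v))) (fun t ht => ?_)
    (fun _ _ _ _ _ _ a b c => b (a c)) (x := 1) (y := 0) (by simp) (by simp)
  · simpa using this (by simpa using h1)
  · obtain ⟨N, hN, hN'⟩ := rh_local (z := z) hA hΦ (h t ht)
    filter_upwards [nhdsWithin_le_nhds ((hc.tendsto t).eventually hN)] with t' ht'
    exact ⟨hN' _ (mem_of_mem_nhds hN) _ ht' fun i hi => by simp [hi],
      hN' _ ht' _ (mem_of_mem_nhds hN) fun i hi => by simp [hi]⟩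

theorem HT.ext (hA : A.IsProd) {B : Set (∀ i, Cn (d i))} (hB : Convex ℝ B) {p₀ : ∀ i, Cn (d i)}
    (hp₀ : p₀ ∈ B) {w : M} {S : M → M} (h : A.HT I z w S) :
    ∀ (G : (∀ i, Cn (d i)) → M) (y : ∀ i, Cn (d i)), (∀ p ∈ B, A.PL G (I.piecewise p y)) →
      G (I.piecewise p₀ y) = w → ∃ (F : (∀ i, Cn (d i)) → M) (y' : ∀ i, Cn (d i)),
        (∀ p ∈ B, A.PL F (I.piecewise p y')) ∧
        (∀ᶠ q in 𝓝 (I.piecewise p₀ y), S (G q) = F (I.piecewise q y')) ∧
        ∀ p ∈ B, A.RH I z G (fun q => F (I.piecewise q y')) (I.piecewise p y) := by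
  induction h with
  | @base w a hl ha =>
    intro G y hG hw
    subst hw
    refine ⟨G, y, hG, ?_, fun p hp S hS => ?_⟩
    · filter_upwards [pj_comp (I := I) hA (hG p₀ hp₀) ha] with q hq
      rw [hq, mix_mix_right]
    · have hl' : A.Leaf I (G (I.piecewise p₀ y)) (G (I.piecewise p y)) := by
        refine leaf_of_pl (fun i hi => by simp [hi]) fun t ht => ?_
        have : I.piecewise p₀ y + t • (I.piecewise p y - I.piecewise p₀ y) =
            I.piecewise (p₀ + t • (p - p₀)) y := by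
          funext i; by_cases hi : i ∈ I <;> simp [hi]
        rw [this]
        exact hG _ (hB.add_smul_sub_mem hp₀ hp ht)
      refine (HT.base (hl.trans hl') (ch_mem' _)).congr ((hG p hp).cancel ?_)
      filter_upwards [hS, pj_comp (I := I) hA (hG p hp) (ch_mem' _)] with q a1 a2
      rw [a1, a2, mix_mix_right]
  | @congr w S S' _ he ih =>
    intro G y hG hw
    obtain ⟨F, y', h1, h2, h3⟩ := ih G y hG hw
    refine ⟨F, y', h1, ?_, h3⟩
    subst hw
    filter_upwards [h2, (hG p₀ hp₀).hol.1.eventually he] with q a1 a2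
    rw [a2, a1]
  | @step w w' S a _ ha ha' hi ih =>
    intro G y hG hw
    subst hw
    obtain ⟨f, bf, hf⟩ := (hG p₀ hp₀).chart hA ha'
    obtain ⟨g, bg, g0, hg⟩ := bf.inverse
    have s0 := hf.self_of_nhds.2
    set v₀ := A.c a (G (I.piecewise p₀ y)) with hv₀
    set v₁ := A.c a w with hv₁
    set k : ∀ i, Cn (d i) → Cn (d i) := fun i => if i ∈ I then fun x => x else g i with hk
    set l : ∀ i, Cn (d i) → Cn (d i) := fun i => if i ∈ I then f i else fun x => x with hl
    set G₁ : (∀ i, Cn (d i)) → M := fun u => G fun i => k i (u i) with hG₁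
    set G₂ : (∀ i, Cn (d i)) → M := fun u => (A.c a).symm fun i => l i (u i) with hG₂
    have kb : ∀ p, Bi k (I.piecewise p v₀) := by
      intro p i
      by_cases hi : i ∈ I
      · simpa [hk, hi] using bi_id p i
      · have := bg i
        simpa [hk, hi, s0] using this
    have k0 : ∀ p, (fun i => k i (I.piecewise p v₀ i)) = I.piecewise p y := by
      intro p
      funext i
      by_cases hi : i ∈ I
      · simp [hk, hi]
      · have := g0 i
        simpa [hk, hi, s0] using this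
    have kt : ∀ p, Tendsto (fun (u : ∀ i, Cn (d i)) i => k i (u i)) (𝓝 (I.piecewise p v₀))
        (𝓝 (I.piecewise p y)) := by
      intro p
      have := (kb p).analyticAt.continuousAt.tendsto
      rwa [k0] at this
    have p1 : ∀ p ∈ B, A.PL G₁ (I.piecewise p v₀) := fun p hp =>
      PL.comp (by rw [k0]; exact hG p hp) (kb p)
    have l0 : ∀ v, (fun i => l i (I.piecewise p₀ v i)) = I.piecewise v₀ v := by
      intro v
      funext i
      by_cases hi : i ∈ I <;> simp [hl, hi, s0]
    have p2 : ∀ v, ‖v‖ < 4 → A.PL G₂ (I.piecewise p₀ v) := by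
      intro v hv
      refine pl_symm a (fun i => ?_) (by rw [l0]; exact norm_piecewise_lt I (norm_lt ha') hv)
      by_cases hi : i ∈ I
      · have := bf i
        simpa [hl, hi] using this
      · simpa [hl, hi] using bi_id v i
    have e12 : G₂ =ᶠ[𝓝 (I.piecewise p₀ v₀)] G₁ := by
      have e1 : ∀ᶠ u in 𝓝 (I.piecewise p₀ v₀), ∀ i, i ∉ I → f i (g i (u i)) = u i := by
        refine eventually_all.2 fun i => ?_
        by_cases hi : i ∈ I
        · simp [hi]
        · have t := (continuous_apply i).tendsto (I.piecewise p₀ v₀)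
          have e : I.piecewise p₀ v₀ i = f i (I.piecewise p₀ y i) := by simp [hi, s0]
          rw [e] at t
          filter_upwards [t.eventually (hg i)] with u hu _ using hu
      filter_upwards [e1, (kt p₀).eventually hf] with u a1 a2
      simp only [hG₁, hG₂]
      rw [← (A.c a).left_inv a2.1, a2.2]
      congr 1
      funext i
      by_cases hi : i ∈ I
      · simp [hk, hl, hi]
      · simp [hk, hl, hi, a1 i hi]
    have hv : ∀ t ∈ Icc (0 : ℝ) 1, ‖v₀ + t • (v₁ - v₀)‖ < 4 := fun t ht => by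
      simpa using (convex_ball (0 : ∀ i, Cn (d i)) 4).add_smul_sub_mem
        (by simpa using norm_lt ha') (by simpa using norm_lt ha) ht
    have hrp : ∀ p v s t, rp I (I.piecewise p₀ v₀) (I.piecewise p v) s t =
        I.piecewise (p₀ + s • (p - p₀)) (v₀ + t • (v - v₀)) := by
      intro p v s t
      funext i
      rw [rp_apply]
      by_cases hi : i ∈ I <;> simp [hi]
    set Gh := A.ghat I G₁ (I.piecewise p₀ v₀) with hGh
    have c1 : ∀ p ∈ B, Gh =ᶠ[𝓝 (I.piecewise p v₀)] G₁ := fun p hp =>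
      Cont.ghat_eq ⟨EventuallyEq.rfl, fun s hs t _ => by
        rw [hrp]
        simpa using p1 _ (hB.add_smul_sub_mem hp₀ hp hs)⟩
    have c2 : Gh =ᶠ[𝓝 (I.piecewise p₀ v₁)] G₂ :=
      Cont.ghat_eq ⟨e12, fun s _ t ht => by
        rw [hrp]
        simpa using p2 _ (hv t ht)⟩
    have c3 : ∀ p ∈ B, ∀ t ∈ Icc (0 : ℝ) 1, A.PL Gh (I.piecewise p (v₀ + t • (v₁ - v₀))) := by
      intro p hp t ht
      obtain ⟨G', hG'⟩ := cont_of_legs (I := I) (z := I.piecewise p v₁) hA (p1 p₀ hp₀) e12
        fun s hs => by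
          rw [hrp, hrp]
          exact ⟨by simpa using p1 _ (hB.add_smul_sub_mem hp₀ hp hs), by simpa using p2 _ (hv s hs)⟩
      have := (hG'.sub (s := 1) (by simp) ht).ghat_pl
      rw [hrp] at this
      simpa using this
    obtain ⟨F, y', h1, h2, h3⟩ := ih Gh v₁ (fun p hp => by simpa using c3 p hp 1 (by simp)) (by
      rw [c2.self_of_nhds]
      simp only [hG₂, l0]
      exact pj_eq ha hi)
    refine ⟨F, y', h1, ?_, fun p hp S₁ hS₁ => ?_⟩
    · have t := tendsto_mix_left I (I.piecewise p₀ y) v₁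
      rw [mix_mix_left] at t
      filter_upwards [hf, t.eventually h2, t.eventually c2] with q a1 a2 a3
      rw [mix_mix_left] at a2
      rw [← a2, a3, pj, a1.2]
      simp only [hG₂]
      congr 2
      funext i
      by_cases hi : i ∈ I <;> simp [hl, hi, hv₁]
    · have r0 := rh_segment (z := z) hA (Φ := fun q => F (I.piecewise q y'))
        (fun p p' => by simp only [mix_mix_left]) (c3 p hp) (by simpa using h3 p hp)
      have e : Gh (I.piecewise p v₀) = G (I.piecewise p y) := by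
        rw [(c1 p hp).self_of_nhds]
        simp only [hG₁, k0]
      rw [← e]
      apply r0
      filter_upwards [c1 p hp, (kt p).eventually hS₁] with u a1 a2
      rw [a1]
      simp only [hG₁]
      rw [a2]
      congr 1
      funext i
      by_cases hi : i ∈ I <;> simp [hk, hi]

theorem HT.ext_chart (hA : A.IsProd) {w : M} {S : M → M} (h : A.HT I z w S) {a : A.ι}
    (ha : w ∈ (A.c a).source) : ∃ (F : (∀ i, Cn (d i)) → M) (y : ∀ i, Cn (d i)),
      A.PL F (I.piecewise (A.c a w) y) ∧ (S =ᶠ[𝓝 w] fun m => F (I.piecewise (A.c a m) y)) ∧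
      ∀ w' ∈ (A.c a).source, A.HT I z w' fun m => F (I.piecewise (A.c a m) y) := by
  have hw : A.c a w ∈ ball (0 : ∀ i, Cn (d i)) 4 := by simpa using norm_lt ha
  obtain ⟨F, y, h1, h2, h3⟩ := h.ext hA (convex_ball 0 4) hw (A.c a).symm (A.c a w)
    (fun p hp => pl_symm' a (norm_piecewise_lt I (by simpa using hp) (norm_lt ha)))
    (by rw [mix_self, (A.c a).left_inv ha])
  refine ⟨F, y, h1 _ hw, ?_, fun w' hw' => ?_⟩
  · rw [mix_self] at h2
    filter_upwards [((A.c a).continuousAt ha).eventually h2, (A.c a).open_source.mem_nhds ha]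
      with m a1 a2
    rwa [(A.c a).left_inv a2] at a1
  · have n1 : I.piecewise (A.c a w') (A.c a w) ∈ (A.c a).target :=
      mem_tgt (norm_piecewise_lt I (norm_lt hw') (norm_lt ha))
    have k := h3 (A.c a w') (by simpa using norm_lt hw') (fun m => F (I.piecewise (A.c a m) y))
      (by filter_upwards [(A.c a).open_target.mem_nhds n1] with q hq
          rw [(A.c a).right_inv hq])
    have s1 := (A.c a).map_target n1
    refine (k.step s1 hw' fun i hi => by rw [(A.c a).right_inv n1]; simp [hi]).congr ?_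
    filter_upwards [(A.c a).open_source.mem_nhds hw'] with m hm
    simp only [pj]
    rw [(A.c a).right_inv (mem_tgt (norm_piecewise_lt I (norm_lt hm) (norm_lt s1))), mix_mix_left]

theorem HT.rg (hA : A.IsProd) {w : M} {S : M → M} (h : A.HT I z w S) : A.RG I S w := by
  obtain ⟨F, y, h1, h2, -⟩ := h.ext_chart hA (ch_mem' w)
  exact ⟨_, F, y, ch_mem' w, h1, h2⟩

theorem ident_chart {a : A.ι} {S S' : M → M}
    (h : ∀ w ∈ (A.c a).source, A.Hol (S ∘ (A.c a).symm) (A.c a w))
    (h' : ∀ w ∈ (A.c a).source, A.Hol (S' ∘ (A.c a).symm) (A.c a w)) {x : M}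
    (hx : x ∈ (A.c a).source) (he : S =ᶠ[𝓝 x] S') : ∀ y ∈ (A.c a).source, S =ᶠ[𝓝 y] S' := by
  intro y hy
  have key := ident (A := A) (Ψ := S ∘ (A.c a).symm) (Ψ' := S' ∘ (A.c a).symm)
    (convex_ball (0 : ∀ i, Cn (d i)) 4).isPreconnected ?_ ?_ (z₀ := A.c a x)
    (by simpa using norm_lt hx) ?_ (A.c a y) (by simpa using norm_lt hy)
  · filter_upwards [((A.c a).continuousAt hy).eventually key, (A.c a).open_source.mem_nhds hy]
      with m a1 a2
    simpa [(A.c a).left_inv a2] using a1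
  · intro p hp
    have hp' : p ∈ (A.c a).target := mem_tgt (by simpa using hp)
    have := h _ ((A.c a).map_target hp')
    rwa [(A.c a).right_inv hp'] at this
  · intro p hp
    have hp' : p ∈ (A.c a).target := mem_tgt (by simpa using hp)
    have := h' _ ((A.c a).map_target hp')
    rwa [(A.c a).right_inv hp'] at this
  · exact ((A.c a).tendsto_symm hx).eventually he

theorem pj_chart (hA : A.IsProd) {a b : A.ι} {w : M} (ha : w ∈ (A.c a).source)
    (hb : w ∈ (A.c b).source) : A.pj I a w =ᶠ[𝓝 w] A.pj I b w := by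
  have h := pj_comp (I := I) hA (pl_symm' a (norm_lt ha)) (a := b)
    (by rwa [(A.c a).left_inv ha])
  filter_upwards [((A.c a).continuousAt ha).eventually h, (A.c a).open_source.mem_nhds ha]
    with m a1 a2
  rw [(A.c a).left_inv ha, (A.c a).left_inv a2] at a1
  exact a1.symm

theorem hol_pj {a : A.ι} {w m : M} (hw : w ∈ (A.c a).source) (hm : m ∈ (A.c a).source) :
    A.Hol (A.pj I a w ∘ (A.c a).symm) (A.c a m) := by
  have an : AnalyticAt ℂ (fun p : ∀ i, Cn (d i) => I.piecewise p (A.c a w)) (A.c a m) := by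
    refine AnalyticAt.pi fun i => ?_
    by_cases hi : i ∈ I
    · simp only [Finset.piecewise_eq_of_mem _ _ _ hi]
      exact (ContinuousLinearMap.proj (R := ℂ) (φ := fun i => Cn (d i)) i).analyticAt _
    · simpa [hi] using analyticAt_const
  refine (hol_symm_comp a an (norm_piecewise_lt I (norm_lt hm) (norm_lt hw))).congr ?_
  filter_upwards [(A.c a).open_target.mem_nhds ((A.c a).map_source hm)] with p hp
  simp only [Function.comp_apply, pj, (A.c a).right_inv hp]

theorem retr [SimplyConnectedSpace M] (hA : A.IsProd) (I : Finset κ) (z : M) :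
    ∃ S : M → M, (∀ w, A.RG I S w) ∧ (∀ w, A.Leaf Iᶜ w (S w)) ∧
      ∀ w, A.Leaf I z w → ∀ a, w ∈ (A.c a).source →
        ∀ᶠ m in 𝓝 w, S m = (A.c a).symm (I.piecewise (A.c a m) (A.c a w)) := by
  have := A.locPath
  obtain ⟨S, h0, hS⟩ := monodromy (A.HT I z) (fun _ _ _ h h' => h.congr h') (fun x₀ =>
    ⟨(A.c (A.ch x₀)).source, (A.c _).open_source, ch_mem' x₀, fun x hx s hs => by
      obtain ⟨F, y, -, h2, h3⟩ := hs.ext_chart hA hx
      exact ⟨_, h2.symm, h3⟩, fun s s' hs hs' x hx he =>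
      ident_chart (fun w hw => ((hs w hw).rg hA).hol hA hw)
        (fun w hw => ((hs' w hw).rg hA).hol hA hw) hx he⟩)
    (HT.base Relation.ReflTransGen.refl (ch_mem' z))
  refine ⟨S, fun w => (hS w).rg hA, fun w => (hS w).leaf, fun w hw => ?_⟩
  change ∀ a, w ∈ (A.c a).source → S =ᶠ[𝓝 w] A.pj I a w
  induction hw with
  | refl => exact fun a ha => h0.trans (pj_chart hA (ch_mem' z) ha)
  | @tail w w' _ hs ih =>
    obtain ⟨e, he, he', hi⟩ := hs
    intro a ha
    refine EventuallyEq.trans ?_ (pj_chart hA he' ha)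
    have : A.pj I e w' = A.pj I e w := by
      funext m
      simp only [pj]
      congr 1
      funext i
      by_cases h : i ∈ I
      · simp [h]
      · simp [h, hi i h]
    rw [this]
    exact ident_chart (fun m hm => ((hS m).rg hA).hol hA hm) (fun m hm => hol_pj he hm) he
      (ih e he) w' he'

end Vale.Agent.P278.Atl
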