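import Mathlib

/-! P278 task Stokes: conservation laws in two space dimensions. -/

open Metric Set MeasureTheory

namespace Vale.Agent.P278

/-- A conservation law on the open set `O`. -/
structure Cons (O : Set (ℂ × ℝ)) (e b₁ b₂ : ℂ × ℝ → ℝ) : Prop where
  isOpen : IsOpen O
  he : ∀ q ∈ O, ContDiffAt ℝ 1 e q
  h₁ : ∀ q ∈ O, ContDiffAt ℝ 1 b₁ q
  h₂ : ∀ q ∈ O, ContDiffAt ℝ 1 b₂ q
  div : ∀ q ∈ O, fderiv ℝ e q (0, 1) + fderiv ℝ b₁ q (1, 0) + fderiv ℝ b₂ q (Complex.I, 0) = 0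
  pos : ∀ q ∈ O, 0 ≤ e q

namespace StokesAux

open Filter Topology

theorem cont_fderiv {F : ℂ × ℝ → ℝ} {q : ℂ × ℝ} (h : ContDiffAt ℝ 1 F q) (v : ℂ × ℝ) :
    ContinuousAt (fun q' => fderiv ℝ F q' v) q :=
  ((h.fderiv_right (m := 0) (by norm_num)).clm_apply contDiffAt_const).continuousAt

theorem intOn {F : ℂ × ℝ → ℝ} {t : ℝ} (R : ℝ) (h : ∀ x, ‖x‖ ≤ R → ContinuousAt F (x, t)) :
    IntegrableOn (fun x => F (x, t)) (closedBall 0 R) := by
  refine ContinuousOn.integrableOn_compact (isCompact_closedBall _ _) fun x hx => ?_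
  exact (ContinuousAt.comp (f := fun x : ℂ => (x, t)) (h x (mem_closedBall_zero_iff.1 hx))
    (by fun_prop)).continuousWithinAt

theorem div_zero {G : ℂ × ℝ → ℝ} {t R : ℝ} (h : ∀ x, ContDiffAt ℝ 1 G (x, t))
    (h0 : ∀ x, R ≤ ‖x‖ → G (x, t) = 0) (v : ℂ) :
    ∫ x in closedBall (0 : ℂ) R, fderiv ℝ G (x, t) (v, 0) = 0 := by
  set g : ℂ → ℝ := fun x => G (x, t) with hg
  have hd : ∀ x, HasFDerivAt g ((fderiv ℝ G (x, t)).comp (ContinuousLinearMap.inl ℝ ℂ ℝ)) x :=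
    fun x => ((h x).differentiableAt one_ne_zero).hasFDerivAt.comp x
      (hasFDerivAt_prodMk_left x t)
  have he : ∀ x, fderiv ℝ g x v = fderiv ℝ G (x, t) (v, 0) := fun x => by
    rw [(hd x).fderiv]; rfl
  have hz : ∀ x ∉ closedBall (0 : ℂ) R, fderiv ℝ g x v = 0 := by
    intro x hx
    have : g =ᶠ[𝓝 x] fun _ => 0 := by
      filter_upwards [isClosed_closedBall.isOpen_compl.mem_nhds hx] with y hy
      exact h0 y (le_of_lt (by simpa using hy))
    rw [this.fderiv_eq]; simp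
  have i1 : Integrable (fun x => fderiv ℝ g x v) := by
    refine (integrableOn_iff_integrable_of_support_subset (s := closedBall (0 : ℂ) R)
      fun x hx => by_contra fun h' => hx (hz x h')).1 ?_
    simp only [he]
    exact intOn (F := fun q => fderiv ℝ G q (v, 0)) R fun x _ => cont_fderiv (h x) _
  have i2 : Integrable g := by
    refine (integrableOn_iff_integrable_of_support_subset (s := closedBall (0 : ℂ) R)
      fun x hx => by_contra fun h' => hx (h0 x (le_of_lt (by simpa using h')))).1 ?_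
    exact intOn R fun x _ => (h x).continuousAt
  have := integral_mul_fderiv_eq_neg_fderiv_mul_of_integrable (𝕜 := ℝ) (μ := volume)
    (f := fun _ : ℂ => (1 : ℝ)) (g := g) (v := v) (by simp) (by simpa using i1) (by simpa using i2)
    (by simp) (fun x _ => (hd x).differentiableAt)
  simp only [← he]
  rw [setIntegral_eq_integral_of_forall_compl_eq_zero hz]
  simpa using this

theorem core0 {F G₁ G₂ : ℂ × ℝ → ℝ} {t₁ t₂ R κ : ℝ} (ht : t₁ ≤ t₂)
    (hF : ∀ t ∈ Icc t₁ t₂, ∀ x, ContDiffAt ℝ 1 F (x, t))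
    (h₁ : ∀ t ∈ Icc t₁ t₂, ∀ x, ContDiffAt ℝ 1 G₁ (x, t))
    (h₂ : ∀ t ∈ Icc t₁ t₂, ∀ x, ContDiffAt ℝ 1 G₂ (x, t))
    (z₁ : ∀ t ∈ Icc t₁ t₂, ∀ x, R ≤ ‖x‖ → G₁ (x, t) = 0)
    (z₂ : ∀ t ∈ Icc t₁ t₂, ∀ x, R ≤ ‖x‖ → G₂ (x, t) = 0)
    (hk : ∀ t ∈ Icc t₁ t₂, ∀ x, -κ ≤ fderiv ℝ F (x, t) (0, 1) + fderiv ℝ G₁ (x, t) (1, 0) +
      fderiv ℝ G₂ (x, t) (Complex.I, 0)) :
    ∫ x in closedBall (0 : ℂ) R, F (x, t₁) ≤ (∫ x in closedBall (0 : ℂ) R, F (x, t₂)) +
      (t₂ - t₁) * (κ * volume.real (closedBall (0 : ℂ) R)) := by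
  set B := closedBall (0 : ℂ) R with hB
  set D : ℂ × ℝ → ℝ := fun q => fderiv ℝ F q (0, 1) with hD
  have hDi : IntegrableOn D (B ×ˢ Icc t₁ t₂) :=
    ContinuousOn.integrableOn_compact ((isCompact_closedBall _ _).prod isCompact_Icc)
      fun q hq => (cont_fderiv (hF q.2 hq.2 q.1) _).continuousWithinAt
  have hDi' : Integrable (Function.uncurry fun x t => D (x, t))
      ((volume.restrict B).prod (volume.restrict (Icc t₁ t₂))) := by
    rw [Measure.prod_restrict]; exact hDi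
  have ftc : ∀ x, ∫ t in Icc t₁ t₂, D (x, t) = F (x, t₂) - F (x, t₁) := by
    intro x
    rw [integral_Icc_eq_integral_Ioc, ← intervalIntegral.integral_of_le ht]
    refine intervalIntegral.integral_eq_sub_of_hasDerivAt (f := fun t => F (x, t))
      (fun t h => ?_) (ContinuousOn.intervalIntegrable fun t h => ?_)
    · rw [uIcc_of_le ht] at h
      exact ((hF t h x).differentiableAt one_ne_zero).hasFDerivAt.comp_hasDerivAt t
        ((hasDerivAt_const t x).prodMk (hasDerivAt_id t))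
    · rw [uIcc_of_le ht] at h
      exact (ContinuousAt.comp (f := fun t : ℝ => (x, t)) (cont_fderiv (hF t h x) _)
        (by fun_prop)).continuousWithinAt
  have hlow : ∀ t ∈ Icc t₁ t₂, -(κ * volume.real B) ≤ ∫ x in B, D (x, t) := by
    intro t h
    have i0 := intOn (F := D) R fun x _ => cont_fderiv (hF t h x) _
    have i1 := intOn (F := fun q => fderiv ℝ G₁ q (1, 0)) R fun x _ => cont_fderiv (h₁ t h x) _
    have i2 := intOn (F := fun q => fderiv ℝ G₂ q (Complex.I, 0)) R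
      fun x _ => cont_fderiv (h₂ t h x) _
    have e1 := integral_add (i0.add i1) i2
    have e2 := integral_add i0 i1
    have e3 := div_zero (h₁ t h) (z₁ t h) 1
    have e4 := div_zero (h₂ t h) (z₂ t h) Complex.I
    have e5 := setIntegral_mono_on (μ := volume) (s := B) (f := fun _ => -κ)
      (integrableOn_const measure_closedBall_lt_top.ne) ((i0.add i1).add i2)
      measurableSet_closedBall fun x _ => hk t h x
    simp only [Pi.add_apply] at e1 e5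
    rw [setIntegral_const, smul_eq_mul] at e5
    linarith
  have h3 := setIntegral_mono_on (μ := volume) (s := Icc t₁ t₂)
    (f := fun _ => -(κ * volume.real B)) (integrableOn_const measure_Icc_lt_top.ne)
    hDi'.integral_prod_right measurableSet_Icc hlow
  have h4 := integral_integral_swap hDi'
  simp only [ftc] at h4
  rw [integral_sub (intOn R fun x _ => (hF t₂ ⟨ht, le_rfl⟩ x).continuousAt)
    (intOn R fun x _ => (hF t₁ ⟨le_rfl, ht⟩ x).continuousAt)] at h4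
  rw [setIntegral_const, smul_eq_mul, Real.volume_real_Icc_of_le ht] at h3
  simp only [Function.uncurry] at h3
  linarith

theorem core {O : Set (ℂ × ℝ)} {e b₁ b₂ : ℂ × ℝ → ℝ} (h : Cons O e b₁ b₂) {χ : ℂ × ℝ → ℝ}
    (hχ : ContDiff ℝ 1 χ) {t₁ t₂ R κ : ℝ} (ht : t₁ ≤ t₂) (hκ : 0 ≤ κ)
    (hO : ∀ t ∈ Icc t₁ t₂, ∀ x, (x, t) ∉ O → χ =ᶠ[𝓝 (x, t)] fun _ => 0)
    (hz : ∀ t ∈ Icc t₁ t₂, ∀ x, R ≤ ‖x‖ → χ (x, t) = 0)
    (hk : ∀ t ∈ Icc t₁ t₂, ∀ x, (x, t) ∈ O → -κ ≤ fderiv ℝ χ (x, t) (0, 1) * e (x, t) +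
      fderiv ℝ χ (x, t) (1, 0) * b₁ (x, t) + fderiv ℝ χ (x, t) (Complex.I, 0) * b₂ (x, t)) :
    ∫ x in closedBall (0 : ℂ) R, χ (x, t₁) * e (x, t₁) ≤
      (∫ x in closedBall (0 : ℂ) R, χ (x, t₂) * e (x, t₂)) +
      (t₂ - t₁) * (κ * volume.real (closedBall (0 : ℂ) R)) := by
  have hev : ∀ b : ℂ × ℝ → ℝ, ∀ t ∈ Icc t₁ t₂, ∀ x, (x, t) ∉ O →
      (fun q => χ q * b q) =ᶠ[𝓝 (x, t)] fun _ => 0 := by
    intro b t ht x hx
    filter_upwards [hO t ht x hx] with q hq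
    rw [hq, zero_mul]
  have hsm : ∀ b : ℂ × ℝ → ℝ, (∀ q ∈ O, ContDiffAt ℝ 1 b q) → ∀ t ∈ Icc t₁ t₂, ∀ x,
      ContDiffAt ℝ 1 (fun q => χ q * b q) (x, t) := by
    intro b hb t ht x
    by_cases hx : (x, t) ∈ O
    · exact hχ.contDiffAt.mul (hb _ hx)
    · exact contDiffAt_const.congr_of_eventuallyEq (hev b t ht x hx)
  refine core0 (F := fun q => χ q * e q) (G₁ := fun q => χ q * b₁ q) (G₂ := fun q => χ q * b₂ q)
    ht (hsm e h.he) (hsm b₁ h.h₁) (hsm b₂ h.h₂) (fun t ht x hx => by rw [hz t ht x hx, zero_mul])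
    (fun t ht x hx => by rw [hz t ht x hx, zero_mul]) fun t ht x => ?_
  by_cases hx : (x, t) ∈ O
  · have hd := hχ.differentiable one_ne_zero (x, t)
    rw [fderiv_fun_mul hd ((h.he _ hx).differentiableAt one_ne_zero),
      fderiv_fun_mul hd ((h.h₁ _ hx).differentiableAt one_ne_zero),
      fderiv_fun_mul hd ((h.h₂ _ hx).differentiableAt one_ne_zero)]
    have h1 := hk t ht x hx
    have h2 := congrArg (χ (x, t) * ·) (h.div _ hx)
    simp only [_root_.add_apply, _root_.smul_apply, smul_eq_mul] at h2 ⊢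
    linarith
  · rw [(hev e t ht x hx).fderiv_eq, (hev b₁ t ht x hx).fderiv_eq, (hev b₂ t ht x hx).fderiv_eq]
    simpa using hκ

/-- The cut-off function. -/
noncomputable def cut (a c δ : ℝ) (q : ℂ × ℝ) : ℝ :=
  Real.smoothTransition (((a + c * q.2) ^ 2 - (q.1.re ^ 2 + q.1.im ^ 2)) / δ)

theorem nsq (x : ℂ) : x.re ^ 2 + x.im ^ 2 = ‖x‖ ^ 2 := by
  rw [Complex.sq_norm, Complex.normSq_apply]; ring

theorem cut_contDiff (a c δ : ℝ) : ContDiff ℝ 1 (cut a c δ) := by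
  unfold cut
  have h1 : ContDiff ℝ 1 fun q : ℂ × ℝ => q.1.re := Complex.reCLM.contDiff.comp contDiff_fst
  have h2 : ContDiff ℝ 1 fun q : ℂ × ℝ => q.1.im := Complex.imCLM.contDiff.comp contDiff_fst
  exact (Real.smoothTransition.contDiff (n := 1)).comp (by fun_prop)

theorem cut_fderiv (a c δ : ℝ) (q v : ℂ × ℝ) : fderiv ℝ (cut a c δ) q v =
    deriv Real.smoothTransition (((a + c * q.2) ^ 2 - ‖q.1‖ ^ 2) / δ) *
      ((2 * (a + c * q.2) * c * v.2 - 2 * (q.1.re * v.1.re + q.1.im * v.1.im)) / δ) := by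
  have h1 := Complex.reCLM.hasFDerivAt.comp q (hasFDerivAt_fst (𝕜 := ℝ) (p := q))
  have h2 := Complex.imCLM.hasFDerivAt.comp q (hasFDerivAt_fst (𝕜 := ℝ) (p := q))
  have h3 := (((hasFDerivAt_snd (𝕜 := ℝ) (p := q)).const_mul c).const_add a).pow 2
  have h4 := (h3.sub ((h1.pow 2).add (h2.pow 2))).mul_const δ⁻¹
  have h5 := (((Real.smoothTransition.contDiff (n := 1)).differentiable one_ne_zero)
    _).hasDerivAt.comp_hasFDerivAt q h4
  rw [HasFDerivAt.fderiv (f := cut a c δ) h5, ← nsq]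
  simp [div_eq_mul_inv]
  ring_nf
  simp

theorem cut_zero {a c δ : ℝ} (hδ : 0 < δ) {q : ℂ × ℝ} (h0 : 0 ≤ a + c * q.2)
    (h : a + c * q.2 ≤ ‖q.1‖) : cut a c δ q = 0 := by
  refine Real.smoothTransition.zero_of_nonpos (div_nonpos_of_nonpos_of_nonneg ?_ hδ.le)
  rw [nsq]
  nlinarith

theorem cut_ev {a c δ : ℝ} (hδ : 0 < δ) {q : ℂ × ℝ} (h0 : 0 < a + c * q.2)
    (h : a + c * q.2 < ‖q.1‖) : cut a c δ =ᶠ[𝓝 q] fun _ => 0 := by
  have h1 : ∀ᶠ q' : ℂ × ℝ in 𝓝 q, 0 < a + c * q'.2 :=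
    ContinuousAt.eventually_lt (by fun_prop) (by fun_prop) h0
  have h2 : ∀ᶠ q' : ℂ × ℝ in 𝓝 q, a + c * q'.2 < ‖q'.1‖ :=
    ContinuousAt.eventually_lt (by fun_prop) (by fun_prop) h
  filter_upwards [h1, h2] with q' h3 h4 using cut_zero hδ h3.le h4.le

theorem cut_one {a c δ : ℝ} (hδ : 0 < δ) {q : ℂ × ℝ} (h : δ ≤ (a + c * q.2) ^ 2 - ‖q.1‖ ^ 2) :
    cut a c δ q = 1 := by
  refine Real.smoothTransition.one_of_one_le ?_
  rwa [nsq, one_le_div hδ]

theorem der_neg {s : ℝ} (h : s < 0) : deriv Real.smoothTransition s = 0 := by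
  have : Real.smoothTransition =ᶠ[𝓝 s] fun _ => 0 := by
    filter_upwards [Iio_mem_nhds h] with y hy using Real.smoothTransition.zero_of_nonpos hy.le
  rw [this.deriv_eq, deriv_const]

theorem der_big {s : ℝ} (h : 1 < s) : deriv Real.smoothTransition s = 0 := by
  have : Real.smoothTransition =ᶠ[𝓝 s] fun _ => 1 := by
    filter_upwards [Ioi_mem_nhds h] with y hy using Real.smoothTransition.one_of_one_le hy.le
  rw [this.deriv_eq, deriv_const]

theorem der_bdd : ∃ K, 0 ≤ K ∧ ∀ s, deriv Real.smoothTransition s ≤ K := by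
  obtain ⟨K, hK⟩ := (isCompact_Icc (a := (0 : ℝ)) (b := 1)).exists_bound_of_continuousOn
    ((Real.smoothTransition.contDiff (n := 1)).continuous_deriv le_rfl).continuousOn
  have h0 : 0 ≤ K := (norm_nonneg _).trans (hK 0 (by simp))
  refine ⟨K, h0, fun s => ?_⟩
  rcases lt_or_ge s 0 with h | h
  · rwa [der_neg h]
  rcases lt_or_ge 1 s with h' | h'
  · rwa [der_big h']
  exact (le_abs_self _).trans (hK s ⟨h, h'⟩)

/-- Comparison of the cut-off integral with integrals over balls. -/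
theorem sandwich {e χ : ℂ × ℝ → ℝ} {t ρ R : ℝ} (hχ : Continuous χ) (hχ0 : ∀ q, 0 ≤ χ q)
    (hχ1 : ∀ q, χ q ≤ 1) (he : ∀ x, ‖x‖ ≤ ρ → ContinuousAt e (x, t) ∧ 0 ≤ e (x, t))
    (hR : ρ ≤ R) (hz : ∀ x, ρ ≤ ‖x‖ → χ (x, t) = 0) :
    (∫ x in closedBall (0 : ℂ) R, χ (x, t) * e (x, t) ≤ ∫ x in ball (0 : ℂ) ρ, e (x, t)) ∧
      ∀ ρ₀ ≤ ρ, (∀ x, ‖x‖ < ρ₀ → χ (x, t) = 1) →
      ∫ x in ball (0 : ℂ) ρ₀, e (x, t) ≤ ∫ x in closedBall (0 : ℂ) R, χ (x, t) * e (x, t) := by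
  have e1 : ∫ x in closedBall (0 : ℂ) R, χ (x, t) * e (x, t) =
      ∫ x in ball (0 : ℂ) ρ, χ (x, t) * e (x, t) :=
    setIntegral_eq_of_subset_of_forall_sdiff_eq_zero measurableSet_closedBall
      (ball_subset_closedBall.trans (closedBall_subset_closedBall hR)) fun x hx => by
        rw [hz x (by simpa using hx.2), zero_mul]
  have i1 : IntegrableOn (fun x => e (x, t)) (ball 0 ρ) :=
    (intOn ρ fun x hx => (he x hx).1).mono_set ball_subset_closedBall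
  have i2 : IntegrableOn (fun x => χ (x, t) * e (x, t)) (ball 0 ρ) :=
    (intOn (F := fun q => χ q * e q) ρ fun x hx =>
      hχ.continuousAt.mul (he x hx).1).mono_set ball_subset_closedBall
  rw [e1]
  refine ⟨setIntegral_mono_on i2 i1 measurableSet_ball fun x hx =>
    mul_le_of_le_one_left (he x (mem_ball_zero_iff.1 hx).le).2 (hχ1 _), fun ρ₀ h0 h1 => ?_⟩
  have e2 : ∫ x in ball (0 : ℂ) ρ₀, e (x, t) = ∫ x in ball (0 : ℂ) ρ₀, χ (x, t) * e (x, t) :=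
    setIntegral_congr_fun measurableSet_ball fun x hx => by
      simp only [h1 x (mem_ball_zero_iff.1 hx), one_mul]
  rw [e2]
  refine setIntegral_mono_set i2 ?_ (ball_subset_ball h0).eventuallyLE
  filter_upwards [ae_restrict_mem measurableSet_ball] with x hx
  exact mul_nonneg (hχ0 _) (he x (mem_ball_zero_iff.1 hx).le).2

end StokesAux

open StokesAux in
/-- Finite speed of propagation. -/
theorem Cons.speed {O : Set (ℂ × ℝ)} {e b₁ b₂ : ℂ × ℝ → ℝ} (h : Cons O e b₁ b₂) {C : ℝ}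
    (hC : 0 ≤ C) (hb : ∀ q ∈ O, |b₁ q| ≤ C * e q ∧ |b₂ q| ≤ C * e q) {t₁ t₂ ρ ρ' : ℝ}
    (ht : t₁ ≤ t₂) (h0 : 0 < ρ) (hρ : ρ < ρ')
    (hO : ∀ t ∈ Icc t₁ t₂, ∀ x : ℂ, ‖x‖ ≤ ρ' + 2 * C * (t - t₁) → (x, t) ∈ O) :
    ∫ x in ball (0 : ℂ) ρ, e (x, t₁) ≤
      ∫ x in ball (0 : ℂ) (ρ' + 2 * C * (t₂ - t₁)), e (x, t₂) := by
  have hδ : 0 < ρ' ^ 2 - ρ ^ 2 := by nlinarith
  set δ := ρ' ^ 2 - ρ ^ 2 with hδ'
  set a := ρ' - 2 * C * t₁ with ha
  have hR : ∀ t, a + 2 * C * t = ρ' + 2 * C * (t - t₁) := fun t => by rw [ha]; ring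
  have hpos : ∀ t ∈ Icc t₁ t₂, 0 < a + 2 * C * t := fun t h => by
    rw [hR]; nlinarith [h.1]
  have hmono : ∀ t ∈ Icc t₁ t₂, a + 2 * C * t ≤ ρ' + 2 * C * (t₂ - t₁) := fun t h => by
    rw [hR]; nlinarith [h.2]
  have h1 := core h (cut_contDiff a (2 * C) δ) (R := ρ' + 2 * C * (t₂ - t₁)) ht le_rfl
    (fun t ht x hx => cut_ev hδ (hpos t ht) (lt_of_not_ge fun h' => hx (hO t ht x (hR t ▸ h'))))
    (fun t ht x hx => cut_zero hδ (hpos t ht).le ((hmono t ht).trans hx)) ?_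
  · have hc := (cut_contDiff a (2 * C) δ).continuous
    have he : ∀ t ∈ Icc t₁ t₂, ∀ x : ℂ, ‖x‖ ≤ ρ' + 2 * C * (t - t₁) →
        ContinuousAt e (x, t) ∧ 0 ≤ e (x, t) := fun t ht x hx =>
      ⟨(h.he _ (hO t ht x hx)).continuousAt, h.pos _ (hO t ht x hx)⟩
    have h2 := (sandwich hc (fun _ => Real.smoothTransition.nonneg _)
      (fun _ => Real.smoothTransition.le_one _) (he t₂ ⟨ht, le_rfl⟩) le_rfl
      fun x hx => cut_zero hδ (hpos t₂ ⟨ht, le_rfl⟩).le (hR t₂ ▸ hx)).1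
    have h3 := (sandwich hc (fun _ => Real.smoothTransition.nonneg _)
      (fun _ => Real.smoothTransition.le_one _) (he t₁ ⟨le_rfl, ht⟩)
      (hR t₁ ▸ hmono t₁ ⟨le_rfl, ht⟩)
      fun x hx => cut_zero hδ (hpos t₁ ⟨le_rfl, ht⟩).le (hR t₁ ▸ hx)).2 ρ (by linarith)
      fun x hx => cut_one hδ (by
        simp only [hR, hδ', sub_self, mul_zero, add_zero]
        nlinarith [norm_nonneg x])
    linarith
  · intro t ht x hx
    simp only [cut_fderiv]
    have hp := hpos t ht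
    set R := a + 2 * C * t
    rcases lt_or_ge R ‖x‖ with h2 | h2
    · rw [der_neg (div_neg_of_neg_of_pos (by nlinarith) hδ)]
      simp
    have h3 : 0 ≤ deriv Real.smoothTransition ((R ^ 2 - ‖x‖ ^ 2) / δ) :=
      Real.smoothTransition.monotone.deriv_nonneg
    generalize deriv Real.smoothTransition ((R ^ 2 - ‖x‖ ^ 2) / δ) = k at h3
    obtain ⟨h4, h5⟩ := hb _ hx
    have h6 : x.re * b₁ (x, t) ≤ R * (C * e (x, t)) := (le_abs_self _).trans (by
      rw [abs_mul]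
      exact mul_le_mul ((Complex.abs_re_le_norm x).trans h2) h4 (abs_nonneg _) hp.le)
    have h7 : x.im * b₂ (x, t) ≤ R * (C * e (x, t)) := (le_abs_self _).trans (by
      rw [abs_mul]
      exact mul_le_mul ((Complex.abs_im_le_norm x).trans h2) h5 (abs_nonneg _) hp.le)
    have h8 : 0 ≤ k / δ * (4 * (R * (C * e (x, t))) - 2 * (x.re * b₁ (x, t)) -
        2 * (x.im * b₂ (x, t))) := mul_nonneg (div_nonneg h3 hδ.le) (by linarith)
    refine le_of_le_of_eq (by simpa using h8) ?_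
    simp
    ring

open StokesAux in
/-- Bounded flux through an annulus. -/
theorem Cons.flux : ∃ C₀ : ℝ, ∀ {O : Set (ℂ × ℝ)} {e b₁ b₂ : ℂ × ℝ → ℝ}, Cons O e b₁ b₂ →
    ∀ {r B : ℝ}, 0 < r → 0 ≤ B → (∀ t ∈ Icc (0 : ℝ) 1, ∀ x : ℂ, ‖x‖ ≤ 8 * r → (x, t) ∈ O) →
    (∀ t ∈ Icc (0 : ℝ) 1, ∀ x : ℂ, 7 * r ≤ ‖x‖ → ‖x‖ ≤ 8 * r → |b₁ (x, t)| ≤ B ∧ |b₂ (x, t)| ≤ B) →
    ∫ x in ball (0 : ℂ) (7 * r), e (x, 0) ≤
      (∫ x in ball (0 : ℂ) (8 * r), e (x, 1)) + C₀ * B * r := by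
  obtain ⟨K, hK0, hK⟩ := der_bdd
  refine ⟨K * 32 / 15 * (64 * Real.pi), fun {O e b₁ b₂} h {r B} hr hB hO hb => ?_⟩
  have hδ : 0 < 15 * r ^ 2 := by positivity
  have hR : ∀ t : ℝ, 8 * r + 0 * t = 8 * r := fun t => by ring
  have h1 := core h (cut_contDiff (8 * r) 0 (15 * r ^ 2)) (R := 8 * r)
    (κ := K / (15 * r ^ 2) * (32 * r * B)) zero_le_one (by positivity)
    (fun t ht x hx => cut_ev hδ (by rw [hR]; positivity)
      (lt_of_not_ge fun h' => hx (hO t ht x (hR t ▸ h'))))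
    (fun t ht x hx => cut_zero hδ (by rw [hR]; positivity) (by rwa [hR])) ?_
  · have hc := (cut_contDiff (8 * r) 0 (15 * r ^ 2)).continuous
    have he : ∀ t ∈ Icc (0 : ℝ) 1, ∀ x : ℂ, ‖x‖ ≤ 8 * r →
        ContinuousAt e (x, t) ∧ 0 ≤ e (x, t) := fun t ht x hx =>
      ⟨(h.he _ (hO t ht x hx)).continuousAt, h.pos _ (hO t ht x hx)⟩
    have h2 := (sandwich hc (fun _ => Real.smoothTransition.nonneg _)
      (fun _ => Real.smoothTransition.le_one _) (he 1 (by simp)) le_rfl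
      fun x hx => cut_zero hδ (by rw [hR]; positivity) (by rwa [hR])).1
    have h3 := (sandwich hc (fun _ => Real.smoothTransition.nonneg _)
      (fun _ => Real.smoothTransition.le_one _) (he 0 (by simp)) le_rfl
      fun x hx => cut_zero hδ (by rw [hR]; positivity) (by rwa [hR])).2 (7 * r) (by linarith)
      fun x hx => cut_one hδ (by
        simp only [hR]
        nlinarith [norm_nonneg x])
    have h4 : volume.real (closedBall (0 : ℂ) (8 * r)) = (8 * r) ^ 2 * Real.pi := by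
      simp [Measure.real, Complex.volume_closedBall, hr.le]
    have h5 : (1 - 0) * (K / (15 * r ^ 2) * (32 * r * B) * ((8 * r) ^ 2 * Real.pi)) =
        K * 32 / 15 * (64 * Real.pi) * B * r := by
      field_simp
      ring
    rw [h4, h5] at h1
    linarith
  · intro t ht x hx
    simp only [cut_fderiv, hR]
    have hκ : 0 ≤ K / (15 * r ^ 2) * (32 * r * B) := by positivity
    rcases lt_or_ge (8 * r) ‖x‖ with h2 | h2
    · rw [der_neg (div_neg_of_neg_of_pos (by nlinarith) hδ)]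
      simpa using hκ
    rcases lt_or_ge ‖x‖ (7 * r) with h2' | h2'
    · rw [der_big ((one_lt_div hδ).2 (by nlinarith [norm_nonneg x]))]
      simpa using hκ
    have h3 : 0 ≤ deriv Real.smoothTransition (((8 * r) ^ 2 - ‖x‖ ^ 2) / (15 * r ^ 2)) :=
      Real.smoothTransition.monotone.deriv_nonneg
    have h3' := hK (((8 * r) ^ 2 - ‖x‖ ^ 2) / (15 * r ^ 2))
    generalize deriv Real.smoothTransition (((8 * r) ^ 2 - ‖x‖ ^ 2) / (15 * r ^ 2)) = k at h3 h3'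
    obtain ⟨h4, h5⟩ := hb t ht x h2' h2
    have h6 : x.re * b₁ (x, t) ≤ 8 * r * B := (le_abs_self _).trans (by
      rw [abs_mul]
      exact mul_le_mul ((Complex.abs_re_le_norm x).trans h2) h4 (abs_nonneg _) (by positivity))
    have h7 : x.im * b₂ (x, t) ≤ 8 * r * B := (le_abs_self _).trans (by
      rw [abs_mul]
      exact mul_le_mul ((Complex.abs_im_le_norm x).trans h2) h5 (abs_nonneg _) (by positivity))
    have h8 : k / (15 * r ^ 2) * (2 * (x.re * b₁ (x, t)) + 2 * (x.im * b₂ (x, t))) ≤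
        K / (15 * r ^ 2) * (32 * r * B) :=
      (mul_le_mul_of_nonneg_left (by linarith) (div_nonneg h3 hδ.le)).trans
        (mul_le_mul_of_nonneg_right (div_le_div_of_nonneg_right h3' hδ.le) (by positivity))
    refine le_of_le_of_eq (neg_le_neg h8) ?_
    simp
    ring

end Vale.Agent.P278
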