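import Vale.Agent.P278.Basic
import Vale.Agent.P278.Stokes

/-! P278 task SlA: elementary properties of slices, and the areas of the slanted discs. -/

open Metric Set Filter Topology MeasureTheory

namespace Vale.Agent.P278.Atl

variable {M P : Type} [TopologicalSpace M] [NormedAddCommGroup P] [NormedSpace ℝ P]
  [NormedSpace ℂ P] [IsScalarTower ℝ ℂ P] [FiniteDimensional ℂ P] {A : Atl M P} {π : P →L[ℂ] P}
  {H : ℂ × ℂ → M} {W : Set (ℂ × ℂ)}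

theorem SlA_ch (A : Atl M P) (m : M) : m ∈ (A.c (A.ch m)).source := (A.cover m).choose_spec.1

theorem SlA_swap_an (z : ℂ × ℂ) : AnalyticAt ℂ (Prod.swap : ℂ × ℂ → ℂ × ℂ) z :=
  (ContinuousLinearEquiv.prodComm ℂ ℂ ℂ).toContinuousLinearMap.analyticAt z

theorem SlA_swap_fd (z : ℂ × ℂ) : HasFDerivAt (Prod.swap : ℂ × ℂ → ℂ × ℂ)
    (ContinuousLinearEquiv.prodComm ℂ ℂ ℂ).toContinuousLinearMap z :=
  (ContinuousLinearEquiv.prodComm ℂ ℂ ℂ).toContinuousLinearMap.hasFDerivAt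

theorem SlA_split {F : ℂ × ℂ → P} {z w : ℂ × ℂ}
    (hE : ∀ᶠ z' in 𝓝 w, F z' = π (F (z'.1, z.2)) + (F (z.1, z'.2) - π (F (z.1, z'.2))))
    (h1 : DifferentiableAt ℂ F (w.1, z.2)) (h2 : DifferentiableAt ℂ F (z.1, w.2)) (ξ : ℂ × ℂ) :
    fderiv ℂ F w ξ = π (fderiv ℂ F (w.1, z.2) (ξ.1, 0)) +
      (fderiv ℂ F (z.1, w.2) (0, ξ.2) - π (fderiv ℂ F (z.1, w.2) (0, ξ.2))) := by
  have a1 : HasFDerivAt (fun z' : ℂ × ℂ => (z'.1, z.2))
      ((ContinuousLinearMap.fst ℂ ℂ ℂ).prod 0) w :=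
    hasFDerivAt_fst.prodMk (hasFDerivAt_const _ _)
  have a2 : HasFDerivAt (fun z' : ℂ × ℂ => (z.1, z'.2))
      ((0 : ℂ × ℂ →L[ℂ] ℂ).prod (ContinuousLinearMap.snd ℂ ℂ ℂ)) w :=
    (hasFDerivAt_const _ _).prodMk hasFDerivAt_snd
  have b1 := HasFDerivAt.comp w (g := F) h1.hasFDerivAt a1
  have b2 := HasFDerivAt.comp w (g := F) h2.hasFDerivAt a2
  have c1 := (π.hasFDerivAt.comp w b1).add (b2.sub (π.hasFDerivAt.comp w b2))
  have c2 := c1.congr_of_eventuallyEq (f₁ := F) hE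
  rw [c2.fderiv]
  rfl

theorem Slice.swap (h : A.Slice π H W) :
    A.Slice (ContinuousLinearMap.id ℂ P - π) (H ∘ Prod.swap) (Prod.swap ⁻¹' W) where
  proj u := by simp [h.proj]
  n1 u := by simpa using h.n2 u
  n2 u := by simpa using h.n1 u
  isOpen := h.isOpen.preimage continuous_swap
  cone L := by
    filter_upwards [h.cone L] with s hs z h1 h2
    refine hs z.swap ?_ ?_
    · rwa [Prod.norm_def, Prod.fst_swap, Prod.snd_swap, max_comm, ← Prod.norm_def]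
    · rwa [Prod.fst_swap, Prod.snd_swap, add_comm]
  hol z hz := (h.hol _ hz).comp (SlA_swap_an z)
  split z hz a ha := by
    have h1 := (continuous_swap.tendsto z).eventually (h.split _ hz a ha)
    filter_upwards [h1] with z' hz'
    simp only [Function.comp, Prod.swap_prod_mk, Prod.fst_swap, Prod.snd_swap,
      ContinuousLinearMap.sub_apply, ContinuousLinearMap.id_apply] at hz' ⊢
    rw [hz']
    abel
  imm z hz a ha := by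
    have h1 := ((h.hol _ hz).2 a ha).differentiableAt.hasFDerivAt
    have h2 : fderiv ℂ (A.c a ∘ H ∘ Prod.swap) z = _ :=
      (HasFDerivAt.comp z (g := A.c a ∘ H) h1 (SlA_swap_fd z)).fderiv
    rw [h2]
    exact ⟨(h.imm _ hz a ha).2, (h.imm _ hz a ha).1⟩

theorem Slice.en_swap (h : A.Slice π H W) {z : ℂ × ℂ} (hz : z ∈ W) (ξ : ℂ × ℂ) :
    A.en (H ∘ Prod.swap) z.swap ξ.swap = A.en H z ξ := by
  rw [Hol.en_comp (g := Prod.swap) (q' := z.swap) (h.hol z hz)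
    (SlA_swap_fd _).differentiableAt, (SlA_swap_fd _).fderiv]
  rfl

theorem Slice.proj_fderiv (h : A.Slice π H W) {z : ℂ × ℂ} (hz : z ∈ W) {a : A.ι}
    (ha : H z ∈ (A.c a).source) :
    π (fderiv ℂ (A.c a ∘ H) z (1, 0)) = fderiv ℂ (A.c a ∘ H) z (1, 0) ∧
      π (fderiv ℂ (A.c a ∘ H) z (0, 1)) = 0 := by
  have h1 := ((h.hol _ hz).2 a ha).differentiableAt
  have h2 := SlA_split (F := A.c a ∘ H) (z := z) (w := z) (h.split z hz a ha) h1 h1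
  have h0 : ((0 : ℂ), (0 : ℂ)) = 0 := rfl
  have h3 := h2 (1, 0)
  have h4 := h2 (0, 1)
  simp only [h0, map_zero, sub_zero, add_zero, zero_add, Prod.mk.eta] at h3 h4
  exact ⟨h3.symm, sub_eq_self.1 h4.symm⟩

theorem Slice.en_pos (h : A.Slice π H W) {z : ℂ × ℂ} (hz : z ∈ W) :
    0 < A.en H z (1, 0) ∧ 0 < A.en H z (0, 1) := by
  have ha := SlA_ch A (H z)
  obtain ⟨h1, h2⟩ := h.imm z hz _ ha
  exact ⟨(mul_pos A.lam_pos (pow_pos (norm_pos_iff.2 h1) 2)).trans_le ((h.hol z hz).le_en ha _),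
    (mul_pos A.lam_pos (pow_pos (norm_pos_iff.2 h2) 2)).trans_le ((h.hol z hz).le_en ha _)⟩

theorem SlA_norm (h : A.Slice π H W) {z : ℂ × ℂ} (hz : z ∈ W) {a : A.ι}
    (ha : H z ∈ (A.c a).source) :
    ‖fderiv ℂ (A.c a ∘ H) z (1, 0)‖ ≤ ‖fderiv ℂ (A.c a ∘ H) z (1, -1)‖ ∧
      ‖fderiv ℂ (A.c a ∘ H) z (0, 1)‖ ≤ ‖fderiv ℂ (A.c a ∘ H) z (1, -1)‖ := by
  obtain ⟨h1, h2⟩ := h.proj_fderiv hz ha
  have h3 : fderiv ℂ (A.c a ∘ H) z (1, -1) =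
      fderiv ℂ (A.c a ∘ H) z (1, 0) - fderiv ℂ (A.c a ∘ H) z (0, 1) := by
    rw [← map_sub]
    simp
  have h4 : π (fderiv ℂ (A.c a ∘ H) z (1, -1)) = fderiv ℂ (A.c a ∘ H) z (1, 0) := by
    rw [h3, map_sub, h1, h2, sub_zero]
  refine ⟨h4 ▸ h.n1 _, ?_⟩
  have h5 := h.n2 (fderiv ℂ (A.c a ∘ H) z (1, -1))
  rw [h4] at h5
  nth_rewrite 1 [h3] at h5
  rwa [sub_sub_cancel_left, norm_neg] at h5

theorem SlA_lam {x y e : ℝ} (hx : 0 ≤ x) (hy : 0 ≤ y) {r : ℝ} (h1 : x ≤ r) (h2 : y ≤ r)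
    (h3 : A.lam * r ^ 2 ≤ e) : A.Lam * x * y ≤ A.θ * e := by
  have l0 := A.lam_pos
  have l1 : 0 ≤ A.Lam := l0.le.trans A.lam_le
  have h4 : A.Lam * x * y ≤ A.Lam * r ^ 2 := by
    rw [mul_assoc, sq]
    exact mul_le_mul_of_nonneg_left (mul_le_mul h1 h2 hy (hx.trans h1)) l1
  have h5 : A.Lam * r ^ 2 = A.θ * (A.lam * r ^ 2) := by
    unfold θ
    field_simp
  exact h4.trans (h5 ▸ mul_le_mul_of_nonneg_left h3 (div_nonneg l1 l0.le))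

theorem Slice.en_le (h : A.Slice π H W) {z : ℂ × ℂ} (hz : z ∈ W) :
    A.en H z (1, 0) ≤ A.θ * A.en H z (1, -1) ∧ A.en H z (0, 1) ≤ A.θ * A.en H z (1, -1) := by
  have ha := SlA_ch A (H z)
  obtain ⟨h1, h2⟩ := SlA_norm h hz ha
  have h3 := (h.hol z hz).le_en ha (1, -1)
  constructor
  · refine ((h.hol z hz).en_le ha _).trans ?_
    rw [sq, ← mul_assoc]
    exact SlA_lam (norm_nonneg _) (norm_nonneg _) h1 h1 h3
  · refine ((h.hol z hz).en_le ha _).trans ?_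
    rw [sq, ← mul_assoc]
    exact SlA_lam (norm_nonneg _) (norm_nonneg _) h2 h2 h3

/-- The vertical energy is comparable along horizontal connected sets inside one chart. -/
theorem Slice.harnack (h : A.Slice π H W) (a : A.ι) {O : Set ℂ} (hO : IsPreconnected O) (y : ℂ)
    (hW : ∀ x ∈ O, (x, y) ∈ W ∧ H (x, y) ∈ (A.c a).source) :
    ∀ x ∈ O, ∀ x' ∈ O, A.en H (x, y) (0, 1) ≤ A.θ * A.en H (x', y) (0, 1) := by
  intro x hx x' hx'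
  have key : fderiv ℂ (A.c a ∘ H) (x, y) (0, 1) = fderiv ℂ (A.c a ∘ H) (x', y) (0, 1) := by
    refine hO.induction₂
      (fun x x' => fderiv ℂ (A.c a ∘ H) (x, y) (0, 1) = fderiv ℂ (A.c a ∘ H) (x', y) (0, 1))
      ?_ (fun _ _ _ _ _ _ h1 h2 => h1.trans h2) (fun _ _ _ _ h1 => h1.symm) hx hx'
    intro u hu
    obtain ⟨hu1, hu2⟩ := hW u hu
    have hc : Tendsto (fun v : ℂ => (v, y)) (𝓝 u) (𝓝 (u, y)) :=
      (continuous_id.prodMk continuous_const).tendsto u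
    have h1 := hc.eventually (h.split _ hu1 a hu2).eventually_nhds
    filter_upwards [nhdsWithin_le_nhds h1, self_mem_nhdsWithin] with v hv hvO
    obtain ⟨hv1, hv2⟩ := hW v hvO
    have h2 := SlA_split (F := A.c a ∘ H) (z := (u, y)) (w := (v, y)) hv
      ((h.hol _ hv1).2 a hv2).differentiableAt ((h.hol _ hu1).2 a hu2).differentiableAt (0, 1)
    have h0 : ((0 : ℂ), (0 : ℂ)) = 0 := rfl
    rw [h2, (h.proj_fderiv hu1 hu2).2, h0]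
    simp
  refine ((h.hol _ (hW x hx).1).en_le (hW x hx).2 _).trans ?_
  rw [sq, ← mul_assoc, key]
  exact SlA_lam (norm_nonneg _) (norm_nonneg _) le_rfl le_rfl
    ((h.hol _ (hW x' hx').1).le_en (hW x' hx').2 _)

/-- The family of slanted lines. -/
noncomputable def SlA_ψ : ℂ × ℝ →L[ℝ] ℂ × ℂ :=
  (ContinuousLinearMap.fst ℝ ℂ ℝ).prod
    (Complex.ofRealCLM.comp (ContinuousLinearMap.snd ℝ ℂ ℝ) - ContinuousLinearMap.fst ℝ ℂ ℝ)

theorem SlA_ψ_apply (x : ℂ) (t : ℝ) : SlA_ψ (x, t) = (x, t - x) := rfl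

theorem SlA_T (h : A.Slice π H W) {q : ℂ × ℝ} (hq : SlA_ψ q ∈ W) (ξ η : ℂ × ℝ) :
    A.T (H ∘ SlA_ψ) q ξ η = A.T H (SlA_ψ q) (SlA_ψ ξ) (SlA_ψ η) := by
  rw [Sm.T_comp (h.hol _ hq).sm SlA_ψ.differentiableAt, SlA_ψ.fderiv]

theorem SlA_e (h : A.Slice π H W) {q : ℂ × ℝ} (hq : SlA_ψ q ∈ W) :
    A.T (H ∘ SlA_ψ) q (1, 0) (Complex.I, 0) = A.en H (SlA_ψ q) (1, -1) := by
  rw [SlA_T h hq, SlA_ψ_apply 1, SlA_ψ_apply Complex.I]
  unfold en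
  simp

theorem SlA_cons (h : A.Slice π H W) :
    Cons (SlA_ψ ⁻¹' W) (fun q => A.T (H ∘ SlA_ψ) q (1, 0) (Complex.I, 0))
      (fun q => A.T (H ∘ SlA_ψ) q (Complex.I, 0) (0, 1))
      (fun q => A.T (H ∘ SlA_ψ) q (0, 1) (1, 0)) := by
  have hs : ∀ q ∈ SlA_ψ ⁻¹' W, A.Sm (H ∘ SlA_ψ) q := fun q hq =>
    (h.hol _ hq).sm.comp SlA_ψ.contDiff.contDiffAt
  refine ⟨h.isOpen.preimage SlA_ψ.continuous, fun q hq => (hs q hq).contDiffAt_T _ _,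
    fun q hq => (hs q hq).contDiffAt_T _ _, fun q hq => (hs q hq).contDiffAt_T _ _,
    fun q hq => (hs q hq).closedAt_T _ _ _, fun q hq => ?_⟩
  rw [SlA_e h hq]
  exact (h.hol _ hq).en_nonneg _

theorem SlA_b (h : A.Slice π H W) : ∀ q ∈ SlA_ψ ⁻¹' W,
    |A.T (H ∘ SlA_ψ) q (Complex.I, 0) (0, 1)| ≤ A.θ * A.T (H ∘ SlA_ψ) q (1, 0) (Complex.I, 0) ∧
    |A.T (H ∘ SlA_ψ) q (0, 1) (1, 0)| ≤ A.θ * A.T (H ∘ SlA_ψ) q (1, 0) (Complex.I, 0) := by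
  intro q hq
  have ha := SlA_ch A (H (SlA_ψ q))
  obtain ⟨-, h2⟩ := SlA_norm h hq ha
  have h3 := (h.hol _ hq).le_en ha (1, -1)
  have e1 : SlA_ψ (Complex.I, 0) = Complex.I • ((1 : ℂ), (-1 : ℂ)) := by
    rw [SlA_ψ_apply]; simp
  have e2 : SlA_ψ (0, 1) = (0, 1) := by rw [SlA_ψ_apply]; simp
  have e3 : SlA_ψ (1, 0) = (1, -1) := by rw [SlA_ψ_apply]; simp
  rw [SlA_e h hq, SlA_T h hq, SlA_T h hq, e1, e2, e3]
  constructor
  · refine ((h.hol _ hq).abs_T_le ha _ _).trans (SlA_lam (norm_nonneg _) (norm_nonneg _) ?_ h2 h3)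
    rw [map_smul, norm_smul, Complex.norm_I, one_mul]
  · exact ((h.hol _ hq).abs_T_le ha _ _).trans
      (SlA_lam (norm_nonneg _) (norm_nonneg _) h2 le_rfl h3)

theorem SlA_cone (h : A.Slice π H W) (L : ℝ) (hL : 0 ≤ L) : ∃ t₀ : ℝ, 0 < t₀ ∧
    ∀ t ∈ Ioo 0 t₀, ∀ x : ℂ, ‖x‖ ≤ L * t → (x, t) ∈ SlA_ψ ⁻¹' W := by
  obtain ⟨t₀, h0, h1⟩ := mem_nhdsGT_iff_exists_Ioo_subset.1 (h.cone (L + 1))
  refine ⟨t₀, h0, fun t ht x hx => h1 ht (x, t - x) ?_ (by simp)⟩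
  have h2 : ‖(t : ℂ) - x‖ ≤ t + ‖x‖ := by
    simpa [abs_of_pos ht.1] using norm_sub_le (t : ℂ) x
  rw [Prod.norm_def]
  exact max_le (by nlinarith [ht.1]) (by nlinarith [ht.1])

section Abstract

variable {O : Set (ℂ × ℝ)} {e b₁ b₂ : ℂ × ℝ → ℝ}

theorem SlA_int (h : Cons O e b₁ b₂) {t R : ℝ} (hO : ∀ x : ℂ, ‖x‖ ≤ R → (x, t) ∈ O) :
    IntegrableOn (fun x => e (x, t)) (ball (0 : ℂ) R) := by
  refine (ContinuousOn.integrableOn_compact (isCompact_closedBall 0 R) ?_).mono_set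
    ball_subset_closedBall
  intro x hx
  exact (ContinuousAt.comp (f := fun x : ℂ => (x, t))
    (h.he _ (hO x (mem_closedBall_zero_iff.1 hx))).continuousAt
    (continuous_id.prodMk continuous_const).continuousAt).continuousWithinAt

theorem SlA_pos (h : Cons O e b₁ b₂) {t R : ℝ} (hO : ∀ x : ℂ, ‖x‖ ≤ R → (x, t) ∈ O) :
    0 ≤ᵐ[volume.restrict (ball (0 : ℂ) R)] fun x => e (x, t) :=
  (ae_restrict_iff' measurableSet_ball).2 (Eventually.of_forall fun x hx =>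
    h.pos _ (hO x (mem_ball_zero_iff.1 hx).le))

theorem SlA_rad (h : Cons O e b₁ b₂) {t r R : ℝ} (hr : r ≤ R)
    (hO : ∀ x : ℂ, ‖x‖ ≤ R → (x, t) ∈ O) :
    ∫ x in ball (0 : ℂ) r, e (x, t) ≤ ∫ x in ball (0 : ℂ) R, e (x, t) :=
  setIntegral_mono_set (SlA_int h hO) (SlA_pos h hO) (ball_subset_ball hr).eventuallyLE

theorem SlA_abs (h : Cons O e b₁ b₂) {C : ℝ} (hC1 : 1 ≤ C)
    (hb : ∀ q ∈ O, |b₁ q| ≤ C * e q ∧ |b₂ q| ≤ C * e q)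
    (hO : ∀ L : ℝ, 0 ≤ L → ∃ t₀ : ℝ, 0 < t₀ ∧ ∀ t ∈ Ioo 0 t₀, ∀ x : ℂ, ‖x‖ ≤ L * t → (x, t) ∈ O) :
    ∃ A₀ : ℝ, (∀ᶠ t : ℝ in 𝓝[>] 0, ∫ x in ball (0 : ℂ) t, e (x, t) ≤ A₀) ∧
      ∀ L ε : ℝ, 0 < ε → ∀ᶠ t : ℝ in 𝓝[>] 0,
        ∫ x in ball (0 : ℂ) (L * t) \ ball 0 ((2 * C + 1) * t), e (x, t) ≤ ε := by
  have hC : 0 ≤ C := by linarith
  obtain ⟨t₀, h0, h1⟩ := hO (2 * C + 2) (by linarith)
  set β : ℝ → ℝ := fun t => ∫ x in ball (0 : ℂ) ((2 * C + 1) * t), e (x, t) with hβ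
  have h2 : ∀ t ∈ Ioo 0 t₀, ∀ x : ℂ, ‖x‖ ≤ (2 * C + 1) * t → (x, t) ∈ O :=
    fun t ht x hx => h1 t ht x (by nlinarith [ht.1])
  have mono : ∀ t₁ ∈ Ioo 0 t₀, ∀ t₂ ∈ Ioo 0 t₀, t₁ < t₂ → β t₁ ≤ β t₂ := by
    intro t₁ h₁ t₂ h₂ hlt
    have m1 : 0 < min (t₂ - t₁) t₁ := lt_min (sub_pos.2 hlt) h₁.1
    have m2 := min_le_left (t₂ - t₁) t₁
    have m3 := min_le_right (t₂ - t₁) t₁
    refine (h.speed hC hb hlt.le (ρ := (2 * C + 1) * t₁)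
      (ρ' := (2 * C + 1) * t₁ + min (t₂ - t₁) t₁) (by nlinarith [h₁.1]) (by linarith) ?_).trans
      (SlA_rad h (by nlinarith) (h2 t₂ h₂))
    intro t ht x hx
    exact h1 t ⟨h₁.1.trans_le ht.1, ht.2.trans_lt h₂.2⟩ x (by nlinarith [ht.1])
  have pos : ∀ t ∈ Ioo 0 t₀, 0 ≤ β t := fun t ht => integral_nonneg_of_ae (SlA_pos h (h2 t ht))
  have hm : t₀ / 2 ∈ Ioo 0 t₀ := ⟨by linarith, by linarith⟩
  refine ⟨β (t₀ / 2), ?_, fun L ε hε => ?_⟩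
  · filter_upwards [Ioo_mem_nhdsGT hm.1] with t ht
    have ht' : t ∈ Ioo 0 t₀ := ⟨ht.1, ht.2.trans hm.2⟩
    exact (SlA_rad h (by nlinarith [ht.1]) (h2 t ht')).trans (mono t ht' _ hm ht.2)
  by_cases hL : L ≤ 2 * C + 1
  · filter_upwards [self_mem_nhdsWithin] with t ht
    rw [Set.diff_eq_empty.2 (ball_subset_ball (mul_le_mul_of_nonneg_right hL (le_of_lt ht)))]
    simpa using hε.le
  push Not at hL
  have hbd : BddBelow (β '' Ioo 0 t₀) := ⟨0, by rintro _ ⟨t, ht, rfl⟩; exact pos t ht⟩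
  obtain ⟨_, ⟨t₁, h₁, rfl⟩, h3⟩ := exists_lt_of_csInf_lt (s := β '' Ioo 0 t₀) ⟨_, _, hm, rfl⟩
    (lt_add_of_pos_right _ hε)
  obtain ⟨t₂, h4, h5⟩ := hO (L + 2 * C + 1) (by linarith)
  have hL0 : 0 < L := by linarith
  filter_upwards [Ioo_mem_nhdsGT (div_pos (lt_min h₁.1 h4) hL0)] with t ht
  have k0 := ht.1
  have k1 : L * t < min t₁ t₂ := by rw [mul_comm]; exact (lt_div_iff₀ hL0).1 ht.2
  have k2 : L * t < t₁ := k1.trans_le (min_le_left _ _)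
  have k3 : L * t < t₂ := k1.trans_le (min_le_right _ _)
  have k4 : t < L * t := by nlinarith
  have k5 : t ∈ Ioo 0 t₀ := ⟨k0, by linarith [h₁.2]⟩
  have k6 : L * t ∈ Ioo 0 t₀ := ⟨by linarith, by linarith [h₁.2]⟩
  have k7 : ∫ x in ball (0 : ℂ) (L * t), e (x, t) ≤ β (L * t) := by
    have := h.speed hC hb k4.le (ρ := L * t) (ρ' := L * t + 2 * C * t) (by linarith)
      (by nlinarith) (by
      intro s hs x hx
      exact h5 s ⟨k0.trans_le hs.1, hs.2.trans_lt k3⟩ x (by nlinarith [hs.1]))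
    rwa [show L * t + 2 * C * t + 2 * C * (L * t - t) = (2 * C + 1) * (L * t) by ring] at this
  rw [setIntegral_sdiff measurableSet_ball
    (SlA_int h fun x hx => h5 t ⟨k0, by linarith⟩ x (by nlinarith))
    (ball_subset_ball (mul_le_mul_of_nonneg_right hL.le k0.le))]
  have k8 := csInf_le hbd ⟨t, k5, rfl⟩
  have k9 := mono _ k6 _ h₁ k2
  change _ - β t ≤ ε
  linarith

end Abstract

/-- The slanted discs have bounded area and the slanted annuli have small area. -/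
theorem Slice.annulus (h : A.Slice π H W) : ∃ C₁ A₀ : ℝ, 1 ≤ C₁ ∧
    (∀ᶠ t : ℝ in 𝓝[>] 0, ∫ x in ball (0 : ℂ) t, A.en H (x, t - x) (1, -1) ≤ A₀) ∧
    ∀ L ε : ℝ, 0 < ε → ∀ᶠ t : ℝ in 𝓝[>] 0,
      ∫ x in ball (0 : ℂ) (L * t) \ ball 0 (C₁ * t), A.en H (x, t - x) (1, -1) ≤ ε := by
  have hθ := one_le_θ A
  obtain ⟨A₀, h1, h2⟩ := SlA_abs (SlA_cons h) hθ (SlA_b h) (SlA_cone h)
  refine ⟨2 * A.θ + 1, A₀, by linarith, ?_, fun L ε hε => ?_⟩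
  · obtain ⟨t₀, h0, h3⟩ := SlA_cone h 1 zero_le_one
    filter_upwards [h1, Ioo_mem_nhdsGT h0] with t ht ht'
    refine le_of_eq_of_le (setIntegral_congr_fun measurableSet_ball fun x hx => ?_) ht
    exact (SlA_e h (h3 t ht' x (by simpa using (mem_ball_zero_iff.1 hx).le))).symm
  · obtain ⟨t₀, h0, h3⟩ := SlA_cone h |L| (abs_nonneg L)
    filter_upwards [h2 L ε hε, Ioo_mem_nhdsGT h0] with t ht ht'
    refine le_of_eq_of_le (setIntegral_congr_fun (measurableSet_ball.diff measurableSet_ball)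
      fun x hx => ?_) ht
    exact (SlA_e h (h3 t ht' x ((mem_ball_zero_iff.1 hx.1).le.trans
      (mul_le_mul_of_nonneg_right (le_abs_self L) ht'.1.le)))).symm

end Vale.Agent.P278.Atl
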