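import Vale.Agent.P278.SlA
import Vale.Agent.P278.Eps

/-! P278 task SlB: the energy is small away from the axes. -/

open Metric Set Filter Topology MeasureTheory

namespace Vale.Agent.P278.Atl

variable {M P : Type} [TopologicalSpace M] [T2Space M] [NormedAddCommGroup P] [NormedSpace ℝ P]
  [NormedSpace ℂ P] [IsScalarTower ℝ ℂ P] [FiniteDimensional ℂ P] {A : Atl M P} {π : P →L[ℂ] P}
  {H : ℂ × ℂ → M} {W : Set (ℂ × ℂ)}

theorem slB_rot (x : ℂ) {τ : ℝ} (hτ : τ ∈ Icc (0 : ℝ) 1) :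
    ‖(‖x‖ : ℂ) * Complex.exp ((τ * x.arg : ℝ) * Complex.I)‖ = ‖x‖ ∧
      x.re ≤ ((‖x‖ : ℂ) * Complex.exp ((τ * x.arg : ℝ) * Complex.I)).re := by
  refine ⟨by rw [norm_mul, Complex.norm_exp_ofReal_mul_I, mul_one, Complex.norm_real, norm_norm],
    ?_⟩
  rw [Complex.re_ofReal_mul, Complex.exp_ofReal_mul_I_re, ← Complex.norm_mul_cos_arg x]
  refine mul_le_mul_of_nonneg_left ?_ (norm_nonneg _)
  rw [← Real.cos_abs x.arg, ← Real.cos_abs (τ * x.arg)]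
  refine Real.cos_le_cos_of_nonneg_of_le_pi (abs_nonneg _) (Complex.abs_arg_le_pi x) ?_
  rw [abs_mul, abs_of_nonneg hτ.1]
  exact mul_le_of_le_one_left (abs_nonneg _) hτ.2

theorem preconnected_annuli {a b c : ℝ} (ha : 0 < a) :
    IsPreconnected {z : ℂ × ℂ | a < ‖z.1‖ ∧ ‖z.1‖ < b ∧ a < ‖z.2‖ ∧ ‖z.2‖ < b ∧
      c < (z.1 + z.2).re} := by
  set Z := {z : ℂ × ℂ | a < ‖z.1‖ ∧ ‖z.1‖ < b ∧ a < ‖z.2‖ ∧ ‖z.2‖ < b ∧ c < (z.1 + z.2).re} with hZ
  have rot : ∀ z ∈ Z, ∃ T ⊆ Z, z ∈ T ∧ ((‖z.1‖ : ℂ), (‖z.2‖ : ℂ)) ∈ T ∧ IsPreconnected T := by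
    intro z hz
    refine ⟨(fun τ : ℝ => ((‖z.1‖ : ℂ) * Complex.exp ((τ * z.1.arg : ℝ) * Complex.I),
      (‖z.2‖ : ℂ) * Complex.exp ((τ * z.2.arg : ℝ) * Complex.I))) '' Icc 0 1, ?_,
      ⟨1, right_mem_Icc.2 zero_le_one, ?_⟩, ⟨0, left_mem_Icc.2 zero_le_one, by simp⟩,
      isPreconnected_Icc.image _ (by fun_prop)⟩
    · rintro _ ⟨τ, hτ, rfl⟩
      obtain ⟨h1, h2⟩ := slB_rot z.1 hτ
      obtain ⟨h3, h4⟩ := slB_rot z.2 hτ
      obtain ⟨k1, k2, k3, k4, k5⟩ := hz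
      refine ⟨by rwa [h1], by rwa [h1], by rwa [h3], by rwa [h3], ?_⟩
      rw [Complex.add_re] at k5 ⊢
      linarith
    · simp only [one_mul, Complex.norm_mul_exp_arg_mul_I]
  have hB : Convex ℝ {p : ℝ × ℝ | a < p.1 ∧ p.1 < b ∧ a < p.2 ∧ p.2 < b ∧ c < p.1 + p.2} :=
    ((convex_Ioi a).linear_preimage (LinearMap.fst ℝ ℝ ℝ)).inter
      (((convex_Iio b).linear_preimage (LinearMap.fst ℝ ℝ ℝ)).inter
      (((convex_Ioi a).linear_preimage (LinearMap.snd ℝ ℝ ℝ)).inter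
      (((convex_Iio b).linear_preimage (LinearMap.snd ℝ ℝ ℝ)).inter
      ((convex_Ioi c).linear_preimage (LinearMap.fst ℝ ℝ ℝ + LinearMap.snd ℝ ℝ ℝ)))))
  have hB' := hB.isPreconnected.image (fun p : ℝ × ℝ => ((p.1 : ℂ), (p.2 : ℂ))) (by fun_prop)
  have mem : ∀ z ∈ Z, ((‖z.1‖ : ℂ), (‖z.2‖ : ℂ)) ∈ (fun p : ℝ × ℝ => ((p.1 : ℂ), (p.2 : ℂ))) ''
      {p : ℝ × ℝ | a < p.1 ∧ p.1 < b ∧ a < p.2 ∧ p.2 < b ∧ c < p.1 + p.2} := by
    rintro z ⟨k1, k2, k3, k4, k5⟩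
    refine ⟨(‖z.1‖, ‖z.2‖), ⟨k1, k2, k3, k4, ?_⟩, rfl⟩
    rw [Complex.add_re] at k5
    linarith [Complex.re_le_norm z.1, Complex.re_le_norm z.2]
  refine isPreconnected_of_forall_pair fun z hz z' hz' => ?_
  obtain ⟨T, h1, h2, h3, h4⟩ := rot z hz
  obtain ⟨T', h1', h2', h3', h4'⟩ := rot z' hz'
  refine ⟨_, union_subset (union_subset h1 ?_) h1', Or.inl (Or.inl h2), Or.inr h2',
    (h4.union _ h3 (mem z hz) hB').union _ (Or.inr (mem z' hz')) h3' h4'⟩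
  rintro _ ⟨p, ⟨k1, k2, k3, k4, k5⟩, rfl⟩
  have e1 : ‖(p.1 : ℂ)‖ = p.1 := by rw [Complex.norm_real, Real.norm_of_nonneg (ha.trans k1).le]
  have e2 : ‖(p.2 : ℂ)‖ = p.2 := by rw [Complex.norm_real, Real.norm_of_nonneg (ha.trans k3).le]
  exact ⟨by rwa [e1], by rwa [e1], by rwa [e2], by rwa [e2], by simpa using k5⟩

omit [T2Space M] in
theorem Slice.slB_hol (h : A.Slice π H W) {t x : ℂ} (hx : (x, t - x) ∈ W) :
    A.Hol (fun x' => H (x', t - x')) x ∧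
      A.en (fun x' => H (x', t - x')) x 1 = A.en H (x, t - x) (1, -1) := by
  have hg : HasDerivAt (fun x' : ℂ => (x', t - x')) ((1 : ℂ), (-1 : ℂ)) x :=
    (hasDerivAt_id x).prodMk ((hasDerivAt_id x).const_sub t)
  refine ⟨Hol.comp (Ψ := H) (g := fun x' : ℂ => (x', t - x')) (h.hol _ hx) (by fun_prop), ?_⟩
  have := Hol.en_comp (Ψ := H) (g := fun x' : ℂ => (x', t - x')) (h.hol _ hx)
    hg.differentiableAt 1
  rw [fderiv_apply_one_eq_deriv, hg.deriv] at this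
  exact this

theorem Slice.slant (h : A.Slice π H W) (ε : ℝ) (hε : 0 < ε) : ∃ κ : ℝ, 100 ≤ κ ∧
    ∀ᶠ t : ℝ in 𝓝[>] 0, ∀ x : ℂ, κ * t / 20 ≤ ‖x‖ → ‖x‖ ≤ 4 * (κ * t) →
      (κ * t) ^ 2 * A.en H (x, t - x) (1, -1) ≤ ε := by
  obtain ⟨C₁, A₀, hC, -, hann⟩ := h.annulus
  obtain ⟨ε₀, C, h0, hC0, hreg⟩ := A.eps_reg
  refine ⟨100 * C₁, by linarith, ?_⟩
  set κ := 100 * C₁ with hκ
  have hκ0 : 0 < κ := by linarith
  filter_upwards [hann (5 * κ) (min ε₀ (ε / (1600 * C))) (lt_min h0 (by positivity)),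
    h.cone (5 * κ + 1), self_mem_nhdsWithin] with t ht hW ht0 x₀ h1 h2
  have ht0' : 0 < t := ht0
  have hs : 0 < κ * t := mul_pos hκ0 ht0'
  have hW' : ∀ x ∈ closedBall (0 : ℂ) (5 * κ * t), (x, (t : ℂ) - x) ∈ W := fun x hx => by
    rw [mem_closedBall_zero_iff] at hx
    refine hW _ ?_ (by simp)
    rw [Prod.norm_mk]
    refine max_le (by linarith) ((norm_sub_le _ _).trans ?_)
    rw [Complex.norm_real, Real.norm_of_nonneg ht0'.le]
    linarith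
  have hsub : closedBall x₀ (κ * t / 40) ⊆ ball (0 : ℂ) (5 * κ * t) \ ball 0 (C₁ * t) := by
    intro x hx
    rw [mem_closedBall, dist_eq_norm] at hx
    have a1 := norm_sub_norm_le x x₀
    have a2 := norm_sub_norm_le x₀ x
    rw [norm_sub_rev] at a2
    have a3 : κ * t = 100 * (C₁ * t) := by rw [hκ]; ring
    refine ⟨mem_ball_zero_iff.2 (by linarith), fun hb => ?_⟩
    rw [mem_ball_zero_iff] at hb
    linarith
  have hsub' : ball (0 : ℂ) (5 * κ * t) \ ball 0 (C₁ * t) ⊆ closedBall 0 (5 * κ * t) :=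
    sdiff_subset.trans ball_subset_closedBall
  have hcont : ContinuousOn (fun x : ℂ => A.en H (x, t - x) (1, -1)) (closedBall 0 (5 * κ * t)) :=
    fun x hx => (ContinuousAt.comp (g := fun q => A.en H q (1, -1))
      (f := fun x : ℂ => (x, (t : ℂ) - x))
      ((h.hol _ (hW' x hx)).continuousAt_en _) (by fun_prop)).continuousWithinAt
  have hint : ∫ x in ball x₀ (κ * t / 40), A.en (fun x' => H (x', t - x')) x 1 ≤
      min ε₀ (ε / (1600 * C)) := by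
    rw [setIntegral_congr_fun measurableSet_ball fun x hx =>
      (h.slB_hol (hW' x (hsub' (hsub (ball_subset_closedBall hx))))).2]
    refine le_trans (setIntegral_mono_set
      ((hcont.integrableOn_compact (isCompact_closedBall _ _)).mono_set hsub') ?_
      (ball_subset_closedBall.trans hsub).eventuallyLE) ht
    exact ae_restrict_of_forall_mem (measurableSet_ball.diff measurableSet_ball) fun x hx =>
      (h.hol _ (hW' x (hsub' hx))).en_nonneg _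
  have key := hreg (fun x' => H (x', t - x')) x₀ (κ * t / 40) (by positivity)
    (fun x hx => (h.slB_hol (hW' x (hsub' (hsub hx)))).1) (hint.trans (min_le_left _ _))
  rw [(h.slB_hol (hW' x₀ (hsub' (hsub (mem_closedBall_self (by positivity)))))).2] at key
  have k2 := mul_le_mul_of_nonneg_left (hint.trans (min_le_right _ _)) hC0.le
  have k3 : C * (ε / (1600 * C)) = ε / 1600 := by field_simp
  linarith

theorem slB_path {s : ℝ} (hs : 0 < s) {x : ℂ} (h1 : s / 20 ≤ ‖x‖) (h2 : ‖x‖ ≤ 4 * s) :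
    ∃ w : ℂ, ‖w‖ ≤ 25 ∧ s * Complex.exp w = x ∧ ∀ τ ∈ Icc (0 : ℝ) 1,
      s / 20 ≤ ‖s * Complex.exp (τ * w)‖ ∧ ‖s * Complex.exp (τ * w)‖ ≤ 4 * s := by
  have hx : 0 < ‖x‖ := lt_of_lt_of_le (by positivity) h1
  have hs' : (s : ℂ) ≠ 0 := Complex.ofReal_ne_zero.2 hs.ne'
  have hu : ‖x / s‖ = ‖x‖ / s := by rw [norm_div, Complex.norm_real, Real.norm_of_nonneg hs.le]
  have hu0 : 0 < ‖x‖ / s := div_pos hx hs
  have u1 : 1 / 20 ≤ ‖x‖ / s := by rw [le_div_iff₀ hs]; linarith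
  have u2 : ‖x‖ / s ≤ 4 := by rw [div_le_iff₀ hs]; linarith
  refine ⟨Complex.log (x / s), ?_, ?_, fun τ hτ => ?_⟩
  · refine (Complex.norm_le_abs_re_add_abs_im _).trans ?_
    rw [Complex.log_re, Complex.log_im, hu]
    have a1 := Real.log_le_sub_one_of_pos hu0
    have a2 := Real.log_le_sub_one_of_pos (inv_pos.2 hu0)
    have a3 : (‖x‖ / s)⁻¹ ≤ 20 := (inv_le_comm₀ hu0 (by norm_num)).2 (by linarith)
    rw [Real.log_inv] at a2
    have a4 : |Real.log (‖x‖ / s)| ≤ 19 := abs_le.2 ⟨by linarith, by linarith⟩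
    linarith [Complex.abs_arg_le_pi (x / s), Real.pi_le_four]
  · rw [Complex.exp_log (div_ne_zero (norm_pos_iff.1 hx) hs'), mul_div_cancel₀ _ hs']
  · rw [norm_mul, Complex.norm_real, Real.norm_of_nonneg hs.le, Complex.norm_exp,
      Complex.re_ofReal_mul, Complex.log_re, hu]
    have e := Real.exp_log hu0
    have b1 : 1 / 20 ≤ Real.exp (τ * Real.log (‖x‖ / s)) ∧
        Real.exp (τ * Real.log (‖x‖ / s)) ≤ 4 := by
      rcases le_total 0 (Real.log (‖x‖ / s)) with h | h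
      · have c1 := Real.one_le_exp (mul_nonneg hτ.1 h)
        have c2 := Real.exp_le_exp.2 (mul_le_of_le_one_left h hτ.2)
        constructor <;> linarith
      · have c1 := Real.exp_le_one_iff.2 (mul_nonpos_of_nonneg_of_nonpos hτ.1 h)
        have c2 := Real.exp_le_exp.2 (le_mul_of_le_one_left h hτ.2)
        constructor <;> linarith
    constructor <;> nlinarith [b1.1, b1.2]

theorem slB_stay {g : ℂ → M} {s : ℝ} (hs : 0 < s)
    (hg : ∀ x : ℂ, s / 20 ≤ ‖x‖ → ‖x‖ ≤ 4 * s → A.Hol g x ∧ s ^ 2 * A.en g x 1 ≤ A.lam / 10 ^ 6)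
    {a : A.ι} (ha : g s ∈ (A.c a).source) (hn : ‖A.c a (g s)‖ < 1) {x : ℂ} (h1 : s / 20 ≤ ‖x‖)
    (h2 : ‖x‖ ≤ 4 * s) : g x ∈ (A.c a).source ∧ ‖A.c a (g x) - A.c a (g s)‖ ≤ 1 := by
  obtain ⟨w, w1, w2, w3⟩ := slB_path hs h1 h2
  have hn' : ‖A.c a (g ((s : ℂ) * Complex.exp ((0 : ℝ) * w)))‖ + 1 < 4 := by
    simp only [Complex.ofReal_zero, zero_mul, Complex.exp_zero, mul_one]
    linarith
  have key := stay (A := A) (Ψ := g) (σ := fun τ : ℝ => (s : ℂ) * Complex.exp (τ * w))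
    (σ' := fun τ : ℝ => (s : ℂ) * (Complex.exp (τ * w) * w)) (L := 1) zero_le_one
    (fun τ hτ => ?_) (a := a) (by simpa using ha) hn' 1 (right_mem_Icc.2 zero_le_one)
  · simpa only [Complex.ofReal_one, one_mul, w2, Complex.ofReal_zero, zero_mul, Complex.exp_zero,
      mul_one] using key
  obtain ⟨k1, k2⟩ := hg _ (w3 τ hτ).1 (w3 τ hτ).2
  refine ⟨?_, k1, ?_⟩
  · have : HasDerivAt (fun z : ℂ => (s : ℂ) * Complex.exp (z * w))
        ((s : ℂ) * (Complex.exp (τ * w) * w)) (τ : ℂ) := by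
      simpa using (((hasDerivAt_id (τ : ℂ)).mul_const w).cexp).const_mul (s : ℂ)
    exact this.comp_ofReal
  · have e : (s : ℂ) * (Complex.exp (τ * w) * w) = ((s : ℂ) * Complex.exp (τ * w) * w) • (1 : ℂ) := by
      rw [smul_eq_mul]; ring
    rw [e, k1.en_smul]
    have n1 : ‖(s : ℂ) * Complex.exp (τ * w) * w‖ ≤ 4 * s * 25 := by
      rw [norm_mul]
      exact mul_le_mul (w3 τ hτ).2 w1 (norm_nonneg _) (by positivity)
    have n2 := mul_le_mul_of_nonneg_right (pow_le_pow_left₀ (norm_nonneg _) n1 2) (k1.en_nonneg 1)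
    have := A.lam_pos
    linarith

theorem Slice.away (h : A.Slice π H W) (ε : ℝ) (hε : 0 < ε) : ∀ᶠ s : ℝ in 𝓝[>] 0, ∀ x y : ℂ,
    s / 10 ≤ ‖x‖ → ‖x‖ ≤ 3 * s → s / 10 ≤ ‖y‖ → ‖y‖ ≤ 3 * s → s / 10 ≤ (x + y).re →
      s ^ 2 * A.en H (x, y) (1, 0) ≤ ε ∧ s ^ 2 * A.en H (x, y) (0, 1) ≤ ε := by
  have hl := A.lam_pos
  have hθ := A.one_le_θ
  obtain ⟨κ, hκ, hsl⟩ := h.slant (min (A.lam / 10 ^ 6) (ε / A.θ)) (lt_min (by positivity)
    (by positivity))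
  have hκ0 : 0 < κ := by linarith
  have td : ∀ k : ℝ, 0 < k → Tendsto (fun s : ℝ => s / k) (𝓝[>] 0) (𝓝[>] 0) := fun k hk => by
    refine tendsto_nhdsWithin_iff.2 ⟨?_, ?_⟩
    · have : Tendsto (fun s : ℝ => s / k) (𝓝 0) (𝓝 (0 / k)) := tendsto_id.div_const k
      rw [zero_div] at this
      exact this.mono_left nhdsWithin_le_nhds
    · filter_upwards [self_mem_nhdsWithin] with s hs using div_pos hs hk
  filter_upwards [(td κ hκ0).eventually hsl, (td (2 * κ) (by positivity)).eventually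
    (h.cone (10 * κ)), self_mem_nhdsWithin] with s h1 h2 hs0 x y x1 x2 y1 y2 hxy
  have hs : 0 < s := hs0
  have e1 : κ * (s / κ) = s := by field_simp
  have e2 : 10 * κ * (s / (2 * κ)) = 5 * s := by field_simp; ring
  have e3 : s / (2 * κ) = s / κ / 2 := by field_simp
  rw [e1] at h1
  rw [e2, e3] at h2
  have t1 : s / κ ≤ s / 100 := div_le_div_of_nonneg_left hs.le (by norm_num) hκ
  have t0 : 0 < s / κ := div_pos hs hκ0
  generalize s / κ = t at h1 h2 t1 t0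
  have nt : ‖(t : ℂ)‖ = t := by rw [Complex.norm_real, Real.norm_of_nonneg t0.le]
  have ns : ‖(s : ℂ)‖ = s := by rw [Complex.norm_real, Real.norm_of_nonneg hs.le]
  have hW : ∀ u : ℂ, ‖u‖ ≤ 4 * s → (u, (t : ℂ) - u) ∈ W := fun u hu => by
    refine h2 _ ?_ (by simp; linarith)
    rw [Prod.norm_mk]
    exact max_le (by linarith) ((norm_sub_le _ _).trans (by linarith))
  have hg : ∀ u : ℂ, s / 20 ≤ ‖u‖ → ‖u‖ ≤ 4 * s → A.Hol (fun x' => H (x', t - x')) u ∧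
      s ^ 2 * A.en (fun x' => H (x', t - x')) u 1 ≤ min (A.lam / 10 ^ 6) (ε / A.θ) :=
    fun u u1 u2 => ⟨(h.slB_hol (hW u u2)).1, by rw [(h.slB_hol (hW u u2)).2]; exact h1 u u1 u2⟩
  obtain ⟨a, ha, hn⟩ := A.cover (H (s, t - s))
  have hst := fun (u : ℂ) (u1 : s / 20 ≤ ‖u‖) (u2 : ‖u‖ ≤ 4 * s) => slB_stay hs
    (fun u u1 u2 => ⟨(hg u u1 u2).1, (hg u u1 u2).2.trans (min_le_left _ _)⟩) ha hn u1 u2
  set F : ℂ → P := A.c a ∘ fun x' => H (x', t - x') with hF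
  have hFa : ∀ u : ℂ, s / 20 ≤ ‖u‖ → ‖u‖ ≤ 4 * s → AnalyticAt ℂ F u := fun u u1 u2 =>
    (hg u u1 u2).1.2 a (hst u u1 u2).1
  have hFd : ∀ u : ℂ, s / 20 ≤ ‖u‖ → ‖u‖ ≤ 4 * s →
      s ^ 2 * (A.Lam * ‖fderiv ℂ F u 1‖ ^ 2) ≤ ε := fun u u1 u2 => by
    have k1 := mul_le_mul_of_nonneg_left ((hg u u1 u2).1.le_en (hst u u1 u2).1 1) (sq_nonneg s)
    have k2 := (k1.trans (hg u u1 u2).2).trans (min_le_right _ _)
    rw [le_div_iff₀ (by linarith)] at k2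
    refine le_trans (le_of_eq ?_) k2
    rw [θ, hF]; field_simp
  set g : ℂ × ℂ → P := fun z => π (F z.1) + (F (t - z.2) - π (F (t - z.2))) with hgd
  set Z := {z : ℂ × ℂ | s / 15 < ‖z.1‖ ∧ ‖z.1‖ < 7 / 2 * s ∧ s / 15 < ‖z.2‖ ∧ ‖z.2‖ < 7 / 2 * s ∧
    t / 2 < (z.1 + z.2).re} with hZ
  have hZ1 : ∀ z ∈ Z, (s / 20 ≤ ‖z.1‖ ∧ ‖z.1‖ ≤ 4 * s) ∧
      s / 20 ≤ ‖(t : ℂ) - z.2‖ ∧ ‖(t : ℂ) - z.2‖ ≤ 4 * s := by
    rintro z ⟨k1, k2, k3, k4, -⟩
    have a1 := norm_sub_le (t : ℂ) z.2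
    have a2 := norm_sub_norm_le z.2 (t : ℂ)
    rw [norm_sub_rev] at a2
    exact ⟨⟨by linarith, by linarith⟩, by linarith, by linarith⟩
  have hZW : ∀ z ∈ Z, z ∈ W := by
    rintro z ⟨-, k2, -, k4, k5⟩
    exact h2 z (by rw [Prod.norm_def]; exact max_le (by linarith) (by linarith)) k5.le
  have hga : ∀ z ∈ Z, AnalyticAt ℂ g z := fun z hz => by
    obtain ⟨⟨k1, k2⟩, k3, k4⟩ := hZ1 z hz
    have a1 : AnalyticAt ℂ (fun z : ℂ × ℂ => F z.1) z :=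
      AnalyticAt.comp (g := F) (f := fun z : ℂ × ℂ => z.1) (hFa _ k1 k2) analyticAt_fst
    have a2 : AnalyticAt ℂ (fun z : ℂ × ℂ => F (t - z.2)) z :=
      AnalyticAt.comp (g := F) (f := fun z : ℂ × ℂ => (t : ℂ) - z.2) (hFa _ k3 k4)
        (analyticAt_const.sub analyticAt_snd)
    exact ((π.analyticAt _).comp a1).add (a2.sub ((π.analyticAt _).comp a2))
  have hgn : ∀ z ∈ Z, ‖g z‖ < 4 := fun z hz => by
    obtain ⟨⟨k1, k2⟩, k3, k4⟩ := hZ1 z hz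
    have b1 : ‖F z.1 - F s‖ ≤ 1 := (hst _ k1 k2).2
    have b2 : ‖F (t - z.2) - F s‖ ≤ 1 := (hst _ k3 k4).2
    have b3 : ‖F s‖ < 1 := hn
    have e : g z = F s + π (F z.1 - F s) + ((F (t - z.2) - F s) - π (F (t - z.2) - F s)) := by
      simp only [hgd, map_sub]; abel
    rw [e]
    have c1 := h.n1 (F z.1 - F s)
    have c2 := h.n2 (F (t - z.2) - F s)
    exact norm_add₃_le.trans_lt (by linarith)
  have hz0 : ((s : ℂ), (t : ℂ) - s) ∈ Z := by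
    have a1 := norm_sub_le (t : ℂ) s
    have a2 := norm_sub_norm_le (s : ℂ) (t : ℂ)
    rw [norm_sub_rev] at a2
    refine ⟨by linarith, by linarith, by linarith, by linarith, ?_⟩
    simp only [add_sub_cancel, Complex.ofReal_re]
    linarith
  have he : H =ᶠ[𝓝 ((s : ℂ), (t : ℂ) - s)] fun z => (A.c a).symm (g z) := by
    have sp := h.split _ (hZW _ hz0) a ha
    have c1 : Tendsto (fun z : ℂ × ℂ => (z.1, (t : ℂ) - z.1)) (𝓝 ((s : ℂ), (t : ℂ) - s))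
        (𝓝 ((s : ℂ), (t : ℂ) - s)) :=
      (by fun_prop : Continuous fun z : ℂ × ℂ => (z.1, (t : ℂ) - z.1)).tendsto' _ _ rfl
    have c2 : Tendsto (fun z : ℂ × ℂ => ((t : ℂ) - z.2, z.2)) (𝓝 ((s : ℂ), (t : ℂ) - s))
        (𝓝 ((s : ℂ), (t : ℂ) - s)) :=
      (by fun_prop : Continuous fun z : ℂ × ℂ => ((t : ℂ) - z.2, z.2)).tendsto' _ _ (by simp)
    filter_upwards [sp, c1.eventually sp, c2.eventually sp,
      (h.hol _ (hZW _ hz0)).1.eventually ((A.c a).open_source.mem_nhds ha)] with z p0 p1 p2 p3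
    have q1 : F z.1 = A.c a (H (z.1, t - z.1)) := rfl
    have q2 : F (t - z.2) = A.c a (H (t - z.2, z.2)) := by simp [hF]
    have : g z = A.c a (H z) := by
      simp only [hgd]
      rw [q1, q2, p0, p1, p2]
      simp only [map_add, map_sub, h.proj]
      abel
    rw [this, (A.c a).left_inv p3]
  have hz : (x, y) ∈ Z := ⟨by linarith, by linarith, by linarith, by linarith, by linarith⟩
  have hid := ident (preconnected_annuli (by positivity)) (fun z hz => h.hol z (hZW z hz))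
    (fun z hz => hol_symm_comp a (hga z hz) (hgn z hz)) hz0 he _ hz
  have hev : ∀ᶠ z in 𝓝 (x, y), g z ∈ (A.c a).target := by
    rw [A.tgt]
    exact (hga _ hz).continuousAt.eventually
      (isOpen_ball.mem_nhds (mem_ball_zero_iff.2 (hgn _ hz)))
  have hsrc : H (x, y) ∈ (A.c a).source := by
    rw [hid.self_of_nhds]; exact (A.c a).map_target hev.self_of_nhds
  have hcg : A.c a ∘ H =ᶠ[𝓝 (x, y)] g := by
    filter_upwards [hid, hev] with z p1 p2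
    rw [Function.comp_apply, p1, (A.c a).right_inv p2]
  obtain ⟨⟨k1, k2⟩, k3, k4⟩ := hZ1 _ hz
  have d1 : HasFDerivAt (fun z : ℂ × ℂ => F z.1)
      ((fderiv ℂ F x).comp (ContinuousLinearMap.fst ℂ ℂ ℂ)) (x, y) :=
    HasFDerivAt.comp (g := F) (f := fun z : ℂ × ℂ => z.1) (x, y)
      (hFa _ k1 k2).differentiableAt.hasFDerivAt hasFDerivAt_fst
  have d2 : HasFDerivAt (fun z : ℂ × ℂ => F (t - z.2))
      ((fderiv ℂ F (t - y)).comp (-ContinuousLinearMap.snd ℂ ℂ ℂ)) (x, y) :=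
    HasFDerivAt.comp (g := F) (f := fun z : ℂ × ℂ => (t : ℂ) - z.2) (x, y)
      (hFa _ k3 k4).differentiableAt.hasFDerivAt (hasFDerivAt_snd.const_sub _)
  have d3 := ((π.hasFDerivAt.comp _ d1).add (d2.sub (π.hasFDerivAt.comp _ d2))).fderiv
  have d4 : fderiv ℂ (A.c a ∘ H) (x, y) = _ := hcg.fderiv_eq.trans d3
  have hL : 0 ≤ A.Lam := hl.le.trans A.lam_le
  have fin : ∀ (ξ : ℂ × ℂ) (u : ℂ), s / 20 ≤ ‖u‖ → ‖u‖ ≤ 4 * s →
      ‖fderiv ℂ (A.c a ∘ H) (x, y) ξ‖ ≤ ‖fderiv ℂ F u 1‖ → s ^ 2 * A.en H (x, y) ξ ≤ ε :=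
    fun ξ u u1 u2 hu => le_trans (mul_le_mul_of_nonneg_left
      (((h.hol _ (hZW _ hz)).en_le hsrc ξ).trans (mul_le_mul_of_nonneg_left
        (pow_le_pow_left₀ (norm_nonneg _) hu 2) hL)) (sq_nonneg s)) (hFd u u1 u2)
  refine ⟨fin _ x k1 k2 ?_, fin _ (t - y) k3 k4 ?_⟩
  · rw [d4]
    simpa using h.n1 (fderiv ℂ F x 1)
  · rw [d4]
    have := h.n2 (fderiv ℂ F (t - y) 1)
    rw [← norm_neg] at this
    refine le_trans (le_of_eq ?_) this
    congr 1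
    simp
    abel

end Vale.Agent.P278.Atl
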