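import Vale.Agent.P278.SlB

/-! P278 task SlC: the vertical energy is small near the vertical axis. -/

open Metric Set Filter Topology MeasureTheory

namespace Vale.Agent.P278.Atl

namespace SlCAux

/-- The tilting family of discs. -/
noncomputable def tilt (y : ℝ) (q : ℂ × ℝ) : ℂ × ℂ := (q.1, (y : ℂ) - (q.2 : ℂ) * q.1)

theorem tilt_contDiff (y : ℝ) : ContDiff ℝ 2 (tilt y) := by
  unfold tilt
  refine contDiff_fst.prodMk (contDiff_const.sub (ContDiff.mul ?_ contDiff_fst))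
  exact Complex.ofRealCLM.contDiff.comp contDiff_snd

theorem tilt_fderiv (y : ℝ) (q ξ : ℂ × ℝ) :
    fderiv ℝ (tilt y) q ξ = (ξ.1, -((q.2 : ℂ) * ξ.1 + (ξ.2 : ℂ) * q.1)) := by
  have h1 : HasFDerivAt (fun q : ℂ × ℝ => (q.2 : ℂ))
      (Complex.ofRealCLM.comp (ContinuousLinearMap.snd ℝ ℂ ℝ)) q :=
    Complex.ofRealCLM.hasFDerivAt.comp q hasFDerivAt_snd
  have h2 := (hasFDerivAt_fst (𝕜 := ℝ) (p := q)).prodMk
    ((h1.mul (hasFDerivAt_fst (𝕜 := ℝ) (p := q))).const_sub (y : ℂ))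
  have h3 : fderiv ℝ (tilt y) q = _ := h2.fderiv
  rw [h3]
  simp [mul_comm]

theorem tilt_bounds {y t : ℝ} {x : ℂ} (hy : 0 < y) (ht : t ∈ Icc (0 : ℝ) 1)
    (hx : ‖x‖ ≤ 8 * (y / 10)) :
    y / 10 ≤ ‖(y : ℂ) - (t : ℂ) * x‖ ∧ ‖(y : ℂ) - (t : ℂ) * x‖ ≤ 2 * y ∧
      y / 10 ≤ (x + ((y : ℂ) - (t : ℂ) * x)).re := by
  have h1 : ‖(t : ℂ) * x‖ ≤ ‖x‖ := by
    rw [norm_mul, Complex.norm_real, Real.norm_of_nonneg ht.1]
    exact mul_le_of_le_one_left (norm_nonneg _) ht.2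
  have h2 : ‖(y : ℂ)‖ = y := by rw [Complex.norm_real, Real.norm_of_nonneg hy.le]
  have h3 := norm_sub_norm_le (y : ℂ) ((t : ℂ) * x)
  have h4 := norm_sub_le (y : ℂ) ((t : ℂ) * x)
  have h5 := (abs_le.1 ((Complex.abs_re_le_norm x).trans hx)).1
  refine ⟨by linarith, by linarith, ?_⟩
  have h6 : (x + ((y : ℂ) - (t : ℂ) * x)).re = y + (1 - t) * x.re := by
    simp
    ring
  rw [h6]
  nlinarith [ht.1, ht.2]

variable {M P : Type} [TopologicalSpace M] [NormedAddCommGroup P] [NormedSpace ℝ P]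
  [NormedSpace ℂ P] [IsScalarTower ℝ ℂ P] [FiniteDimensional ℂ P] {A : Atl M P} {π : P →L[ℂ] P}
  {H : ℂ × ℂ → M} {W : Set (ℂ × ℂ)}

omit [IsScalarTower ℝ ℂ P] [FiniteDimensional ℂ P] in
theorem inW (h : A.Slice π H W) : ∀ᶠ y : ℝ in 𝓝[>] 0, ∀ z : ℂ × ℂ, ‖z‖ ≤ 2 * y →
    y / 10 ≤ (z.1 + z.2).re → z ∈ W := by
  have ht : Tendsto (fun y : ℝ => y / 10) (𝓝[>] 0) (𝓝[>] 0) := by
    refine tendsto_nhdsWithin_iff.2 ⟨?_, ?_⟩
    · have : Tendsto (fun y : ℝ => y / 10) (𝓝 0) (𝓝 (0 / 10)) := tendsto_id.div_const 10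
      rw [zero_div] at this
      exact this.mono_left nhdsWithin_le_nhds
    · filter_upwards [self_mem_nhdsWithin] with y hy
      exact div_pos (mem_Ioi.1 hy) (by norm_num)
  filter_upwards [ht.eventually (h.cone 20)] with y hy z h1 h2
  exact hy z (by linarith) h2

theorem sm_tilt (h : A.Slice π H W) {y : ℝ} {q : ℂ × ℝ} (hq : tilt y q ∈ W) :
    A.Sm (H ∘ tilt y) q :=
  (h.hol _ hq).sm.comp (tilt_contDiff y).contDiffAt

theorem T_tilt (h : A.Slice π H W) {y : ℝ} {q : ℂ × ℝ} (hq : tilt y q ∈ W) (ξ η : ℂ × ℝ) :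
    A.T (H ∘ tilt y) q ξ η = A.T H (tilt y q) (ξ.1, -((q.2 : ℂ) * ξ.1 + (ξ.2 : ℂ) * q.1))
      (η.1, -((q.2 : ℂ) * η.1 + (η.2 : ℂ) * q.1)) := by
  rw [(h.hol _ hq).sm.T_comp ((tilt_contDiff y).differentiable (by norm_num) q), tilt_fderiv,
    tilt_fderiv]

theorem e_tilt (h : A.Slice π H W) {y : ℝ} {q : ℂ × ℝ} (hq : tilt y q ∈ W) :
    A.T (H ∘ tilt y) q (1, 0) (Complex.I, 0) = A.en H (tilt y q) (1, -(q.2 : ℂ)) := by
  rw [T_tilt h hq, en]
  simp [mul_comm]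

theorem cons_tilt (h : A.Slice π H W) (y : ℝ) :
    Cons (tilt y ⁻¹' W) (fun q => A.T (H ∘ tilt y) q (1, 0) (Complex.I, 0))
      (fun q => A.T (H ∘ tilt y) q (Complex.I, 0) (0, 1))
      (fun q => A.T (H ∘ tilt y) q (0, 1) (1, 0)) where
  isOpen := h.isOpen.preimage (tilt_contDiff y).continuous
  he := fun _ hq => (sm_tilt h hq).contDiffAt_T _ _
  h₁ := fun _ hq => (sm_tilt h hq).contDiffAt_T _ _
  h₂ := fun _ hq => (sm_tilt h hq).contDiffAt_T _ _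
  div := fun _ hq => (sm_tilt h hq).closedAt_T (0, 1) (1, 0) (Complex.I, 0)
  pos := fun _ hq => by
    rw [e_tilt h hq]
    exact (h.hol _ hq).en_nonneg _

theorem T_bound {z : ℂ × ℂ} (hz : A.Hol H z) {y : ℝ} (hy : 0 < y)
    (h1 : y ^ 2 * A.en H z (1, 0) ≤ 1) (h2 : y ^ 2 * A.en H z (0, 1) ≤ 1) {ξ : ℂ × ℂ} {x : ℂ}
    (k1 : ‖ξ.1‖ ≤ 1) (k2 : ‖ξ.2‖ ≤ 1) (hx : ‖x‖ ≤ y) :
    |A.T H z ξ (0, x)| ≤ 2 * A.θ / y ∧ |A.T H z (0, x) ξ| ≤ 2 * A.θ / y := by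
  obtain ⟨a, ha, -⟩ := A.cover (H z)
  set D := fderiv ℂ (A.c a ∘ H) z with hD
  have l1 := hz.le_en ha (1, 0)
  have l2 := hz.le_en ha (0, 1)
  rw [← hD] at l1 l2
  have hl := A.lam_pos
  have hL : 0 ≤ A.Lam := hl.le.trans A.lam_le
  have n1 := norm_nonneg (D (1, 0))
  have n2 := norm_nonneg (D (0, 1))
  have e1 : ‖D ξ‖ ≤ ‖D (1, 0)‖ + ‖D (0, 1)‖ := by
    have : ξ = ξ.1 • ((1, 0) : ℂ × ℂ) + ξ.2 • ((0, 1) : ℂ × ℂ) := by simp
    rw [this, map_add, map_smul, map_smul]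
    refine (norm_add_le _ _).trans (add_le_add ?_ ?_)
    · rw [norm_smul]; exact mul_le_of_le_one_left n1 k1
    · rw [norm_smul]; exact mul_le_of_le_one_left n2 k2
  have e2 : ‖D (0, x)‖ ≤ y * ‖D (0, 1)‖ := by
    have : ((0, x) : ℂ × ℂ) = x • ((0, 1) : ℂ × ℂ) := by simp
    rw [this, map_smul, norm_smul]
    exact mul_le_mul_of_nonneg_right hx n2
  have y2 : 0 < y ^ 2 := by positivity
  have f1 : y ^ 2 * (A.lam * ‖D (1, 0)‖ ^ 2) ≤ 1 := (mul_le_mul_of_nonneg_left l1 y2.le).trans h1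
  have f2 : y ^ 2 * (A.lam * ‖D (0, 1)‖ ^ 2) ≤ 1 := (mul_le_mul_of_nonneg_left l2 y2.le).trans h2
  have key : A.Lam * (‖D ξ‖ * ‖D (0, x)‖) ≤ 2 * A.θ / y := by
    have g1 : ‖D ξ‖ * ‖D (0, x)‖ ≤ (‖D (1, 0)‖ + ‖D (0, 1)‖) * (y * ‖D (0, 1)‖) :=
      mul_le_mul e1 e2 (norm_nonneg _) (by positivity)
    have g2 : (‖D (1, 0)‖ + ‖D (0, 1)‖) * (y * ‖D (0, 1)‖) ≤ 2 / (A.lam * y) := by
      rw [le_div_iff₀ (by positivity)]
      have g3 : 0 ≤ y ^ 2 * A.lam * (‖D (1, 0)‖ - ‖D (0, 1)‖) ^ 2 := by positivity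
      nlinarith
    calc A.Lam * (‖D ξ‖ * ‖D (0, x)‖) ≤ A.Lam * (2 / (A.lam * y)) :=
          mul_le_mul_of_nonneg_left (g1.trans g2) hL
      _ = 2 * A.θ / y := by unfold θ; field_simp
  constructor
  · refine (hz.abs_T_le ha _ _).trans ?_
    rw [← hD, mul_assoc]
    exact key
  · refine (hz.abs_T_le ha _ _).trans ?_
    rw [← hD, mul_assoc, mul_comm ‖D (0, x)‖]
    exact key

theorem hor (h : A.Slice π H W) {x y : ℂ} (hz : (x, y) ∈ W) :
    A.Hol (fun x' => H (x', y)) x ∧ A.en (fun x' => H (x', y)) x 1 = A.en H (x, y) (1, 0) := by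
  have hg : AnalyticAt ℂ (fun x' : ℂ => (x', y)) x := analyticAt_id.prod analyticAt_const
  refine ⟨Hol.comp (g := fun x' : ℂ => (x', y)) (h.hol _ hz) hg,
    (Hol.en_comp (g := fun x' : ℂ => (x', y)) (h.hol _ hz) hg.differentiableAt 1).trans ?_⟩
  rw [(hasFDerivAt_prodMk_left (𝕜 := ℂ) x y).fderiv]
  rfl

end SlCAux

open SlCAux

variable {M P : Type} [TopologicalSpace M] [T2Space M] [NormedAddCommGroup P] [NormedSpace ℝ P]
  [NormedSpace ℂ P] [IsScalarTower ℝ ℂ P] [FiniteDimensional ℂ P] {A : Atl M P} {π : P →L[ℂ] P}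
  {H : ℂ × ℂ → M} {W : Set (ℂ × ℂ)}

theorem Slice.area_hor (h : A.Slice π H W) : ∃ A₁ : ℝ, ∀ᶠ y : ℝ in 𝓝[>] 0,
    ∫ x in ball (0 : ℂ) (7 * (y / 10)), A.en H (x, y) (1, 0) ≤ A₁ := by
  obtain ⟨C₀, hC⟩ := Cons.flux
  obtain ⟨C₁, A₀, -, hA, -⟩ := h.annulus
  refine ⟨A₀ + C₀ * (A.θ / 5), ?_⟩
  filter_upwards [hA, inW h, h.away 1 one_pos, self_mem_nhdsWithin] with y h1 h2 h3 hy
  have hy : 0 < y := hy
  have hθ : 0 ≤ A.θ := zero_le_one.trans A.one_le_θ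
  have hW : ∀ t ∈ Icc (0 : ℝ) 1, ∀ x : ℂ, ‖x‖ ≤ 8 * (y / 10) → tilt y (x, t) ∈ W := by
    intro t ht x hx
    obtain ⟨-, b2, b3⟩ := tilt_bounds hy ht hx
    exact h2 _ (max_le (by show ‖x‖ ≤ _; linarith) b2) b3
  have key := hC (cons_tilt h y) (r := y / 10) (B := 2 * A.θ / y) (by positivity) (by positivity)
    hW ?_
  · have e0 : ∫ x in ball (0 : ℂ) (7 * (y / 10)), A.en H (x, y) (1, 0) =
        ∫ x in ball (0 : ℂ) (7 * (y / 10)), A.T (H ∘ tilt y) (x, 0) (1, 0) (Complex.I, 0) := by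
      refine setIntegral_congr_fun measurableSet_ball fun x hx => ?_
      have hx' : ‖x‖ ≤ 8 * (y / 10) := by linarith [mem_ball_zero_iff.1 hx]
      show _ = A.T (H ∘ tilt y) (x, 0) (1, 0) (Complex.I, 0)
      rw [e_tilt h (hW 0 ⟨le_rfl, zero_le_one⟩ x hx')]
      simp [tilt]
    have e1 : ∫ x in ball (0 : ℂ) (8 * (y / 10)), A.T (H ∘ tilt y) (x, 1) (1, 0) (Complex.I, 0) =
        ∫ x in ball (0 : ℂ) (8 * (y / 10)), A.en H (x, y - x) (1, -1) := by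
      refine setIntegral_congr_fun measurableSet_ball fun x hx => ?_
      show A.T (H ∘ tilt y) (x, 1) (1, 0) (Complex.I, 0) = _
      rw [e_tilt h (hW 1 ⟨zero_le_one, le_rfl⟩ x (mem_ball_zero_iff.1 hx).le)]
      simp [tilt]
    have hW' : ∀ x ∈ closedBall (0 : ℂ) y, (x, (y : ℂ) - x) ∈ W := by
      intro x hx
      have hx' := mem_closedBall_zero_iff.1 hx
      have b := norm_sub_le (y : ℂ) x
      rw [Complex.norm_real, Real.norm_of_nonneg hy.le] at b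
      refine h2 _ (max_le (by show ‖x‖ ≤ _; linarith) (by show ‖(y : ℂ) - x‖ ≤ _; linarith)) ?_
      simp only [add_sub_cancel, Complex.ofReal_re]
      linarith
    have hc : ContinuousOn (fun x : ℂ => A.en H (x, y - x) (1, -1)) (closedBall 0 y) := by
      intro x hx
      refine ContinuousAt.continuousWithinAt ?_
      exact ContinuousAt.comp (f := fun x : ℂ => (x, (y : ℂ) - x))
        ((h.hol _ (hW' x hx)).continuousAt_en (1, -1)) (by fun_prop)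
    have e2 : ∫ x in ball (0 : ℂ) (8 * (y / 10)), A.en H (x, y - x) (1, -1) ≤
        ∫ x in ball (0 : ℂ) y, A.en H (x, y - x) (1, -1) := by
      refine setIntegral_mono_set ((hc.integrableOn_compact (isCompact_closedBall _ _)).mono_set
        ball_subset_closedBall) ?_ (ball_subset_ball (by linarith)).eventuallyLE
      refine (ae_restrict_iff' measurableSet_ball).2 (Eventually.of_forall fun x hx => ?_)
      exact (h.hol _ (hW' x (ball_subset_closedBall hx))).en_nonneg _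
    have e3 : C₀ * (2 * A.θ / y) * (y / 10) = C₀ * (A.θ / 5) := by field_simp; ring
    rw [e0]
    rw [e1, e3] at key
    linarith
  · intro t ht x x1 x2
    obtain ⟨b1, b2, b3⟩ := tilt_bounds hy ht x2
    obtain ⟨a1, a2⟩ := h3 x _ (by linarith) (by linarith) b1 (by linarith) b3
    have hz := hW t ht x x2
    have nt : ‖(t : ℂ)‖ ≤ 1 := by rw [Complex.norm_real, Real.norm_of_nonneg ht.1]; exact ht.2
    constructor
    · show |A.T (H ∘ tilt y) (x, t) (Complex.I, 0) (0, 1)| ≤ _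
      rw [T_tilt h hz]
      exact (T_bound (h.hol _ hz) hy a1 a2 (by simp) (by simpa using nt)
        (by simp; linarith)).1
    · show |A.T (H ∘ tilt y) (x, t) (0, 1) (1, 0)| ≤ _
      rw [T_tilt h hz]
      exact (T_bound (h.hol _ hz) hy a1 a2 (by simp) (by simpa using nt)
        (by simp; linarith)).2

theorem Slice.axis (h : A.Slice π H W) (ε : ℝ) (hε : 0 < ε) : ∀ᶠ y : ℝ in 𝓝[>] 0, ∀ x : ℂ,
    ‖x‖ ≤ y / 2 → y ^ 2 * A.en H (x, y) (0, 1) ≤ ε := by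
  obtain ⟨A₁, hA⟩ := h.area_hor
  obtain ⟨Θ, hΘ, hh⟩ := A.hole A₁
  filter_upwards [hA, inW h, h.away (ε / Θ) (div_pos hε hΘ), self_mem_nhdsWithin]
    with y h1 h2 h3 hy x hx
  have hy : 0 < y := hy
  have ny : ‖(y : ℂ)‖ = y := by rw [Complex.norm_real, Real.norm_of_nonneg hy.le]
  have hre : ∀ x : ℂ, ‖x‖ ≤ 7 * (y / 10) → y / 10 ≤ (x + y).re := by
    intro x hx
    have := (abs_le.1 ((Complex.abs_re_le_norm x).trans hx)).1
    rw [Complex.add_re, Complex.ofReal_re]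
    linarith
  have hW : ∀ x : ℂ, ‖x‖ ≤ 7 * (y / 10) → (x, (y : ℂ)) ∈ W := fun x hx =>
    h2 _ (max_le (by show ‖x‖ ≤ _; linarith) (by show ‖(y : ℂ)‖ ≤ _; linarith)) (hre x hx)
  have y2 : 0 < y ^ 2 := by positivity
  have key := hh (fun x => H (x, y)) (fun x => A.en H (x, y) (0, 1)) (7 * (y / 10)) (6 * (y / 10))
    (ε / Θ / y ^ 2) (by positivity) (by linarith) (by positivity) ?_ ?_ ?_ ?_ x
    (mem_ball_zero_iff.2 (by linarith))
  · rw [← le_div_iff₀' y2]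
    refine key.trans (le_of_eq ?_)
    field_simp
  · intro x hx
    have hz := hW x (mem_closedBall_zero_iff.1 hx)
    refine ⟨(hor h hz).1, by rw [(hor h hz).2]; exact (h.en_pos hz).1, ?_⟩
    exact ContinuousAt.comp (f := fun x : ℂ => (x, (y : ℂ)))
      ((h.hol _ hz).continuousAt_en (0, 1)) (by fun_prop)
  · intro a O hO hs ha
    exact h.harnack a hO y fun x hx => ⟨hW x (mem_ball_zero_iff.1 (hs hx)).le, ha x hx⟩
  · intro x x1 x2
    rw [le_div_iff₀' y2]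
    exact (h3 x y (by linarith) (by linarith) (by linarith) (by linarith) (hre x x2.le)).2
  · refine le_of_eq_of_le (setIntegral_congr_fun measurableSet_ball fun x hx => ?_) h1
    exact (hor h (hW x (mem_ball_zero_iff.1 hx).le)).2

end Vale.Agent.P278.Atl
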